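import Mathlib
import Vale.Agent.Lib.PNT.PNT

/-! Sums of `log p` over primes in linearly growing intervals, and the resulting bound for a
quotient of a least common multiple by a product of such primes. -/

namespace Vale.Agent.P021

open Filter Topology Finset

open Classical in
/-- the primes `p ≤ B n` lying in one of the intervals `(lo i * n, hi i * n]` -/
noncomputable def SP (B : ℕ) {ι : Type} (s : Finset ι) (lo hi : ι → ℝ) (n : ℕ) : Finset ℕ :=
  (Finset.Icc 1 (B * n)).filter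
    (fun p => p.Prime ∧ ∃ i ∈ s, lo i * n < p ∧ (p : ℝ) ≤ hi i * n)

theorem tendsto_theta_mul_div (c : ℝ) (hc : 0 ≤ c) :
    Tendsto (fun n : ℕ => Chebyshev.theta (c * n) / n) atTop (𝓝 c) := by
  rcases hc.eq_or_lt with h | h
  · subst h
    simp
  · have h1 : Tendsto (fun n : ℕ => c * (n : ℝ)) atTop atTop :=
      Tendsto.const_mul_atTop h tendsto_natCast_atTop_atTop
    have h2 := (Vale.Agent.PNT.tendsto_theta_div.comp h1).const_mul c
    rw [mul_one] at h2
    refine h2.congr' ?_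
    filter_upwards [eventually_gt_atTop 0] with n hn
    have hn' : (n : ℝ) ≠ 0 := by positivity
    simp only [Function.comp]
    field_simp

theorem theta_sub_theta {a b : ℝ} (ha : 0 ≤ a) (hab : a ≤ b) :
    Chebyshev.theta b - Chebyshev.theta a
      = ∑ p ∈ (Finset.Ioc ⌊a⌋₊ ⌊b⌋₊).filter Nat.Prime, Real.log p := by
  unfold Chebyshev.theta
  have hfl : ⌊a⌋₊ ≤ ⌊b⌋₊ := Nat.floor_le_floor hab
  have hdis : Disjoint ((Finset.Ioc 0 ⌊a⌋₊).filter Nat.Prime)
      ((Finset.Ioc ⌊a⌋₊ ⌊b⌋₊).filter Nat.Prime) := by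
    rw [Finset.disjoint_left]
    intro p hp hp'
    simp only [Finset.mem_filter, Finset.mem_Ioc] at hp hp'
    omega
  have hun : (Finset.Ioc 0 ⌊b⌋₊).filter Nat.Prime
      = (Finset.Ioc 0 ⌊a⌋₊).filter Nat.Prime ∪ (Finset.Ioc ⌊a⌋₊ ⌊b⌋₊).filter Nat.Prime := by
    ext p
    simp only [Finset.mem_filter, Finset.mem_Ioc, Finset.mem_union]
    constructor
    · rintro ⟨⟨h1, h2⟩, h3⟩
      by_cases h : p ≤ ⌊a⌋₊
      · exact Or.inl ⟨⟨h1, h⟩, h3⟩
      · exact Or.inr ⟨⟨by omega, h2⟩, h3⟩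
    · rintro (⟨⟨h1, h2⟩, h3⟩ | ⟨⟨h1, h2⟩, h3⟩)
      · exact ⟨⟨h1, by omega⟩, h3⟩
      · exact ⟨⟨by omega, h2⟩, h3⟩
  rw [hun, Finset.sum_union hdis]
  ring

theorem sum_log_SP_eq (B : ℕ) {ι : Type} (s : Finset ι) (lo hi : ι → ℝ)
    (h0 : ∀ i ∈ s, 0 ≤ lo i) (h1 : ∀ i ∈ s, lo i ≤ hi i) (h2 : ∀ i ∈ s, hi i ≤ B)
    (h3 : ∀ i ∈ s, ∀ j ∈ s, i ≠ j → hi i ≤ lo j ∨ hi j ≤ lo i) (n : ℕ) :
    ∑ p ∈ SP B s lo hi n, Real.log p
      = ∑ i ∈ s, (Chebyshev.theta (hi i * n) - Chebyshev.theta (lo i * n)) := by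
  classical
  have hn : (0 : ℝ) ≤ n := Nat.cast_nonneg n
  have hSP : SP B s lo hi n
      = s.biUnion (fun i => (Finset.Ioc ⌊lo i * n⌋₊ ⌊hi i * n⌋₊).filter Nat.Prime) := by
    ext p
    simp only [SP, Finset.mem_filter, Finset.mem_Icc, Finset.mem_biUnion, Finset.mem_Ioc]
    constructor
    · rintro ⟨_, hp, i, hi', h4, h5⟩
      refine ⟨i, hi', ⟨?_, ?_⟩, hp⟩
      · exact (Nat.floor_lt (mul_nonneg (h0 i hi') hn)).2 h4
      · exact Nat.le_floor h5
    · rintro ⟨i, hi', ⟨h4, h5⟩, hp⟩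
      have h6 : lo i * n < p := (Nat.floor_lt (mul_nonneg (h0 i hi') hn)).1 h4
      have h7 : (p : ℝ) ≤ hi i * n :=
        (Nat.le_floor_iff (mul_nonneg ((h0 i hi').trans (h1 i hi')) hn)).1 h5
      refine ⟨⟨hp.one_le, ?_⟩, hp, i, hi', h6, h7⟩
      have : (p : ℝ) ≤ ((B * n : ℕ) : ℝ) := by
        push_cast
        exact h7.trans (mul_le_mul_of_nonneg_right (h2 i hi') hn)
      exact_mod_cast this
  rw [hSP, Finset.sum_biUnion]
  · refine Finset.sum_congr rfl fun i hi' => ?_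
    rw [theta_sub_theta (mul_nonneg (h0 i hi') hn) (mul_le_mul_of_nonneg_right (h1 i hi') hn)]
  · intro i hi' j hj hij
    simp only [Function.onFun]
    rw [Finset.disjoint_left]
    intro p hp hp'
    simp only [Finset.mem_filter, Finset.mem_Ioc] at hp hp'
    rcases h3 i hi' j hj hij with h | h
    · have : ⌊hi i * n⌋₊ ≤ ⌊lo j * n⌋₊ :=
        Nat.floor_le_floor (mul_le_mul_of_nonneg_right h hn)
      omega
    · have : ⌊hi j * n⌋₊ ≤ ⌊lo i * n⌋₊ :=
        Nat.floor_le_floor (mul_le_mul_of_nonneg_right h hn)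
      omega

theorem sum_log_SP (B : ℕ) {ι : Type} (s : Finset ι) (lo hi : ι → ℝ)
    (h0 : ∀ i ∈ s, 0 ≤ lo i) (h1 : ∀ i ∈ s, lo i ≤ hi i) (h2 : ∀ i ∈ s, hi i ≤ B)
    (h3 : ∀ i ∈ s, ∀ j ∈ s, i ≠ j → hi i ≤ lo j ∨ hi j ≤ lo i) :
    Tendsto (fun n : ℕ => (∑ p ∈ SP B s lo hi n, Real.log p) / n) atTop
      (𝓝 (∑ i ∈ s, (hi i - lo i))) := by
  have h : Tendsto (fun n : ℕ => ∑ i ∈ s,
      (Chebyshev.theta (hi i * n) / n - Chebyshev.theta (lo i * n) / n)) atTop
      (𝓝 (∑ i ∈ s, (hi i - lo i))) := by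
    refine tendsto_finsetSum _ fun i hi' => ?_
    exact (tendsto_theta_mul_div _ ((h0 i hi').trans (h1 i hi'))).sub
      (tendsto_theta_mul_div _ (h0 i hi'))
  refine h.congr fun n => ?_
  rw [sum_log_SP_eq B s lo hi h0 h1 h2 h3 n, Finset.sum_div]
  refine Finset.sum_congr rfl fun i _ => ?_
  ring

theorem tendsto_log_lcm_mul_add (c t : ℕ) :
    Tendsto (fun n : ℕ => Real.log (Nat.lcmUpto (c * n + t)) / n) atTop (𝓝 (c : ℝ)) := by
  rcases Nat.eq_zero_or_pos c with h | h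
  · subst h
    simp only [zero_mul, zero_add, Nat.cast_zero]
    exact tendsto_const_nhds.div_atTop tendsto_natCast_atTop_atTop
  · have h1 : Tendsto (fun n : ℕ => c * n + t) atTop atTop := by
      refine tendsto_atTop_mono (fun n => ?_) tendsto_id
      simp only [id]
      nlinarith
    have h2 := Vale.Agent.PNT.tendsto_log_lcmUpto_div.comp h1
    have h3 : Tendsto (fun n : ℕ => ((c * n + t : ℕ) : ℝ) / n) atTop (𝓝 (c : ℝ)) := by
      have h4 : Tendsto (fun n : ℕ => (c : ℝ) + (t : ℝ) / n) atTop (𝓝 ((c : ℝ) + 0)) :=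
        tendsto_const_nhds.add (tendsto_const_nhds.div_atTop tendsto_natCast_atTop_atTop)
      rw [add_zero] at h4
      refine h4.congr' ?_
      filter_upwards [eventually_gt_atTop 0] with n hn
      have hn' : (n : ℝ) ≠ 0 := by positivity
      push_cast
      field_simp
    have h5 := h2.mul h3
    rw [one_mul] at h5
    refine h5.congr' ?_
    filter_upwards [eventually_gt_atTop 0] with n hn
    have hn' : (n : ℝ) ≠ 0 := by positivity
    have hcn : ((c * n + t : ℕ) : ℝ) ≠ 0 := by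
      have : 0 < c * n + t := by positivity
      positivity
    simp only [Function.comp]
    field_simp

theorem denom_bound (B : ℕ) {ι : Type} (s : Finset ι) (lo hi : ι → ℝ)
    (h0 : ∀ i ∈ s, 0 ≤ lo i) (h1 : ∀ i ∈ s, lo i ≤ hi i) (h2 : ∀ i ∈ s, hi i ≤ B)
    (h3 : ∀ i ∈ s, ∀ j ∈ s, i ≠ j → hi i ≤ lo j ∨ hi j ≤ lo i) (c t C : ℕ)
    (Y : ℝ) (hY : (c : ℝ) - ∑ i ∈ s, (hi i - lo i) < Y) :
    ∀ᶠ n : ℕ in atTop, ((C : ℝ) * (n + 1)) * Nat.lcmUpto (c * n + t)
      / (∏ p ∈ SP B s lo hi n, (p : ℝ)) ≤ Real.exp (Y * n) := by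
  have hA := sum_log_SP B s lo hi h0 h1 h2 h3
  have hL := tendsto_log_lcm_mul_add c t
  have hC : Tendsto (fun n : ℕ => Real.log (((C : ℝ) + 1) * (n + 1)) / n) atTop (𝓝 0) := by
    have e1 : Tendsto (fun n : ℕ => Real.log ((C : ℝ) + 1) / n) atTop (𝓝 0) :=
      tendsto_const_nhds.div_atTop tendsto_natCast_atTop_atTop
    have e2 : Tendsto (fun n : ℕ => Real.log ((n : ℝ) + 1) / n) atTop (𝓝 0) := by
      have e3 : Tendsto (fun x : ℝ => Real.log x / x) atTop (𝓝 0) := by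
        have := Real.isLittleO_log_id_atTop.tendsto_div_nhds_zero
        exact this
      have e4 : Tendsto (fun n : ℕ => ((n : ℝ) + 1)) atTop atTop :=
        tendsto_atTop_add_const_right _ _ tendsto_natCast_atTop_atTop
      have e5 := e3.comp e4
      have e6 : Tendsto (fun n : ℕ => 1 + (1 : ℝ) / n) atTop (𝓝 (1 + 0)) :=
        tendsto_const_nhds.add (tendsto_const_nhds.div_atTop tendsto_natCast_atTop_atTop)
      have e7 := e5.mul e6
      rw [zero_mul] at e7
      refine e7.congr' ?_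
      filter_upwards [eventually_gt_atTop 0] with n hn
      have hn' : (n : ℝ) ≠ 0 := by positivity
      have hn1 : (n : ℝ) + 1 ≠ 0 := by positivity
      simp only [Function.comp]
      field_simp
    have e8 := e1.add e2
    rw [add_zero] at e8
    refine e8.congr fun n => ?_
    rw [Real.log_mul (by positivity) (by positivity)]
    ring
  have hT := (hC.add hL).sub hA
  rw [zero_add] at hT
  have hev := hT.eventually (gt_mem_nhds hY)
  filter_upwards [hev, eventually_gt_atTop 0] with n hn hpos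
  have hn' : (0 : ℝ) < n := by exact_mod_cast hpos
  have hprod : (0 : ℝ) < ∏ p ∈ SP B s lo hi n, (p : ℝ) := by
    refine Finset.prod_pos fun p hp => ?_
    simp only [SP, Finset.mem_filter] at hp
    exact_mod_cast hp.2.1.pos
  have hlcm : (0 : ℝ) < (Nat.lcmUpto (c * n + t) : ℝ) := by
    have : Nat.lcmUpto (c * n + t) ≠ 0 := by
      unfold Nat.lcmUpto
      rw [Ne, Finset.lcm_eq_zero_iff]
      simp
    positivity
  have hlogprod : Real.log (∏ p ∈ SP B s lo hi n, (p : ℝ))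
      = ∑ p ∈ SP B s lo hi n, Real.log p := by
    rw [Real.log_prod]
    intro p hp
    simp only [SP, Finset.mem_filter] at hp
    exact_mod_cast hp.2.1.ne_zero
  have hmain : Real.log (((C : ℝ) + 1) * (n + 1)) + Real.log (Nat.lcmUpto (c * n + t))
      - ∑ p ∈ SP B s lo hi n, Real.log p ≤ Y * n := by
    have := hn.le
    rw [← add_div, ← sub_div, div_le_iff₀ hn'] at this
    exact this
  rw [div_le_iff₀ hprod]
  calc ((C : ℝ) * (n + 1)) * Nat.lcmUpto (c * n + t)
      ≤ (((C : ℝ) + 1) * (n + 1)) * Nat.lcmUpto (c * n + t) := by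
        refine mul_le_mul_of_nonneg_right ?_ hlcm.le
        refine mul_le_mul_of_nonneg_right ?_ (by positivity)
        linarith
    _ = Real.exp (Real.log (((C : ℝ) + 1) * (n + 1)) + Real.log (Nat.lcmUpto (c * n + t))) := by
        rw [Real.exp_add, Real.exp_log (by positivity), Real.exp_log hlcm]
    _ ≤ Real.exp (Y * n + Real.log (∏ p ∈ SP B s lo hi n, (p : ℝ))) := by
        rw [hlogprod]
        apply Real.exp_le_exp.2
        linarith
    _ = Real.exp (Y * n) * ∏ p ∈ SP B s lo hi n, (p : ℝ) := by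
        rw [Real.exp_add, Real.exp_log hprod]

end Vale.Agent.P021
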