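import Vale.Agent.Lib.P021.Bounds

/-!
# An integrality statement through power series with Gaussian integer coefficients
-/

namespace Vale.Agent.P021
open Polynomial Complex

/-- power series with Gaussian integer coefficients -/
noncomputable def GS : Subring (PowerSeries ℂ) := (PowerSeries.map GaussianInt.toComplex).range

theorem GS_coeff {f : PowerSeries ℂ} (hf : f ∈ GS) (m : ℕ) :
    ∃ γ : GaussianInt, PowerSeries.coeff m f = GaussianInt.toComplex γ := by
  obtain ⟨g, rfl⟩ := hf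
  exact ⟨PowerSeries.coeff m g, by simp⟩

theorem GS_X : (PowerSeries.X : PowerSeries ℂ) ∈ GS := ⟨PowerSeries.X, by simp⟩

theorem GS_I : (PowerSeries.C I : PowerSeries ℂ) ∈ GS :=
  ⟨PowerSeries.C ⟨0, 1⟩, by simp [GaussianInt.toComplex_def]⟩

theorem GS_inv {f g : PowerSeries ℂ} (hf : f ∈ GS) (h0 : PowerSeries.constantCoeff f = 1)
    (hfg : f * g = 1) : g ∈ GS := by
  obtain ⟨f0, rfl⟩ := hf
  have h1 : PowerSeries.constantCoeff f0 = 1 := by
    apply GaussianInt.toComplex_injective
    rw [map_one, ← h0]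
    rw [← PowerSeries.coeff_zero_eq_constantCoeff_apply,
      ← PowerSeries.coeff_zero_eq_constantCoeff_apply, PowerSeries.coeff_map]
  have h2 : IsUnit f0 := PowerSeries.isUnit_iff_constantCoeff.2 (by rw [h1]; exact isUnit_one)
  obtain ⟨g0, hg0⟩ := h2.exists_right_inv
  refine ⟨g0, ?_⟩
  have h3 := congrArg (PowerSeries.map GaussianInt.toComplex) hg0
  rw [map_mul, map_one] at h3
  calc PowerSeries.map GaussianInt.toComplex g0
      = (PowerSeries.map GaussianInt.toComplex f0 * g) * PowerSeries.map GaussianInt.toComplex g0 := by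
        rw [hfg, one_mul]
    _ = (PowerSeries.map GaussianInt.toComplex f0 * PowerSeries.map GaussianInt.toComplex g0) * g := by
        ring
    _ = g := by rw [h3, one_mul]

/-- `1 + (1+I) x` -/
noncomputable def sl : PowerSeries ℂ := 1 + (1 + PowerSeries.C I) * PowerSeries.X
/-- `1 + 2x + (1+I) x^2` -/
noncomputable def se : PowerSeries ℂ :=
  1 + 2 * PowerSeries.X + (1 + PowerSeries.C I) * PowerSeries.X ^ 2
/-- the inverse of `sl` -/
noncomputable def sli : PowerSeries ℂ := sl⁻¹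
/-- the inverse of `se` -/
noncomputable def sei : PowerSeries ℂ := se⁻¹
/-- numerator of `sT` -/
noncomputable def st : PowerSeries ℂ :=
  2 + 4 * PowerSeries.C I * PowerSeries.X + (-2 + 2 * PowerSeries.C I) * PowerSeries.X ^ 2
/-- the series of `TT` in the local coordinate -/
noncomputable def sT : PowerSeries ℂ := st * sli
/-- the series of `YY` in the local coordinate -/
noncomputable def sy : PowerSeries ℂ := 2 * PowerSeries.C I * se * sli
/-- the inverse of `sy` -/
noncomputable def syi : PowerSeries ℂ := PowerSeries.C (-(I / 2)) * sl * sei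

theorem hI : (PowerSeries.C I : PowerSeries ℂ) * PowerSeries.C I = -1 := by
  rw [← map_mul, I_mul_I]; simp

theorem sl_const : PowerSeries.constantCoeff sl = 1 := by simp [sl]
theorem se_const : PowerSeries.constantCoeff se = 1 := by simp [se]

theorem sl_mul : sl * sli = 1 := PowerSeries.mul_inv_cancel _ (by rw [sl_const]; exact one_ne_zero)
theorem se_mul : se * sei = 1 := PowerSeries.mul_inv_cancel _ (by rw [se_const]; exact one_ne_zero)

theorem sl_mem : sl ∈ GS :=
  add_mem (one_mem _) (mul_mem (add_mem (one_mem _) GS_I) GS_X)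
theorem two_mem' : (2 : PowerSeries ℂ) ∈ GS := by
  rw [← one_add_one_eq_two]; exact add_mem (one_mem _) (one_mem _)
theorem se_mem : se ∈ GS :=
  add_mem (add_mem (one_mem _) (mul_mem two_mem' GS_X))
    (mul_mem (add_mem (one_mem _) GS_I) (pow_mem GS_X 2))
theorem sli_mem : sli ∈ GS := GS_inv sl_mem sl_const sl_mul
theorem sei_mem : sei ∈ GS := GS_inv se_mem se_const se_mul

theorem two_eq : (2 : PowerSeries ℂ) = PowerSeries.C 2 := (map_ofNat PowerSeries.C 2).symm
theorem four_eq : (4 : PowerSeries ℂ) = PowerSeries.C 4 := (map_ofNat PowerSeries.C 4).symm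

theorem cc_two : PowerSeries.constantCoeff (2 : PowerSeries ℂ) = 2 := by
  rw [two_eq, PowerSeries.constantCoeff_C]

theorem D_two : PowerSeries.derivative ℂ (2 : PowerSeries ℂ) = 0 := by
  rw [two_eq, PowerSeries.derivative_C]
theorem D_four : PowerSeries.derivative ℂ (4 : PowerSeries ℂ) = 0 := by
  rw [four_eq, PowerSeries.derivative_C]

theorem hI3 : (PowerSeries.C (-(I / 2)) : PowerSeries ℂ) * (2 * PowerSeries.C I) = 1 := by
  rw [two_eq, ← map_mul, ← map_mul, show (-(I / 2) * (2 * I) : ℂ) = -(I * I) by ring, I_mul_I]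
  simp

theorem sy_mul : sy * syi = 1 := by
  unfold sy syi
  linear_combination (sl * sli * se * sei) * hI3 + (se * sei) * sl_mul + se_mul

theorem D_sl : PowerSeries.derivative ℂ sl = 1 + PowerSeries.C I := by
  unfold sl
  rw [map_add, Derivation.leibniz, map_add, PowerSeries.derivative_X, PowerSeries.derivative_C]
  simp

theorem D_se : PowerSeries.derivative ℂ se = 2 + 2 * (1 + PowerSeries.C I) * PowerSeries.X := by
  unfold se
  rw [map_add, map_add, Derivation.leibniz, Derivation.leibniz, map_add, PowerSeries.derivative_X,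
    PowerSeries.derivative_C, PowerSeries.derivative_pow, PowerSeries.derivative_X, D_two]
  simp
  ring

theorem D_st : PowerSeries.derivative ℂ st =
    4 * PowerSeries.C I + 2 * (-2 + 2 * PowerSeries.C I) * PowerSeries.X := by
  unfold st
  rw [map_add, map_add, Derivation.leibniz, Derivation.leibniz, Derivation.leibniz, map_add,
    map_neg, Derivation.leibniz, PowerSeries.derivative_X,
    PowerSeries.derivative_C, PowerSeries.derivative_pow, PowerSeries.derivative_X, D_two, D_four]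
  simp
  ring

theorem D_sli : PowerSeries.derivative ℂ sli = -((1 + PowerSeries.C I) * sli ^ 2) := by
  unfold sli
  rw [PowerSeries.derivative_inv', D_sl]
  ring

theorem D_sT : PowerSeries.derivative ℂ sT = (1 + PowerSeries.C I) * sy * sli := by
  have h1 : PowerSeries.derivative ℂ sT = st * PowerSeries.derivative ℂ sli +
      sli * PowerSeries.derivative ℂ st := by
    unfold sT; rw [Derivation.leibniz]; simp [smul_eq_mul]
  rw [h1, D_sli, D_st]
  have h3 : (4 * PowerSeries.C I + 2 * (-2 + 2 * PowerSeries.C I) * PowerSeries.X) * sl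
      - (1 + PowerSeries.C I) * st = (1 + PowerSeries.C I) * (2 * PowerSeries.C I * se) := by
    unfold sl st se
    linear_combination (-2 - 4 * PowerSeries.X - 2 * PowerSeries.X ^ 2
      - 2 * PowerSeries.C I * PowerSeries.X ^ 2) * hI
  unfold sy
  linear_combination sli ^ 2 * h3 -
    (sli * (4 * PowerSeries.C I + 2 * (-2 + 2 * PowerSeries.C I) * PowerSeries.X)) * sl_mul

theorem D_sy : PowerSeries.derivative ℂ sy = (1 + PowerSeries.C I) * sT * sli := by
  have h1 : PowerSeries.derivative ℂ sy = 2 * PowerSeries.C I * (se * PowerSeries.derivative ℂ sli +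
      sli * PowerSeries.derivative ℂ se) := by
    unfold sy
    rw [mul_assoc, Derivation.leibniz, Derivation.leibniz, Derivation.leibniz, D_two,
      PowerSeries.derivative_C]
    simp [smul_eq_mul]
  rw [h1, D_sli, D_se]
  have h3 : 2 * PowerSeries.C I * ((2 + 2 * (1 + PowerSeries.C I) * PowerSeries.X) * sl
      - (1 + PowerSeries.C I) * se) = (1 + PowerSeries.C I) * st := by
    unfold sl st se
    linear_combination (-2 + 2 * PowerSeries.X ^ 2
      + 2 * PowerSeries.C I * PowerSeries.X ^ 2) * hI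
  unfold sT
  linear_combination sli ^ 2 * h3 -
    (sli * 2 * PowerSeries.C I * (2 + 2 * (1 + PowerSeries.C I) * PowerSeries.X)) * sl_mul

theorem D_syi_pow (m : ℕ) : PowerSeries.derivative ℂ (syi ^ m) =
    -((m : PowerSeries ℂ) * syi ^ (m + 1) * ((1 + PowerSeries.C I) * sT * sli)) := by
  have h0 : PowerSeries.derivative ℂ (sy * syi) = 0 := by
    rw [sy_mul, PowerSeries.derivative_one]
  rw [Derivation.leibniz, smul_eq_mul, smul_eq_mul, D_sy] at h0
  have h1 : PowerSeries.derivative ℂ syi = - (syi ^ 2 * ((1 + PowerSeries.C I) * sT * sli)) := by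
    linear_combination syi * h0 - (PowerSeries.derivative ℂ syi) * sy_mul
  rw [PowerSeries.derivative_pow, h1]
  rcases Nat.eq_zero_or_pos m with h | h
  · subst h; simp
  · obtain ⟨r, rfl⟩ : ∃ r, m = r + 1 := ⟨m - 1, by omega⟩
    simp only [Nat.add_sub_cancel]
    ring

theorem sT_sub_two : sT - 2 = (1 + PowerSeries.C I) ^ 3 * (PowerSeries.X * (PowerSeries.X + 1) * sli) := by
  have h3 : st - 2 * sl = (1 + PowerSeries.C I) ^ 3 * (PowerSeries.X * (PowerSeries.X + 1)) := by
    unfold sl st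
    linear_combination (-3 * PowerSeries.X - 3 * PowerSeries.X ^ 2
      - PowerSeries.C I * PowerSeries.X - PowerSeries.C I * PowerSeries.X ^ 2) * hI
  unfold sT
  linear_combination sli * h3 + 2 * sl_mul

theorem sT_sq : sT ^ 2 - 8 = sy ^ 2 := by
  have h3 : st ^ 2 - 8 * sl ^ 2 = (2 * PowerSeries.C I * se) ^ 2 := by
    unfold sl st se
    linear_combination (-4 - 16 * PowerSeries.X - 16 * PowerSeries.X ^ 2 + 4 * PowerSeries.X ^ 4
      - 8 * PowerSeries.C I * PowerSeries.X ^ 2 - 16 * PowerSeries.C I * PowerSeries.X ^ 3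
      - 8 * PowerSeries.C I * PowerSeries.X ^ 4 - 4 * (PowerSeries.C I) ^ 2 * PowerSeries.X ^ 4) * hI
  unfold sT sy
  linear_combination sli ^ 2 * h3 + 8 * (sl * sli + 1) * sl_mul

theorem st_mem : st ∈ GS := by
  have h4 : (4 : PowerSeries ℂ) ∈ GS := by
    rw [show (4 : PowerSeries ℂ) = 2 + 2 by norm_num]
    exact add_mem two_mem' two_mem'
  exact add_mem (add_mem two_mem' (mul_mem (mul_mem h4 GS_I) GS_X))
    (mul_mem (add_mem (neg_mem two_mem') (mul_mem two_mem' GS_I)) (pow_mem GS_X 2))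

theorem sT_mem : sT ∈ GS := mul_mem st_mem sli_mem

/-- integrality of the local expansion of the integrand -/
theorem loc_mem {M1 M2 a n e : ℕ} (ha : 4 * a ≤ 3 * M1) :
    (sT - 2) ^ (M1 * n) * (sT - 3) ^ (M2 * n) * sT ^ e * syi ^ (2 * (a * n)) ∈ GS := by
  obtain ⟨r, hr⟩ : ∃ r, 3 * (M1 * n) = 4 * (a * n) + r := by
    refine ⟨3 * (M1 * n) - 4 * (a * n), ?_⟩
    have := Nat.mul_le_mul_right n ha
    rw [mul_assoc, mul_assoc] at this
    omega
  have h1 : (1 + PowerSeries.C I) ^ 2 * syi = sl * sei := by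
    unfold syi
    linear_combination (sl * sei) * hI3 + (PowerSeries.C (-(I / 2)) * sl * sei) * hI
  have h2 : (sT - 2) ^ (M1 * n) * (sT - 3) ^ (M2 * n) * sT ^ e * syi ^ (2 * (a * n)) =
      (1 + PowerSeries.C I) ^ r * (PowerSeries.X * (PowerSeries.X + 1) * sli) ^ (M1 * n) *
        (sT - 3) ^ (M2 * n) * sT ^ e * (sl * sei) ^ (2 * (a * n)) := by
    rw [← h1, sT_sub_two, mul_pow, ← pow_mul, hr, pow_add, mul_pow ((1 + PowerSeries.C I) ^ 2),
      ← pow_mul]
    ring
  rw [h2]
  have hlam : (1 + PowerSeries.C I : PowerSeries ℂ) ∈ GS := add_mem (one_mem _) GS_I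
  have h3 : (3 : PowerSeries ℂ) ∈ GS := by
    rw [show (3 : PowerSeries ℂ) = 2 + 1 by norm_num]
    exact add_mem two_mem' (one_mem _)
  exact mul_mem (mul_mem (mul_mem (mul_mem (pow_mem hlam _) (pow_mem (mul_mem (mul_mem GS_X
    (add_mem GS_X (one_mem _))) sli_mem) _)) (pow_mem (sub_mem sT_mem h3) _)) (pow_mem sT_mem _))
    (pow_mem (mul_mem sl_mem sei_mem) _)

/-- Gaussian integers inside the complex numbers -/
noncomputable def GC : Subring ℂ := GaussianInt.toComplex.range

theorem GC_I : I ∈ GC := ⟨⟨0, 1⟩, by simp [GaussianInt.toComplex_def]⟩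

theorem GS_coeff' {f : PowerSeries ℂ} (hf : f ∈ GS) (m : ℕ) : PowerSeries.coeff m f ∈ GC := by
  obtain ⟨γ, hγ⟩ := GS_coeff hf m
  exact ⟨γ, hγ.symm⟩

/-- the local series of the primitive -/
noncomputable def sPsi (W : ℂ[X]) (k : ℕ) : PowerSeries ℂ := aeval sT W * sy * syi ^ (2 * k)

theorem D_sPsi {W P : ℂ[X]} {A : ℂ} {k : ℕ}
    (hW : (X ^ 2 - C 8) * derivative W - C (2 * (k:ℂ) - 1) * X * W = P - C A * (X ^ 2 - C 8) ^ k) :
    PowerSeries.derivative ℂ (sPsi W k) =
      (1 + PowerSeries.C I) * sli * (aeval sT P * syi ^ (2 * k) - PowerSeries.C A) := by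
  have h1 : PowerSeries.derivative ℂ (aeval sT W) =
      aeval sT (derivative W) * ((1 + PowerSeries.C I) * sy * sli) := by
    rw [Derivation.map_aeval, D_sT, smul_eq_mul]
  have h2 := congrArg (aeval sT) hW
  have h8 : (algebraMap ℂ (PowerSeries ℂ)) 8 = 8 := map_ofNat _ 8
  simp only [map_sub, map_mul, map_pow, aeval_X, aeval_C, h8, sT_sq] at h2
  have hk : (algebraMap ℂ (PowerSeries ℂ)) (2 * (k:ℂ) - 1) = 2 * (k : PowerSeries ℂ) - 1 := by
    rw [map_sub, map_mul, map_natCast, map_ofNat, map_one]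
  have hA : (algebraMap ℂ (PowerSeries ℂ)) A = PowerSeries.C A := rfl
  simp only [map_mul, map_natCast, map_ofNat, map_one] at h2
  rw [hA] at h2
  unfold sPsi
  rw [Derivation.leibniz, Derivation.leibniz, smul_eq_mul, smul_eq_mul, smul_eq_mul, smul_eq_mul,
    D_syi_pow, D_sy, h1]
  have h3 : (sy * syi) ^ (2 * k) = 1 := by rw [sy_mul, one_pow]
  rw [mul_pow] at h3
  have h4 : (sy ^ 2) ^ k = sy ^ (2 * k) := by rw [← pow_mul]
  rw [h4] at h2
  push_cast
  linear_combination ((1 + PowerSeries.C I) * sli * syi ^ (2 * k)) * h2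
    - (2 * (k : PowerSeries ℂ) * aeval sT W * sT * (1 + PowerSeries.C I) * sli * syi ^ (2 * k)) * sy_mul
    - ((1 + PowerSeries.C I) * sli * PowerSeries.C A) * h3

/-- polynomial versions -/
noncomputable def pl : ℂ[X] := 1 + (1 + C I) * X
/-- polynomial version of `se` -/
noncomputable def pe : ℂ[X] := 1 + 2 * X + (1 + C I) * X ^ 2
/-- polynomial version of `st` -/
noncomputable def pt : ℂ[X] := 2 + 4 * C I * X + (-2 + 2 * C I) * X ^ 2

theorem coe_two' : ((2 : ℂ[X]) : PowerSeries ℂ) = 2 := by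
  rw [show (2 : ℂ[X]) = C 2 from (map_ofNat C 2).symm, Polynomial.coe_C, map_ofNat]

theorem coe_four' : ((4 : ℂ[X]) : PowerSeries ℂ) = 4 := by
  rw [show (4 : ℂ[X]) = C 4 from (map_ofNat C 4).symm, Polynomial.coe_C, map_ofNat]

theorem coe_pl : (pl : PowerSeries ℂ) = sl := by
  unfold pl sl; simp
theorem coe_pe : (pe : PowerSeries ℂ) = se := by
  unfold pe se; simp [coe_two']
theorem coe_pt : (pt : PowerSeries ℂ) = st := by
  unfold pt st
  rw [show (-2 + 2 * C I : ℂ[X]) = 2 * C I - 2 by ring]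
  simp [coe_two', coe_four', sub_eq_neg_add]

/-- homogenised polynomial -/
noncomputable def pW (W : ℂ[X]) : ℂ[X] :=
  ∑ j ∈ Finset.range (W.natDegree + 1), C (W.coeff j) * (pt ^ j * pl ^ (W.natDegree - j))

theorem coe_pW (W : ℂ[X]) : ((pW W : ℂ[X]) : PowerSeries ℂ) = aeval sT W * sl ^ W.natDegree := by
  unfold pW
  rw [aeval_eq_sum_range, Finset.sum_mul]
  have : ((∑ j ∈ Finset.range (W.natDegree + 1), C (W.coeff j) * (pt ^ j * pl ^ (W.natDegree - j)) :
      ℂ[X]) : PowerSeries ℂ) = ∑ j ∈ Finset.range (W.natDegree + 1),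
        ((C (W.coeff j) * (pt ^ j * pl ^ (W.natDegree - j)) : ℂ[X]) : PowerSeries ℂ) := by
    have h0 := map_sum (Polynomial.coeToPowerSeries.ringHom (R := ℂ))
      (fun j => C (W.coeff j) * (pt ^ j * pl ^ (W.natDegree - j)))
      (Finset.range (W.natDegree + 1))
    simpa only [Polynomial.coeToPowerSeries.ringHom_apply] using h0
  rw [this]
  apply Finset.sum_congr rfl
  intro j hj
  have hj' : j ≤ W.natDegree := Nat.lt_succ_iff.1 (Finset.mem_range.1 hj)
  rw [Polynomial.coe_mul, Polynomial.coe_mul, Polynomial.coe_pow, Polynomial.coe_pow, coe_pt, coe_pl,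
    Polynomial.coe_C]
  unfold sT
  have h1 : sl ^ W.natDegree = sl ^ j * sl ^ (W.natDegree - j) := by
    rw [← pow_add]; congr 1; omega
  have h2 : sl ^ j * sli ^ j = 1 := by rw [← mul_pow, sl_mul, one_pow]
  rw [h1, mul_pow, PowerSeries.smul_eq_C_mul]
  linear_combination (- (PowerSeries.C (W.coeff j)) * st ^ j * sl ^ (W.natDegree - j)) * h2

/-- the integrality theorem -/
theorem twoAdic {M1 M2 a n e : ℕ} (ha : 4 * a ≤ 3 * M1) {W : ℚ[X]} {A : ℤ}
    (hW : (X ^ 2 - C 8) * derivative W - C (2 * ((a * n : ℕ) : ℚ) - 1) * X * W =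
      (PP M1 M2 n e).map (Int.castRingHom ℚ) - C (A:ℚ) * (X ^ 2 - C 8) ^ (a * n)) {N : ℕ}
    (hN : 2 * W.natDegree + 4 * (a * n) + 2 ≤ N) :
    ∃ m : ℤ, (Nat.lcmUpto N : ℚ) * (4 * (W.eval 2 / (-4) ^ (a * n))) = m := by
  set k := a * n with hk
  set Wc : ℂ[X] := W.map (algebraMap ℚ ℂ) with hWc
  have hd : Wc.natDegree = W.natDegree := natDegree_map _
  set d := W.natDegree with hd'
  have hWc2 : (X ^ 2 - C 8) * derivative Wc - C (2 * (k:ℂ) - 1) * X * Wc =
      (PP M1 M2 n e).map (Int.castRingHom ℂ) - C (A:ℂ) * (X ^ 2 - C 8) ^ k := by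
    have h1 := congrArg (Polynomial.map (algebraMap ℚ ℂ)) hW
    simp only [Polynomial.map_sub, Polynomial.map_mul, Polynomial.map_pow, Polynomial.map_X,
      Polynomial.map_C, ← derivative_map, Polynomial.map_map] at h1
    have h2 : (algebraMap ℚ ℂ) (2 * (k:ℚ) - 1) = 2 * (k:ℂ) - 1 := by simp
    have h3 : (algebraMap ℚ ℂ) 8 = 8 := by simp
    have h4 : (algebraMap ℚ ℂ) (A:ℚ) = (A:ℂ) := by simp
    have h5 : (algebraMap ℚ ℂ).comp (Int.castRingHom ℚ) = Int.castRingHom ℂ := RingHom.ext_int _ _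
    rw [h2, h3, h4, h5] at h1
    exact h1
  have hD := D_sPsi hWc2
  -- the derivative is integral
  have hg : PowerSeries.derivative ℂ (sPsi Wc k) ∈ GS := by
    rw [hD]
    have h1 : aeval sT ((PP M1 M2 n e).map (Int.castRingHom ℂ)) =
        (sT - 2) ^ (M1 * n) * (sT - 3) ^ (M2 * n) * sT ^ e := by
      unfold PP
      simp only [Polynomial.map_mul, Polynomial.map_pow, Polynomial.map_sub, Polynomial.map_X,
        Polynomial.map_C, map_mul, map_pow, map_sub, aeval_X, aeval_C]
      simp only [map_ofNat]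
    rw [h1]
    have hlam : (1 + PowerSeries.C I : PowerSeries ℂ) ∈ GS := add_mem (one_mem _) GS_I
    have hA : (PowerSeries.C (A:ℂ) : PowerSeries ℂ) ∈ GS :=
      ⟨PowerSeries.C (A : GaussianInt), by simp⟩
    exact mul_mem (mul_mem hlam sli_mem) (sub_mem (loc_mem ha) hA)
  -- coefficients of the primitive
  have hc : ∀ m, 1 ≤ m → m ≤ N → (Nat.lcmUpto N : ℂ) * PowerSeries.coeff m (sPsi Wc k) ∈ GC := by
    intro m hm hmN
    obtain ⟨r, rfl⟩ : ∃ r, m = r + 1 := ⟨m - 1, by omega⟩
    have h1 := GS_coeff' hg r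
    rw [PowerSeries.coeff_derivative] at h1
    have h2 : (r + 1) ∣ Nat.lcmUpto N := by
      unfold Nat.lcmUpto
      exact Finset.dvd_lcm (f := id) (Finset.mem_Icc.2 ⟨hm, hmN⟩)
    obtain ⟨c, hc⟩ := h2
    have h3 : (c : ℂ) ∈ GC := ⟨(c : GaussianInt), by simp⟩
    have h4 := mul_mem h3 h1
    rw [hc]
    push_cast
    have h5 : (((r:ℂ) + 1) * c) * PowerSeries.coeff (r + 1) (sPsi Wc k) =
        c * (PowerSeries.coeff (r + 1) (sPsi Wc k) * (r + 1)) := by ring
    rw [h5]
    exact h4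
  set Ψ0 : ℂ := PowerSeries.coeff 0 (sPsi Wc k) with hΨ0
  set qP : ℂ[X] := C (2 * I * (-(I / 2)) ^ (2 * k)) * (pW Wc * pl ^ (2 * k) * pe)
    - C Ψ0 * (pl ^ (d + 1) * pe ^ (2 * k)) with hqP
  have hq : (qP : PowerSeries ℂ) =
      (sPsi Wc k - PowerSeries.C Ψ0) * (sl ^ (d + 1) * se ^ (2 * k)) := by
    rw [hqP, Polynomial.coe_sub, Polynomial.coe_mul, Polynomial.coe_mul, Polynomial.coe_mul,
      Polynomial.coe_mul, Polynomial.coe_mul, Polynomial.coe_pow, Polynomial.coe_pow,
      Polynomial.coe_pow, coe_pW, coe_pl, coe_pe, hd, Polynomial.coe_C, Polynomial.coe_C]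
    unfold sPsi
    have h1 : (syi * se) ^ (2 * k) = (PowerSeries.C (-(I / 2)) * sl) ^ (2 * k) := by
      congr 1
      unfold syi
      linear_combination (PowerSeries.C (-(I / 2)) * sl) * se_mul
    have h2 : sy * sl = 2 * PowerSeries.C I * se := by
      unfold sy
      linear_combination (2 * PowerSeries.C I * se) * sl_mul
    have h3 : (PowerSeries.C (2 * I * (-(I / 2)) ^ (2 * k)) : PowerSeries ℂ) =
        2 * PowerSeries.C I * PowerSeries.C (-(I / 2)) ^ (2 * k) := by
      rw [map_mul, map_mul, map_pow, map_ofNat]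
    rw [h3]
    rw [mul_pow, mul_pow] at h1
    linear_combination (- aeval sT Wc * sl ^ d * 2 * PowerSeries.C I * se) * h1
      - (aeval sT Wc * syi ^ (2 * k) * sl ^ d * se ^ (2 * k)) * h2
  have hdeg : qP.natDegree ≤ N := by
    have e1 : pl.natDegree ≤ 1 := by
      unfold pl
      compute_degree
    have e2 : pe.natDegree ≤ 2 := by
      unfold pe
      compute_degree
    have e3 : pt.natDegree ≤ 2 := by
      unfold pt
      compute_degree
    have e4 : (pW Wc).natDegree ≤ 2 * d := by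
      unfold pW
      apply natDegree_sum_le_of_forall_le
      intro j hj
      rw [hd] at hj ⊢
      have hj' := Finset.mem_range.1 hj
      refine (natDegree_C_mul_le _ _).trans (natDegree_mul_le.trans ?_)
      have e5 : (pt ^ j).natDegree ≤ j * 2 := natDegree_pow_le.trans (Nat.mul_le_mul_left _ e3)
      have e6 : (pl ^ (d - j)).natDegree ≤ (d - j) * 1 :=
        natDegree_pow_le.trans (Nat.mul_le_mul_left _ e1)
      omega
    rw [hqP]
    refine (natDegree_sub_le _ _).trans (max_le ?_ ?_)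
    · refine (natDegree_C_mul_le _ _).trans ?_
      have e5 : (pl ^ (2 * k)).natDegree ≤ (2 * k) * 1 :=
        natDegree_pow_le.trans (Nat.mul_le_mul_left _ e1)
      have e6 : (pW Wc * pl ^ (2 * k)).natDegree ≤ _ := natDegree_mul_le
      have e7 : (pW Wc * pl ^ (2 * k) * pe).natDegree ≤ _ := natDegree_mul_le
      omega
    · refine (natDegree_C_mul_le _ _).trans ?_
      have e5 : (pl ^ (d + 1)).natDegree ≤ (d + 1) * 1 :=
        natDegree_pow_le.trans (Nat.mul_le_mul_left _ e1)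
      have e6 : (pe ^ (2 * k)).natDegree ≤ (2 * k) * 2 :=
        natDegree_pow_le.trans (Nat.mul_le_mul_left _ e2)
      have e7 : (pl ^ (d + 1) * pe ^ (2 * k)).natDegree ≤ _ := natDegree_mul_le
      omega
  have hcq : ∀ m, m ≤ N → (Nat.lcmUpto N : ℂ) * qP.coeff m ∈ GC := by
    intro m hm
    have h1 : qP.coeff m = PowerSeries.coeff m (qP : PowerSeries ℂ) := by rw [Polynomial.coeff_coe]
    rw [h1, hq, PowerSeries.coeff_mul, Finset.mul_sum]
    apply sum_mem
    intro ij hij
    have hij := Finset.HasAntidiagonal.mem_antidiagonal.1 hij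
    have h2 : PowerSeries.coeff ij.2 (sl ^ (d + 1) * se ^ (2 * k)) ∈ GC :=
      GS_coeff' (mul_mem (pow_mem sl_mem _) (pow_mem se_mem _)) _
    rw [← mul_assoc]
    refine mul_mem ?_ h2
    rcases Nat.eq_zero_or_pos ij.1 with h | h
    · rw [h, map_sub, ← hΨ0]
      simp
    · have h3 : PowerSeries.coeff ij.1 (sPsi Wc k - PowerSeries.C Ψ0) =
          PowerSeries.coeff ij.1 (sPsi Wc k) := by
        rw [map_sub, PowerSeries.coeff_C, if_neg (by omega), sub_zero]
      rw [h3]
      exact hc _ h (by omega)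
  have hev : (Nat.lcmUpto N : ℂ) * qP.eval (-1) ∈ GC := by
    rw [Polynomial.eval_eq_sum_range' (Nat.lt_succ_of_le hdeg), Finset.mul_sum]
    apply sum_mem
    intro m hm
    have hm' := Finset.mem_range.1 hm
    rw [← mul_assoc]
    exact mul_mem (hcq m (by omega)) (pow_mem (neg_mem (one_mem _)) _)
  -- evaluation
  have hI2 : (I ^ 2) = -1 := I_sq
  have hb : qP.eval (-1) = -(4 * ((W.eval 2 / (-4) ^ k : ℚ) : ℂ)) * ((-I) ^ d * (-1) ^ k) := by
    have el : pl.eval (-1) = -I := by
      unfold pl; simp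
    have ee : pe.eval (-1) = I := by
      unfold pe; simp; ring
    have et : pt.eval (-1) = 2 * (-I) := by
      unfold pt; simp; ring
    have hWev : Wc.eval 2 = ((W.eval 2 : ℚ) : ℂ) := by
      rw [hWc]
      have h1 := Polynomial.eval_map_apply (f := algebraMap ℚ ℂ) (p := W) 2
      have h2 : (algebraMap ℚ ℂ) 2 = 2 := map_ofNat _ 2
      rw [h2] at h1
      rw [h1]
      rfl
    have eW : (pW Wc).eval (-1) = (-I) ^ d * Wc.eval 2 := by
      unfold pW
      rw [Polynomial.eval_finsetSum, Polynomial.eval_eq_sum_range, Finset.mul_sum]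
      apply Finset.sum_congr rfl
      intro j hj
      have hj' : j ≤ Wc.natDegree := Nat.lt_succ_iff.1 (Finset.mem_range.1 hj)
      rw [eval_mul, eval_mul, eval_pow, eval_pow, eval_C, el, et, mul_pow]
      have : (-I) ^ d = (-I) ^ j * (-I) ^ (Wc.natDegree - j) := by
        rw [← pow_add]; congr 1; omega
      rw [this]
      ring
    have hP0 : Ψ0 = 2 * I * (-(I / 2)) ^ (2 * k) * Wc.eval 2 := by
      rw [hΨ0]
      unfold sPsi
      rw [PowerSeries.coeff_zero_eq_constantCoeff_apply, map_mul, map_mul, map_pow]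
      have c1 : PowerSeries.constantCoeff sT = 2 := by
        unfold sT sli
        rw [map_mul, PowerSeries.constantCoeff_inv, sl_const]
        unfold st
        simp [cc_two]
      have c2 : PowerSeries.constantCoeff sy = 2 * I := by
        unfold sy sli
        rw [map_mul, map_mul, PowerSeries.constantCoeff_inv, sl_const, se_const]
        simp [cc_two]
      have c3 : PowerSeries.constantCoeff syi = -(I / 2) := by
        unfold syi sei
        rw [map_mul, map_mul, PowerSeries.constantCoeff_inv, sl_const, se_const]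
        simp
      have c4 : PowerSeries.constantCoeff (aeval sT Wc) = Wc.eval 2 := by
        rw [aeval_eq_sum_range, Polynomial.eval_eq_sum_range, map_sum]
        apply Finset.sum_congr rfl
        intro j _
        rw [PowerSeries.smul_eq_C_mul, map_mul, map_pow, c1]
        simp
      rw [c2, c3, c4]
      ring
    rw [hqP]
    simp only [eval_sub, eval_mul, eval_C, eval_pow, el, ee, eW, hP0, hWev]
    have h1 : (-I) ^ (2 * k) = (-1) ^ k := by rw [pow_mul, neg_sq, hI2]
    have h2 : I ^ (2 * k) = (-1) ^ k := by rw [pow_mul, hI2]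
    have h3 : (-(I / 2)) ^ (2 * k) = ((-4) ^ k)⁻¹ := by
      rw [pow_mul, neg_sq, div_pow, hI2, ← inv_pow]
      norm_num
    rw [h1, h2, h3]
    push_cast
    rw [pow_succ]
    linear_combination (4 * ((W.eval 2 : ℚ) : ℂ) * ((-4) ^ k)⁻¹ * (-I) ^ d * (-1) ^ k) * hI2
  rw [hb] at hev
  have hu : ((-I) ^ d * (-1) ^ k) * (I ^ d * (-1) ^ (k + 1)) = (-1:ℂ) := by
    have h1 : (-I) ^ d * I ^ d = 1 := by
      rw [← mul_pow, show (-I * I) = 1 by linear_combination - hI2, one_pow]
    have h2 : ((-1:ℂ)) ^ k * (-1) ^ (k + 1) = -1 := by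
      rw [pow_succ, ← mul_assoc, ← mul_pow]; simp
    linear_combination ((-1:ℂ) ^ k * (-1) ^ (k + 1)) * h1 + h2
  have hfin := mul_mem hev (mul_mem (pow_mem GC_I d) (pow_mem (neg_mem (one_mem GC)) (k + 1)))
  have h5 : (Nat.lcmUpto N : ℂ) * (-(4 * ((W.eval 2 / (-4) ^ k : ℚ) : ℂ)) * ((-I) ^ d * (-1) ^ k)) *
      (I ^ d * (-1) ^ (k + 1)) = (Nat.lcmUpto N : ℂ) * (4 * ((W.eval 2 / (-4) ^ k : ℚ) : ℂ)) := by
    linear_combination (-(Nat.lcmUpto N : ℂ) * (4 * ((W.eval 2 / (-4) ^ k : ℚ) : ℂ))) * hu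
  rw [h5] at hfin
  obtain ⟨γ, hγ⟩ := hfin
  refine ⟨γ.re, ?_⟩
  have h6 := congrArg Complex.re hγ
  rw [← GaussianInt.intCast_re] at h6
  have h7 : (Nat.lcmUpto N : ℂ) * (4 * ((W.eval 2 / (-4) ^ k : ℚ) : ℂ)) =
      (((Nat.lcmUpto N : ℚ) * (4 * (W.eval 2 / (-4) ^ k)) : ℚ) : ℂ) := by push_cast; ring
  rw [h7] at h6
  have h8 : (((((Nat.lcmUpto N : ℚ) * (4 * (W.eval 2 / (-4) ^ k)) : ℚ) : ℂ)).re) =
      (((Nat.lcmUpto N : ℚ) * (4 * (W.eval 2 / (-4) ^ k)) : ℚ) : ℝ) := by
    rw [Complex.ratCast_re]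
  rw [h8] at h6
  exact_mod_cast h6.symm

end Vale.Agent.P021
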