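import Vale.Agent.Lib.P021.Savings
import Vale.Agent.Lib.P021.TwoAdic
import Vale.Agent.Lib.P021.PrimeSum

/-!
# Assembly of the linear forms in `1` and `π`
-/

namespace Vale.Agent.P021
open Polynomial Complex Filter Topology

theorem PP_map (M1 M2 n e : ℕ) : (PP M1 M2 n e).map (Int.castRingHom ℚ) =
    (X - C 2) ^ (M1 * n) * (X - C 3) ^ (M2 * n) * X ^ e := by
  unfold PP
  simp only [Polynomial.map_mul, Polynomial.map_pow, Polynomial.map_sub, Polynomial.map_X,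
    Polynomial.map_C]
  simp

theorem natDegree_PP (M1 M2 n e : ℕ) : (PP M1 M2 n e).natDegree ≤ M1 * n + M2 * n + e := by
  unfold PP
  have e1 : (X - C 2 : ℤ[X]).natDegree = 1 := natDegree_X_sub_C _
  have e2 : (X - C 3 : ℤ[X]).natDegree = 1 := natDegree_X_sub_C _
  refine natDegree_mul_le.trans (add_le_add (natDegree_mul_le.trans (add_le_add ?_ ?_)) ?_)
  · exact natDegree_pow_le.trans (by rw [e1, mul_one])
  · exact natDegree_pow_le.trans (by rw [e2, mul_one])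
  · exact natDegree_X_pow_le _

theorem den_dvd_of_int {b : ℚ} {N : ℕ} {m : ℤ} (h : (N:ℚ) * b = m) : b.den ∣ N := by
  have h13 : (N:ℚ) * b.num = m * b.den := by
    have h14 := Rat.num_div_den b
    have h15 : (b.den : ℚ) ≠ 0 := by exact_mod_cast b.den_ne_zero
    rw [← h14] at h
    field_simp at h
    linarith
  have h14 : (N:ℤ) * b.num = m * b.den := by exact_mod_cast h13
  have h15 : (b.den : ℤ) ∣ (N:ℤ) * b.num := ⟨m, by rw [h14]; ring⟩
  have h16 : IsCoprime (b.den : ℤ) b.num := by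
    have := b.reduced
    rw [Int.isCoprime_iff_gcd_eq_one, Int.gcd_comm]
    exact this
  exact Int.natCast_dvd_natCast.1 (h16.dvd_of_dvd_mul_right h15)

theorem int_of_den_dvd {b : ℚ} {D : ℕ} (h : b.den ∣ D) : ∃ m : ℤ, (D:ℚ) * b = m := by
  obtain ⟨k, rfl⟩ := h
  refine ⟨k * b.num, ?_⟩
  have h14 := Rat.num_div_den b
  have h15 : (b.den : ℚ) ≠ 0 := by exact_mod_cast b.den_ne_zero
  push_cast
  nth_rewrite 2 [← h14]
  field_simp

/-- a common denominator of controlled size -/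
theorem den_bound {b : ℚ} {L N : ℕ} (hN : N ≠ 0)
    (h1 : ∃ M : ℕ, ∃ m : ℤ, (2:ℚ) ^ M * (Nat.lcmUpto L : ℚ) * b = m)
    (h2 : ∃ m : ℤ, (Nat.lcmUpto N : ℚ) * (4 * b) = m) (S : Finset ℕ)
    (hS : ∀ p ∈ S, p.Prime ∧ p ≤ L ∧ ¬ p ∣ b.den) :
    ∃ D : ℕ, 0 < D ∧ (D:ℝ) * ∏ p ∈ S, (p:ℝ) ≤ 4 * N * Nat.lcmUpto L ∧
      ∃ m : ℤ, (D:ℚ) * b = m := by
  have hprod : (∏ p ∈ S, p) ∣ Nat.lcmUpto L := by
    apply Finset.prod_primes_dvd
    · intro p hp
      exact (hS p hp).1.prime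
    · intro p hp
      unfold Nat.lcmUpto
      exact Finset.dvd_lcm (f := id) (Finset.mem_Icc.2 ⟨(hS p hp).1.one_le, (hS p hp).2.1⟩)
  obtain ⟨E, hE⟩ := hprod
  have hE0 : E ≠ 0 := by
    rintro rfl
    rw [mul_zero] at hE
    exact Nat.lcmUpto_ne_zero _ hE
  obtain ⟨M, m, hm⟩ := h1
  obtain ⟨m', hm'⟩ := h2
  have d1 : b.den ∣ 2 ^ M * Nat.lcmUpto L := by
    apply den_dvd_of_int (m := m)
    push_cast
    exact hm
  have d2 : b.den ∣ 4 * Nat.lcmUpto N := by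
    apply den_dvd_of_int (m := m')
    push_cast
    rw [← hm']
    ring
  obtain ⟨s, o, ho, hso⟩ := Nat.exists_eq_two_pow_mul_odd b.den_ne_zero
  have d3 : o ∣ E := by
    have c1 : o ∣ 2 ^ M * Nat.lcmUpto L := (Dvd.intro_left _ hso.symm).trans d1
    have c2 : Nat.Coprime o (2 ^ M) := (Nat.coprime_two_right.2 ho).pow_right M
    have c3 : o ∣ Nat.lcmUpto L := c2.dvd_of_dvd_mul_left c1
    rw [hE] at c3
    apply Nat.Coprime.dvd_of_dvd_mul_left _ c3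
    apply Nat.Coprime.prod_right
    intro p hp
    rw [Nat.coprime_comm, (hS p hp).1.coprime_iff_not_dvd]
    intro hpo
    exact (hS p hp).2.2 (hpo.trans (Dvd.intro_left _ hso.symm))
  have d4 : s ≤ 2 + Nat.log 2 N := by
    have c1 : 2 ^ s ∣ 4 * Nat.lcmUpto N := (Dvd.intro _ hso.symm).trans d2
    have c2 := (Nat.Prime.pow_dvd_iff_le_factorization Nat.prime_two
      (mul_ne_zero (by norm_num) (Nat.lcmUpto_ne_zero N))).1 c1
    rw [Nat.factorization_mul (by norm_num) (Nat.lcmUpto_ne_zero N), Finsupp.add_apply,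
      Nat.factorization_lcmUpto _ Nat.prime_two] at c2
    have c3 : (4:ℕ).factorization 2 = 2 := by
      rw [show (4:ℕ) = 2 ^ 2 by norm_num, Nat.Prime.factorization_pow Nat.prime_two]
      simp
    omega
  refine ⟨2 ^ (2 + Nat.log 2 N) * E, by positivity, ?_, ?_⟩
  · have c1 : (2:ℕ) ^ (2 + Nat.log 2 N) ≤ 4 * N := by
      rw [pow_add]
      exact Nat.mul_le_mul (by norm_num) (Nat.pow_log_le_self 2 hN)
    have c2 : ((2:ℝ)) ^ (2 + Nat.log 2 N) ≤ 4 * N := by exact_mod_cast c1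
    rw [hE]
    push_cast
    have c3 : (0:ℝ) ≤ (E:ℝ) * ∏ p ∈ S, (p:ℝ) := by positivity
    calc (2:ℝ) ^ (2 + Nat.log 2 N) * E * ∏ p ∈ S, (p:ℝ)
        = (2:ℝ) ^ (2 + Nat.log 2 N) * (E * ∏ p ∈ S, (p:ℝ)) := by ring
      _ ≤ (4 * N) * (E * ∏ p ∈ S, (p:ℝ)) := mul_le_mul_of_nonneg_right c2 c3
      _ = 4 * N * ((∏ p ∈ S, (p:ℝ)) * E) := by ring
  · apply int_of_den_dvd
    rw [hso]
    exact Nat.mul_dvd_mul (pow_dvd_pow 2 d4) d3

section
variable {v : ℂ} (hv : 0 < v.re) (hv' : 0 < v.im)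
include hv hv'

/-- the representation of the integral with all arithmetic properties -/
theorem rep {M1 M2 a n e c : ℕ} (hc : M1 + M2 = c + 2 * a) (h2 : 2 * a ≤ c) (ha : 4 * a ≤ 3 * M1)
    (he : e < 3) {r R : ℝ} (hr : 0 < r) (hr2 : r ^ 2 < 2) (hR0 : 0 ≤ R)
    (hR : ∀ z : ℂ, ‖z‖ = r → ‖TT z - 2‖ ^ M1 * ‖TT z - 3‖ ^ M2 ≤ R * ‖YY z‖ ^ (2 * a)) :
    ∃ A : ℤ, ∃ b : ℚ,
      LL v ((PP M1 M2 n e).map (Int.castRingHom ℚ)) (a * n) = A * (Real.pi / 4) + 2 * (b:ℝ) ∧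
      (∃ M : ℕ, ∃ m : ℤ, (2:ℚ) ^ M * (Nat.lcmUpto (c * n + 2) : ℚ) * b = m) ∧
      (∃ m : ℤ, (Nat.lcmUpto ((2 * (M1 + M2) + 4 * a) * n + 6) : ℚ) * (4 * b) = m) ∧
      |(A:ℝ)| ≤ R ^ n * (r + 2 / r) ^ e := by
  have hdeg := natDegree_PP M1 M2 n e
  have hcn : M1 * n + M2 * n = c * n + 2 * (a * n) := by
    rw [← add_mul, hc]; ring
  have h2n : 2 * (a * n) ≤ c * n := by
    rw [← mul_assoc]; exact Nat.mul_le_mul_right n h2
  obtain ⟨A, b, h3, M, m, h4⟩ := good_LL hv hv' (L := c * n + 2) (a * n) (PP M1 M2 n e)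
    (by omega) (by omega)
  refine ⟨A, b, h3, ⟨M, m, h4⟩, ?_⟩
  obtain ⟨W, A', h5, h6⟩ := decomp ((PP M1 M2 n e).map (Int.castRingHom ℚ)) (a * n)
    (M1 * n + M2 * n + 2) (by omega) ((natDegree_map_le).trans (by omega))
  unfold DD at h5
  have h7 := LL_exact hv hv' W (a * n)
  have h8 : (PP M1 M2 n e).map (Int.castRingHom ℚ) = (PP M1 M2 n e).map (Int.castRingHom ℚ)
      - C A' * (X ^ 2 - C 8) ^ (a * n) + C A' * ((X ^ 2 - C 8) ^ (a * n) * 1) := by ring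
  have h9 : LL v ((PP M1 M2 n e).map (Int.castRingHom ℚ)) (a * n) =
      (A' : ℝ) * (Real.pi / 4) + 2 * ((W.eval 2 / (-4) ^ (a * n) : ℚ) : ℝ) := by
    have h10 := LL_shift' hv hv' 1 0 (a * n)
    rw [zero_add, LL_log hv hv'] at h10
    rw [h8, LL_add hv hv', LL_smul, h10, ← h5, h7]
    ring
  have h10 := rep_unique (A := A) (A' := A') (b := b) (b' := W.eval 2 / (-4) ^ (a * n)) (by
    rw [← h9, h3]; push_cast; ring)
  have hA : A' = (A:ℚ) := h10.1.symm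
  rw [hA] at h5
  constructor
  · obtain ⟨m', hm'⟩ := twoAdic (N := (2 * (M1 + M2) + 4 * a) * n + 6) ha h5 (by
      have e1 : (2 * (M1 + M2) + 4 * a) * n + 6 = 2 * (M1 * n + M2 * n) + 4 * (a * n) + 6 := by ring
      rw [e1]
      omega)
    refine ⟨m', ?_⟩
    rw [h10.2]
    exact hm'
  · have h11 := circle_bound (P := (PP M1 M2 n e).map (Int.castRingHom ℚ)) (W := W) (k := a * n)
      (A := (A:ℚ)) h5 (r := r) (S := R ^ n * (r + 2 / r) ^ e) hr hr2 (by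
        intro z hz
        obtain ⟨hz0, hy⟩ := YY_ne_of_norm hr hr2 hz
        refine (norm_gg_PP hy (hR z hz)).trans ?_
        apply mul_le_mul_of_nonneg_left _ (by positivity)
        apply pow_le_pow_left₀ (norm_nonneg _)
        unfold TT
        refine (norm_add_le _ _).trans ?_
        rw [norm_div, hz]
        simp)
    simpa using h11

omit hv hv' in
theorem isCompact_pts : IsCompact (pts v) := by
  have h1 : pts v = (fun t : ℝ => 1 + (t:ℂ) * (v - 1)) '' Set.Icc (0:ℝ) 1 ∪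
      (fun t : ℝ => v + (t:ℂ) * (1 + I - v)) '' Set.Icc (0:ℝ) 1 := by
    ext z
    constructor
    · rintro ⟨t, ht, h | h⟩
      · exact Or.inl ⟨t, ht, h.symm⟩
      · exact Or.inr ⟨t, ht, h.symm⟩
    · rintro (⟨t, ht, h⟩ | ⟨t, ht, h⟩)
      · exact ⟨t, ht, Or.inl h.symm⟩
      · exact ⟨t, ht, Or.inr h.symm⟩
  rw [h1]
  exact (isCompact_Icc.image (cont_line _ _)).union (isCompact_Icc.image (cont_line _ _))

theorem path_const (e : ℕ) : ∃ K : ℝ, 0 < K ∧ ∀ z ∈ pts v, ‖TT z‖ ^ e / ‖z‖ ≤ K := by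
  obtain ⟨K, hK⟩ := (isCompact_pts (v := v)).exists_bound_of_continuousOn
    (f := fun z => TT z ^ e / z) (by
      intro z hz
      obtain ⟨h1, h2⟩ := pts_prop hv hv' hz
      have h0 := ne_zero_of_re_pos h1
      exact (((hasDerivAt_TT h0).continuousAt.pow e).div continuousAt_id h0).continuousWithinAt)
  refine ⟨max K 1, by positivity, ?_⟩
  intro z hz
  have := hK z hz
  rw [norm_div, norm_pow] at this
  exact this.trans (le_max_left _ _)

theorem LL_bound {M1 M2 a : ℕ} {ρ : ℝ} (hρ : 0 < ρ)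
    (hsup : ∀ z ∈ pts v, ‖TT z - 2‖ ^ M1 * ‖TT z - 3‖ ^ M2 ≤ ρ * ‖YY z‖ ^ (2 * a)) :
    ∃ K : ℝ, 0 < K ∧ ∀ n e : ℕ, e < 3 →
      |LL v ((PP M1 M2 n e).map (Int.castRingHom ℚ)) (a * n)| ≤ K * ρ ^ n := by
  obtain ⟨K0, hK0, h0⟩ := path_const hv hv' 0
  obtain ⟨K1, hK1, h1⟩ := path_const hv hv' 1
  obtain ⟨K2, hK2, h2⟩ := path_const hv hv' 2
  have hKK : ∀ e < 3, ∀ z ∈ pts v, ‖TT z‖ ^ e / ‖z‖ ≤ K0 + K1 + K2 := by
    intro e he z hz
    interval_cases e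
    · have := h0 z hz; linarith
    · have := h1 z hz; linarith
    · have := h2 z hz; linarith
  refine ⟨(K0 + K1 + K2) * (‖v - 1‖ + ‖1 + I - v‖ + 1), by positivity, ?_⟩
  intro n e he
  have h3 := abs_LL_le (v := v) (P := (PP M1 M2 n e).map (Int.castRingHom ℚ)) (k := a * n)
    (S := ρ ^ n * (K0 + K1 + K2)) (by
      intro z hz
      obtain ⟨h1, h2⟩ := pts_prop hv hv' hz
      rw [norm_div]
      have hz0 : 0 < ‖z‖ := norm_pos_iff.2 (ne_zero_of_re_pos h1)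
      refine (div_le_div_of_nonneg_right (norm_gg_PP h2 (hsup z hz)) hz0.le).trans ?_
      rw [mul_div_assoc]
      exact mul_le_mul_of_nonneg_left (hKK e he z hz) (by positivity))
  refine h3.trans ?_
  have h4 : 0 ≤ ρ ^ n * (K0 + K1 + K2) := by positivity
  nlinarith [norm_nonneg (v - 1), norm_nonneg (1 + I - v)]

end

end Vale.Agent.P021
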