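import Vale.Agent.Lib.P021.Functional

/-!
# Upper bounds: the circle bound for `A` and the trivial bound for `LL`
-/

namespace Vale.Agent.P021
open Polynomial Complex

theorem YY_ne_of_norm {r : ℝ} (hr : 0 < r) (hr2 : r ^ 2 < 2) {z : ℂ} (hz : ‖z‖ = r) :
    z ≠ 0 ∧ YY z ≠ 0 := by
  have hz0 : z ≠ 0 := by
    rintro rfl
    simp at hz
    linarith
  refine ⟨hz0, ?_⟩
  intro hy
  have h2 : z ^ 2 = 2 := by
    unfold YY at hy
    field_simp at hy
    linear_combination hy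
  have h3 : ‖z‖ ^ 2 = 2 := by rw [← norm_pow, h2]; simp
  rw [hz] at h3
  linarith

/-- the coefficient of `dz/z` is bounded by the supremum on a circle -/
theorem circle_bound {P W : ℚ[X]} {k : ℕ} {A : ℚ}
    (hW : (X ^ 2 - C 8) * derivative W - C (2 * (k:ℚ) - 1) * X * W = P - C A * (X ^ 2 - C 8) ^ k)
    {r S : ℝ} (hr : 0 < r) (hr2 : r ^ 2 < 2) (hS : ∀ z : ℂ, ‖z‖ = r → ‖gg P k z‖ ≤ S) :
    |(A:ℝ)| ≤ S := by
  have h0 : (∮ z in C(0, r), (gg P k z / z - (A:ℂ) * z⁻¹)) = 0 := by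
    apply circleIntegral.integral_eq_zero_of_hasDerivWithinAt (f := prim W k) hr.le
    intro z hz
    have hz' : ‖z‖ = r := by simpa using hz
    obtain ⟨h1, h2⟩ := YY_ne_of_norm hr hr2 hz'
    have h3 := hasDerivAt_prim W k h1 h2
    rw [hW] at h3
    refine (h3.congr_deriv ?_).hasDerivWithinAt
    unfold gg
    rw [map_sub, map_mul, map_pow, aeval_sq_sub h1, ← pow_mul]
    have h4 : (YY z) ^ (2 * k) ≠ 0 := pow_ne_zero _ h2
    simp only [aeval_C]
    simp only [eq_ratCast]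
    field_simp
  have hc1 : ContinuousOn (fun z => gg P k z / z) (Metric.sphere (0:ℂ) r) := by
    intro z hz
    have hz' : ‖z‖ = r := by simpa using hz
    obtain ⟨h1, h2⟩ := YY_ne_of_norm hr hr2 hz'
    exact (continuousAt_gg' h1 h2).continuousWithinAt
  have hc2 : ContinuousOn (fun z : ℂ => (A:ℂ) * z⁻¹) (Metric.sphere (0:ℂ) r) := by
    intro z hz
    have hz' : ‖z‖ = r := by simpa using hz
    obtain ⟨h1, h2⟩ := YY_ne_of_norm hr hr2 hz'
    exact (continuousAt_const.mul (continuousAt_inv₀ h1)).continuousWithinAt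
  rw [circleIntegral.integral_sub (hc1.circleIntegrable hr.le) (hc2.circleIntegrable hr.le),
    circleIntegral.integral_const_mul] at h0
  have h5 : (∮ z in C(0, r), z⁻¹) = 2 * Real.pi * I := by
    have := circleIntegral.integral_sub_center_inv (0:ℂ) hr.ne'
    simpa using this
  rw [h5] at h0
  have h6 : ‖∮ z in C(0, r), gg P k z / z‖ ≤ 2 * Real.pi * r * (S / r) := by
    apply circleIntegral.norm_integral_le_of_norm_le_const hr.le
    intro z hz
    have hz' : ‖z‖ = r := by simpa using hz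
    rw [norm_div, hz']
    exact div_le_div_of_nonneg_right (hS z hz') hr.le
  rw [sub_eq_zero.1 h0] at h6
  have h7 : ‖(A:ℂ) * (2 * Real.pi * I)‖ = |(A:ℝ)| * (2 * Real.pi) := by
    rw [norm_mul, norm_mul, norm_mul, Complex.norm_I, mul_one, Complex.norm_real, Real.norm_eq_abs,
      abs_of_pos Real.pi_pos]
    have : (A:ℂ) = ((A:ℝ):ℂ) := by push_cast; rfl
    rw [this, Complex.norm_real, Real.norm_eq_abs]
    simp
  rw [h7] at h6
  have h8 : 2 * Real.pi * r * (S / r) = S * (2 * Real.pi) := by field_simp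
  rw [h8] at h6
  exact le_of_mul_le_mul_right h6 (by positivity)

theorem norm_seg_le {F : ℂ → ℂ} {a b : ℂ} {S : ℝ}
    (h : ∀ t : ℝ, t ∈ Set.Icc (0:ℝ) 1 → ‖F (a + t * (b - a))‖ ≤ S) :
    ‖seg F a b‖ ≤ S * ‖b - a‖ := by
  unfold seg
  have := intervalIntegral.norm_integral_le_of_norm_le_const (a := (0:ℝ)) (b := 1)
    (C := S * ‖b - a‖) (f := fun t : ℝ => F (a + t * (b - a)) * (b - a)) (by
      intro t ht
      rw [Set.uIoc_of_le zero_le_one] at ht
      rw [norm_mul]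
      exact mul_le_mul_of_nonneg_right (h t ⟨ht.1.le, ht.2⟩) (norm_nonneg _))
  simpa using this

theorem abs_LL_le {v : ℂ} {P : ℚ[X]} {k : ℕ} {S : ℝ}
    (hS : ∀ z ∈ pts v, ‖gg P k z / z‖ ≤ S) :
    |LL v P k| ≤ S * (‖v - 1‖ + ‖1 + I - v‖) := by
  unfold LL path
  refine (Complex.abs_im_le_norm _).trans ((norm_add_le _ _).trans ?_)
  rw [mul_add]
  apply add_le_add
  · exact norm_seg_le fun t ht => hS _ ⟨t, ht, Or.inl rfl⟩
  · exact norm_seg_le fun t ht => hS _ ⟨t, ht, Or.inr rfl⟩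

/-- the approximating polynomials -/
noncomputable def PP (M1 M2 n j : ℕ) : ℤ[X] :=
  (X - C 2) ^ (M1 * n) * (X - C 3) ^ (M2 * n) * X ^ j

theorem aeval_PP (M1 M2 n j : ℕ) (w : ℂ) :
    aeval w ((PP M1 M2 n j).map (Int.castRingHom ℚ)) =
      (w - 2) ^ (M1 * n) * (w - 3) ^ (M2 * n) * w ^ j := by
  unfold PP
  simp only [Polynomial.map_mul, Polynomial.map_pow, Polynomial.map_sub, Polynomial.map_X,
    Polynomial.map_C, map_mul, map_pow, map_sub, aeval_X, aeval_C]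
  simp

theorem norm_gg_PP {M1 M2 a n j : ℕ} {z : ℂ} {ρ : ℝ} (hy : YY z ≠ 0)
    (h : ‖TT z - 2‖ ^ M1 * ‖TT z - 3‖ ^ M2 ≤ ρ * ‖YY z‖ ^ (2 * a)) :
    ‖gg ((PP M1 M2 n j).map (Int.castRingHom ℚ)) (a * n) z‖ ≤ ρ ^ n * ‖TT z‖ ^ j := by
  unfold gg
  rw [aeval_PP, norm_div, norm_mul, norm_mul, norm_pow, norm_pow, norm_pow, norm_pow]
  have h1 : 0 < ‖YY z‖ := norm_pos_iff.2 hy
  rw [div_le_iff₀ (by positivity)]
  have h2 := pow_le_pow_left₀ (by positivity) h n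
  rw [mul_pow, mul_pow, ← pow_mul, ← pow_mul, ← pow_mul] at h2
  have e : 2 * (a * n) = 2 * a * n := by ring
  rw [e]
  calc ‖TT z - 2‖ ^ (M1 * n) * ‖TT z - 3‖ ^ (M2 * n) * ‖TT z‖ ^ j
      ≤ (ρ ^ n * ‖YY z‖ ^ (2 * a * n)) * ‖TT z‖ ^ j :=
        mul_le_mul_of_nonneg_right h2 (by positivity)
    _ = ρ ^ n * ‖TT z‖ ^ j * ‖YY z‖ ^ (2 * a * n) := by ring

end Vale.Agent.P021
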