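import Vale.Agent.Lib.P021.Exponent

/-!
# The irrationality exponent and a criterion for upper bounds
-/

namespace Vale.Agent.P021

theorem exponent_le_of_finite {x B : ℝ} (h : ∀ ν > B, (approxSet x ν).Finite) :
    irrationalityExponent x ≤ (B : EReal) := by
  apply sSup_le
  rintro e ⟨ν, _, hinf, rfl⟩
  by_contra hcon
  rw [EReal.coe_le_coe_iff, not_le] at hcon
  exact hinf (h ν hcon)

theorem criterion {x σ τ C : ℝ} (hσ : 0 < σ) (hτ : 0 < τ) (hC : 0 < C)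
    (h : ∀ᶠ n : ℕ in Filter.atTop, ∀ p q : ℤ, q ≠ 0 → ∃ U V : ℤ, U * p + V * q ≠ 0 ∧
      |(U:ℝ)| ≤ C * Real.exp (τ * n) ∧ |(U:ℝ) * x + V| ≤ C * Real.exp (-(σ * n))) :
    ∀ ν > 1 + τ / σ, (approxSet x ν).Finite := by
  intro ν hν
  obtain ⟨N0, hN0⟩ := Filter.eventually_atTop.1 h
  obtain ⟨D, hD1, hD2⟩ : ∃ D : ℝ, 1 ≤ D ∧ 2 * C ≤ D := ⟨max 1 (2 * C), le_max_left _ _,
    le_max_right _ _⟩
  obtain ⟨K, hK⟩ : ∃ K : ℝ, K = 2 * C * (Real.exp (τ * (N0 + 1)) * D ^ (τ / σ)) := ⟨_, rfl⟩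
  have hD0 : 0 < D := by linarith
  have hK0 : 0 < K := by rw [hK]; positivity
  have hδ : 0 < ν - 1 - τ / σ := by linarith
  obtain ⟨δ, hδe⟩ : ∃ δ : ℝ, δ = ν - 1 - τ / σ := ⟨_, rfl⟩
  rw [← hδe] at hδ
  have key : ∀ p q : ℤ, (p, q) ∈ approxSet x ν → (q : ℝ) ≤ K ^ δ⁻¹ := by
    intro p q ⟨_, hq2, hpos, hlt⟩
    simp only at hq2 hpos hlt
    have hq : (2 : ℝ) ≤ q := by exact_mod_cast hq2
    have hq0 : (0 : ℝ) < q := by linarith
    have hDq : 1 ≤ D * q := by nlinarith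
    have hlog : 0 ≤ Real.log (D * q) := Real.log_nonneg hDq
    obtain ⟨n, hn⟩ : ∃ n : ℕ, n = N0 + ⌈Real.log (D * q) / σ⌉₊ := ⟨_, rfl⟩
    obtain ⟨U, V, hne, hU, hUV⟩ := hN0 n (by omega) p q (by omega)
    have hn1 : Real.log (D * q) / σ ≤ n := by
      rw [hn]; push_cast
      have := Nat.le_ceil (Real.log (D * q) / σ)
      have h0 : (0 : ℝ) ≤ N0 := Nat.cast_nonneg _
      linarith
    have hn2 : (n : ℝ) ≤ (N0 + 1) + Real.log (D * q) / σ := by
      rw [hn]; push_cast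
      have := (Nat.ceil_lt_add_one (div_nonneg hlog hσ.le)).le
      linarith
    have h1 : Real.exp (-(σ * n)) ≤ (D * q)⁻¹ := by
      have : Real.log (D * q) ≤ σ * n := by
        rw [div_le_iff₀ hσ] at hn1
        linarith
      calc Real.exp (-(σ * n)) ≤ Real.exp (-Real.log (D * q)) := by
            apply Real.exp_le_exp.2; linarith
        _ = (D * q)⁻¹ := by rw [Real.exp_neg, Real.exp_log (by linarith)]
    have h2 : (q : ℝ) * |(U : ℝ) * x + V| ≤ 1 / 2 := by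
      calc (q : ℝ) * |(U : ℝ) * x + V| ≤ q * (C * (D * q)⁻¹) := by
            apply mul_le_mul_of_nonneg_left _ hq0.le
            exact hUV.trans (mul_le_mul_of_nonneg_left h1 hC.le)
        _ = C / D := by field_simp
        _ ≤ 1 / 2 := by rw [div_le_div_iff₀ hD0 (by norm_num)]; linarith
    have h3 : (1 : ℝ) ≤ |(U : ℝ) * p + V * q| := by
      have : (1 : ℤ) ≤ |U * p + V * q| := Int.one_le_abs hne
      exact_mod_cast this
    have h4 : |(U : ℝ) * p + V * q| ≤ q * |(U : ℝ) * x + V| + |(U : ℝ)| * |q * x - p| := by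
      have : (U : ℝ) * p + V * q = q * (U * x + V) - U * (q * x - p) := by ring
      rw [this]
      calc _ ≤ |(q : ℝ) * (U * x + V)| + |(U : ℝ) * (q * x - p)| := abs_sub _ _
        _ = _ := by rw [abs_mul, abs_mul, abs_of_pos hq0]
    have h5 : 1 ≤ 2 * (|(U : ℝ)| * |q * x - p|) := by linarith
    have h6 : |(U : ℝ)| ≤ C * (Real.exp (τ * (N0 + 1)) * D ^ (τ / σ)) * (q : ℝ) ^ (τ / σ) := by
      refine hU.trans ?_
      rw [mul_assoc C]
      apply mul_le_mul_of_nonneg_left _ hC.le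
      have e1 : Real.exp (τ / σ * Real.log (D * q)) = D ^ (τ / σ) * (q : ℝ) ^ (τ / σ) := by
        rw [← Real.mul_rpow hD0.le hq0.le, Real.rpow_def_of_pos (by positivity), mul_comm]
      calc Real.exp (τ * n) ≤ Real.exp (τ * (N0 + 1) + τ / σ * Real.log (D * q)) := by
            apply Real.exp_le_exp.2
            calc τ * n ≤ τ * ((N0 + 1) + Real.log (D * q) / σ) :=
                  mul_le_mul_of_nonneg_left hn2 hτ.le
              _ = _ := by ring
        _ = _ := by rw [Real.exp_add, e1]; ring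
    have h7 : |q * x - p| < (q : ℝ) ^ (1 - ν) := by
      have e1 : q * x - p = q * (x - p / q) := by field_simp
      rw [e1, abs_mul, abs_of_pos hq0]
      calc q * |x - p / q| < q * (q : ℝ) ^ (-ν) := mul_lt_mul_of_pos_left hlt hq0
        _ = (q : ℝ) ^ (1 - ν) := by
          rw [sub_eq_add_neg, Real.rpow_add hq0, Real.rpow_one]
    have h8 : 1 ≤ K * (q : ℝ) ^ (τ / σ) * (q : ℝ) ^ (1 - ν) := by
      refine h5.trans ?_
      calc 2 * (|(U : ℝ)| * |q * x - p|) ≤ 2 * ((C * (Real.exp (τ * (N0 + 1)) * D ^ (τ / σ)) *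
            (q : ℝ) ^ (τ / σ)) * (q : ℝ) ^ (1 - ν)) := by
            apply mul_le_mul_of_nonneg_left _ (by norm_num)
            exact mul_le_mul h6 h7.le (abs_nonneg _) (by positivity)
        _ = _ := by rw [hK]; ring
    have h9 : (q : ℝ) ^ (τ / σ) * (q : ℝ) ^ (1 - ν) = (q : ℝ) ^ (-δ) := by
      rw [← Real.rpow_add hq0]
      congr 1
      rw [hδe]; ring
    rw [mul_assoc, h9, Real.rpow_neg hq0.le, ← div_eq_mul_inv, le_div_iff₀ (by positivity),
      one_mul] at h8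
    calc (q : ℝ) = ((q : ℝ) ^ δ) ^ δ⁻¹ := by
          rw [← Real.rpow_mul hq0.le, mul_inv_cancel₀ hδ.ne', Real.rpow_one]
      _ ≤ K ^ δ⁻¹ := Real.rpow_le_rpow (by positivity) h8 (by positivity)
  obtain ⟨Q, hQ⟩ := exists_nat_ge (K ^ δ⁻¹)
  obtain ⟨M, hM⟩ := exists_nat_ge (Q * (|x| + 1))
  apply Set.Finite.subset (s := Set.Icc (-(M : ℤ)) M ×ˢ Set.Icc (0 : ℤ) Q)
    ((Set.finite_Icc _ _).prod (Set.finite_Icc _ _))
  rintro ⟨p, q⟩ hpq
  have hk := key p q hpq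
  obtain ⟨_, hq2, hpos, hlt⟩ := hpq
  simp only at hq2 hpos hlt
  have hq : (2 : ℝ) ≤ q := by exact_mod_cast hq2
  have hq0 : (0 : ℝ) < q := by linarith
  have hqQ : (q : ℝ) ≤ Q := hk.trans hQ
  have h1 : |x - p / q| < 1 := by
    refine hlt.trans_le ?_
    apply Real.rpow_le_one_of_one_le_of_nonpos (by linarith)
    have : 0 < τ / σ := by positivity
    linarith
  have h2 : |(p : ℝ)| ≤ M := by
    have e1 : (p : ℝ) = q * (x - (x - p / q)) := by field_simp; ring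
    rw [e1, abs_mul, abs_of_pos hq0]
    refine le_trans ?_ hM
    apply mul_le_mul hqQ _ (abs_nonneg _) (Nat.cast_nonneg _)
    calc |x - (x - p / q)| ≤ |x| + |x - p / q| := abs_sub _ _
      _ ≤ |x| + 1 := by linarith
  rw [abs_le] at h2
  simp only [Set.mem_prod, Set.mem_Icc]
  refine ⟨⟨?_, ?_⟩, by omega, ?_⟩
  · exact_mod_cast h2.1
  · exact_mod_cast h2.2
  · exact_mod_cast hqQ

end Vale.Agent.P021
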