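import Vale.Agent.Lib.P021.Main
import Vale.Agent.Lib.P021.Criterion

/-!
# Periodic families of cells and their total length
-/

namespace Vale.Agent.P021
open Filter Topology

/-- A base cell: integers `i1, i2, j` and the numerators of the end points `u < w`
(with a common denominator). -/
structure Base where
  i1 : ℕ
  i2 : ℕ
  j : ℕ
  u : ℕ
  w : ℕ

/-- the zero cell -/
def Base.dflt : Base := ⟨0, 0, 0, 0, 0⟩

/-- conditions on one base cell -/
def Base.ok (M1 M2 a c Den : ℕ) (t : Base) : Bool :=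
  decide (t.j % 2 = 1) && decide (0 < t.u) && decide (t.u ≤ t.w) && decide (Den ≤ c * t.u) &&
  decide (t.i1 * Den ≤ M1 * t.u) && decide (t.i2 * Den ≤ M2 * t.u) &&
  decide (2 * a * t.w ≤ t.j * Den) && decide (c * t.w + t.j * Den < (t.i1 + t.i2 + 1) * Den)

/-- all conditions on a list of base cells -/
def okList (M1 M2 a c Den : ℕ) (l : List Base) : Bool :=
  decide (∀ i < l.length, Base.ok M1 M2 a c Den (l.getD i Base.dflt) = true) &&
  decide (∀ i < l.length, ∀ i' < l.length, (l.getD i Base.dflt).w ≤ Den + (l.getD i' Base.dflt).u) &&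
  decide (∀ i < l.length, ∀ i' < i, (l.getD i' Base.dflt).w ≤ (l.getD i Base.dflt).u)

/-- scaled length of a translated cell, rounded down -/
def cellNat (Q Den k : ℕ) (t : Base) : ℕ :=
  Q * (Den * (t.w - t.u)) / ((k * Den + t.u) * (k * Den + t.w))

/-- sum over one period -/
def rowNat (Q Den : ℕ) (l : List Base) (k : ℕ) : ℕ :=
  (l.map (cellNat Q Den k)).foldr (fun x y => x + y) 0

/-- sum over `2^d` periods, by halving -/
def blockNat (Q Den : ℕ) (l : List Base) : ℕ → ℕ → ℕ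
  | 0, k => rowNat Q Den l k
  | d + 1, k => blockNat Q Den l d k + blockNat Q Den l d (k + 2 ^ d)

theorem blockNat_eq (Q Den : ℕ) (l : List Base) : ∀ d k,
    blockNat Q Den l d k = ∑ i ∈ Finset.range (2 ^ d), rowNat Q Den l (k + i) := by
  intro d
  induction d with
  | zero => intro k; simp [blockNat]
  | succ d ih =>
    intro k
    rw [blockNat, ih, ih, pow_succ, mul_two, Finset.sum_range_add]
    congr 1
    apply Finset.sum_congr rfl
    intro i _
    rw [add_assoc]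

/-- upper end point of the cell in period `k` -/
noncomputable def cHi (Den : ℕ) (l : List Base) (x : ℕ × ℕ) : ℝ :=
  Den / (x.1 * Den + (l.getD x.2 Base.dflt).u)
/-- lower end point of the cell in period `k` -/
noncomputable def cLo (Den : ℕ) (l : List Base) (x : ℕ × ℕ) : ℝ :=
  Den / (x.1 * Den + (l.getD x.2 Base.dflt).w)

theorem cellNat_le {Q Den k : ℕ} (hQ : 0 < Q) {t : Base} (hu : 0 < t.u) (huw : t.u ≤ t.w) :
    (cellNat Q Den k t : ℝ) / Q ≤
      (Den:ℝ) / (k * Den + t.u) - Den / (k * Den + t.w) := by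
  unfold cellNat
  have hw : 0 < t.w := lt_of_lt_of_le hu huw
  have hu' : (0:ℝ) < t.u := by exact_mod_cast hu
  have hw' : (0:ℝ) < t.w := by exact_mod_cast hw
  have h1 : ((Q * (Den * (t.w - t.u)) / ((k * Den + t.u) * (k * Den + t.w)) : ℕ) : ℝ) ≤
      ((Q * (Den * (t.w - t.u)) : ℕ) : ℝ) / (((k * Den + t.u) * (k * Den + t.w) : ℕ) : ℝ) :=
    Nat.cast_div_le
  have hQ' : (0:ℝ) < Q := by exact_mod_cast hQ
  rw [div_le_iff₀ hQ']
  refine h1.trans (le_of_eq ?_)
  have h2 : ((t.w - t.u : ℕ) : ℝ) = t.w - t.u := by push_cast [Nat.cast_sub huw]; ring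
  push_cast [h2]
  have h3 : (0:ℝ) < k * Den + t.u := by positivity
  have h4 : (0:ℝ) < k * Den + t.w := by positivity
  field_simp
  ring

theorem foldr_eq_sum (f : Base → ℕ) (l : List Base) :
    (l.map f).foldr (fun x y => x + y) 0 = ∑ i ∈ Finset.range l.length, f (l.getD i Base.dflt) := by
  induction l with
  | nil => simp
  | cons t l ih =>
    rw [List.map_cons, List.foldr_cons, ih, List.length_cons, Finset.sum_range_succ']
    simp [add_comm]

theorem sum_cells_ge {M1 M2 a c Den : ℕ} {l : List Base} (hl : okList M1 M2 a c Den l = true)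
    {Q : ℕ} (hQ : 0 < Q) (d : ℕ) :
    (blockNat Q Den l d 0 : ℝ) / Q ≤
      ∑ x ∈ Finset.range (2 ^ d) ×ˢ Finset.range l.length, (cHi Den l x - cLo Den l x) := by
  unfold okList at hl
  simp only [Bool.and_eq_true, decide_eq_true_eq] at hl
  rw [blockNat_eq, Finset.sum_product]
  push_cast
  rw [Finset.sum_div]
  apply Finset.sum_le_sum
  intro k _
  rw [zero_add]
  unfold rowNat
  rw [foldr_eq_sum]
  push_cast
  rw [Finset.sum_div]
  apply Finset.sum_le_sum
  intro i hi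
  have h1 := hl.1.1 i (Finset.mem_range.1 hi)
  unfold Base.ok at h1
  simp only [Bool.and_eq_true, decide_eq_true_eq] at h1
  unfold cHi cLo
  exact cellNat_le hQ h1.1.1.1.1.1.1.2 h1.1.1.1.1.1.2

theorem cells_ok {M1 M2 a c Den : ℕ} {l : List Base} (hl : okList M1 M2 a c Den l = true)
    (hDen : 0 < Den) (hc : M1 + M2 = c + 2 * a) {k i : ℕ} (hi : i < l.length) :
    CellOK M1 M2 a c ((l.getD i Base.dflt).i1 + M1 * k) ((l.getD i Base.dflt).i2 + M2 * k)
      ((l.getD i Base.dflt).j + 2 * a * k) (cLo Den l (k, i)) (cHi Den l (k, i)) := by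
  unfold okList at hl
  simp only [Bool.and_eq_true, decide_eq_true_eq] at hl
  have h1 := hl.1.1 i hi
  unfold Base.ok at h1
  simp only [Bool.and_eq_true, decide_eq_true_eq] at h1
  unfold cHi cLo
  generalize l.getD i Base.dflt = t at *
  obtain ⟨⟨⟨⟨⟨⟨⟨g1, g2⟩, g3⟩, g4⟩, g5⟩, g6⟩, g7⟩, g8⟩ := h1
  have hu : (0:ℝ) < t.u := by exact_mod_cast g2
  have hw : (0:ℝ) < t.w := by exact_mod_cast lt_of_lt_of_le g2 g3
  have hD : (0:ℝ) < Den := by exact_mod_cast hDen
  have hk : (0:ℝ) ≤ k := by positivity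
  have h3 : (0:ℝ) < k * Den + t.u := by positivity
  have h4 : (0:ℝ) < k * Den + t.w := by positivity
  have r3 : (t.u:ℝ) ≤ t.w := by exact_mod_cast g3
  have r4 : (Den:ℝ) ≤ c * t.u := by exact_mod_cast g4
  have r5 : (t.i1:ℝ) * Den ≤ M1 * t.u := by exact_mod_cast g5
  have r6 : (t.i2:ℝ) * Den ≤ M2 * t.u := by exact_mod_cast g6
  have r7 : (2:ℝ) * a * t.w ≤ t.j * Den := by exact_mod_cast g7
  have r8 : (c:ℝ) * t.w + t.j * Den < (t.i1 + t.i2 + 1) * Den := by exact_mod_cast g8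
  have rc : (M1:ℝ) + M2 = c + 2 * a := by exact_mod_cast hc
  refine ⟨?_, ?_, ?_, ?_, ?_, ?_, ?_, ?_⟩
  · rw [Nat.odd_iff, mul_assoc, Nat.add_mul_mod_self_left]; exact g1
  · positivity
  · exact div_le_div_of_nonneg_left hD.le h3 (by linarith)
  · simp only
    rw [div_le_iff₀ h3]
    have : (0:ℝ) ≤ c * (k * Den) := by positivity
    linarith
  · simp only
    push_cast
    rw [mul_div_assoc', div_le_iff₀ h3]
    nlinarith
  · simp only
    push_cast
    rw [mul_div_assoc', div_le_iff₀ h3]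
    nlinarith
  · simp only
    push_cast
    rw [mul_div_assoc', le_div_iff₀ h4]
    nlinarith
  · simp only
    push_cast
    rw [mul_div_assoc', mul_div_assoc']
    have e1 : (c:ℝ) + (t.j + 2 * a * k) * Den / (k * Den + t.w) =
        (c * (k * Den + t.w) + (t.j + 2 * a * k) * Den) / (k * Den + t.w) := by
      field_simp
    rw [e1]
    apply div_lt_div_of_pos_right _ h4
    have e2 : ((M1:ℝ) + M2) * (k * Den) = (c + 2 * a) * (k * Den) := by rw [rc]
    linarith

theorem cells_disj {M1 M2 a c Den : ℕ} {l : List Base} (hl : okList M1 M2 a c Den l = true)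
    (hDen : 0 < Den) {k i k' i' : ℕ} (hi : i < l.length) (hi' : i' < l.length)
    (h : k < k' ∨ (k = k' ∧ i < i')) :
    cHi Den l (k', i') ≤ cLo Den l (k, i) := by
  unfold okList at hl
  simp only [Bool.and_eq_true, decide_eq_true_eq] at hl
  have h1 := hl.1.1 i hi
  have h2 := hl.1.1 i' hi'
  unfold Base.ok at h1 h2
  simp only [Bool.and_eq_true, decide_eq_true_eq] at h1 h2
  have hp := hl.1.2 i hi i' hi'
  have hs := hl.2 i' hi' i
  unfold cHi cLo
  simp only
  generalize l.getD i Base.dflt = t at *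
  generalize l.getD i' Base.dflt = t' at *
  obtain ⟨⟨⟨⟨⟨⟨⟨g1, g2⟩, g3⟩, g4⟩, g5⟩, g6⟩, g7⟩, g8⟩ := h1
  obtain ⟨⟨⟨⟨⟨⟨⟨f1, f2⟩, f3⟩, f4⟩, f5⟩, f6⟩, f7⟩, f8⟩ := h2
  have hw : (0:ℝ) < t.w := by exact_mod_cast lt_of_lt_of_le g2 g3
  have hD : (0:ℝ) < Den := by exact_mod_cast hDen
  have h4 : (0:ℝ) < k * Den + t.w := by positivity
  apply div_le_div_of_nonneg_left hD.le h4
  have key : k * Den + t.w ≤ k' * Den + t'.u := by
    rcases h with h | ⟨h, h'⟩
    · have : (k + 1) * Den ≤ k' * Den := Nat.mul_le_mul_right _ h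
      rw [add_mul, one_mul] at this
      omega
    · have := hs h'
      rw [h]
      omega
  exact_mod_cast key

/-- the main upper bound in terms of a finite computation -/
theorem exponent_bound {v : ℂ} (hv : 0 < v.re) (hv' : 0 < v.im) {M1 M2 a c : ℕ}
    (hc : M1 + M2 = c + 2 * a) (h2 : 2 * a ≤ c) (ha : 4 * a ≤ 3 * M1)
    {r R ρ lR lr : ℝ} (hr : 0 < r) (hr2 : r ^ 2 < 2) (hR0 : 0 ≤ R)
    (hR : ∀ z : ℂ, ‖z‖ = r → ‖TT z - 2‖ ^ M1 * ‖TT z - 3‖ ^ M2 ≤ R * ‖YY z‖ ^ (2 * a))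
    (hρ : 0 < ρ)
    (hsup : ∀ z ∈ pts v, ‖TT z - 2‖ ^ M1 * ‖TT z - 3‖ ^ M2 ≤ ρ * ‖YY z‖ ^ (2 * a))
    (hlR : R ≤ Real.exp lR) (hlr : ρ ≤ Real.exp (-lr))
    {Den : ℕ} (hDen : 0 < Den) {l : List Base} (hl : okList M1 M2 a c Den l = true)
    {Q d : ℕ} (hQ : 0 < Q) {Y : ℝ} (hY : (c:ℝ) - (blockNat Q Den l d 0 : ℝ) / Q < Y)
    (hτ : 0 < lR + Y) (hσ : 0 < lr - Y) {B : ℝ} (hB : 1 + (lR + Y) / (lr - Y) ≤ B) :
    irrationalityExponent Real.pi ≤ (B : EReal) := by
  have hsum := sum_cells_ge hl hQ d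
  obtain ⟨K, hK, hev⟩ := linear_forms hv hv' hc h2 ha hr hr2 hR0 hR hρ hsup hlR hlr
    (s := Finset.range (2 ^ d) ×ˢ Finset.range l.length)
    (fun x => (l.getD x.2 Base.dflt).i1 + M1 * x.1) (fun x => (l.getD x.2 Base.dflt).i2 + M2 * x.1)
    (fun x => (l.getD x.2 Base.dflt).j + 2 * a * x.1) (cLo Den l) (cHi Den l)
    (by
      rintro ⟨k, i⟩ hx
      rw [Finset.mem_product, Finset.mem_range, Finset.mem_range] at hx
      exact cells_ok hl hDen hc hx.2)
    (by
      rintro ⟨k, i⟩ hx ⟨k', i'⟩ hx' hne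
      rw [Finset.mem_product, Finset.mem_range, Finset.mem_range] at hx hx'
      rcases lt_trichotomy k k' with h | h | h
      · exact Or.inr (cells_disj hl hDen hx.2 hx'.2 (Or.inl h))
      · rcases lt_trichotomy i i' with h' | h' | h'
        · exact Or.inr (cells_disj hl hDen hx.2 hx'.2 (Or.inr ⟨h, h'⟩))
        · exact absurd (by rw [h, h']) hne
        · exact Or.inl (cells_disj hl hDen hx'.2 hx.2 (Or.inr ⟨h.symm, h'⟩))
      · exact Or.inl (cells_disj hl hDen hx'.2 hx.2 (Or.inl h)))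
    (Y := Y) (by linarith)
  apply exponent_le_of_finite
  intro ν hν
  exact criterion (x := Real.pi) hσ hτ hK hev ν (lt_of_le_of_lt hB hν)

end Vale.Agent.P021
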