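import Vale.Agent.Lib.P021.Cells

/-!
# Total length of the cells, with an explicit lower bound for the tail
-/

namespace Vale.Agent.P021
open Filter Topology

/-- the main upper bound in terms of a finite sum over `P` periods -/
theorem exponent_bound_periods {v : ℂ} (hv : 0 < v.re) (hv' : 0 < v.im) {M1 M2 a c : ℕ}
    (hc : M1 + M2 = c + 2 * a) (h2 : 2 * a ≤ c) (ha : 4 * a ≤ 3 * M1)
    {r R ρ lR lr : ℝ} (hr : 0 < r) (hr2 : r ^ 2 < 2) (hR0 : 0 ≤ R)
    (hR : ∀ z : ℂ, ‖z‖ = r → ‖TT z - 2‖ ^ M1 * ‖TT z - 3‖ ^ M2 ≤ R * ‖YY z‖ ^ (2 * a))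
    (hρ : 0 < ρ)
    (hsup : ∀ z ∈ pts v, ‖TT z - 2‖ ^ M1 * ‖TT z - 3‖ ^ M2 ≤ ρ * ‖YY z‖ ^ (2 * a))
    (hlR : R ≤ Real.exp lR) (hlr : ρ ≤ Real.exp (-lr))
    {Den : ℕ} (hDen : 0 < Den) {l : List Base} (hl : okList M1 M2 a c Den l = true)
    {P : ℕ} {Y : ℝ}
    (hY : (c:ℝ) - ∑ x ∈ Finset.range P ×ˢ Finset.range l.length, (cHi Den l x - cLo Den l x) < Y)
    (hτ : 0 < lR + Y) (hσ : 0 < lr - Y) {B : ℝ} (hB : 1 + (lR + Y) / (lr - Y) ≤ B) :
    irrationalityExponent Real.pi ≤ (B : EReal) := by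
  obtain ⟨K, hK, hev⟩ := linear_forms hv hv' hc h2 ha hr hr2 hR0 hR hρ hsup hlR hlr
    (s := Finset.range P ×ˢ Finset.range l.length)
    (fun x => (l.getD x.2 Base.dflt).i1 + M1 * x.1) (fun x => (l.getD x.2 Base.dflt).i2 + M2 * x.1)
    (fun x => (l.getD x.2 Base.dflt).j + 2 * a * x.1) (cLo Den l) (cHi Den l)
    (by
      rintro ⟨k, i⟩ hx
      rw [Finset.mem_product, Finset.mem_range, Finset.mem_range] at hx
      exact cells_ok hl hDen hc hx.2)
    (by
      rintro ⟨k, i⟩ hx ⟨k', i'⟩ hx' hne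
      rw [Finset.mem_product, Finset.mem_range, Finset.mem_range] at hx hx'
      rcases lt_trichotomy k k' with h | h | h
      · exact Or.inr (cells_disj hl hDen hx.2 hx'.2 (Or.inl h))
      · rcases lt_trichotomy i i' with h' | h' | h'
        · exact Or.inr (cells_disj hl hDen hx.2 hx'.2 (Or.inr ⟨h, h'⟩))
        · exact absurd (by rw [h, h']) hne
        · exact Or.inl (cells_disj hl hDen hx'.2 hx.2 (Or.inr ⟨h.symm, h'⟩))
      · exact Or.inl (cells_disj hl hDen hx'.2 hx.2 (Or.inl h)))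
    (Y := Y) hY
  apply exponent_le_of_finite
  intro ν hν
  exact criterion (x := Real.pi) hσ hτ hK hev ν (lt_of_le_of_lt hB hν)

/-- the shift used for the tail of a cell, starting at period `K0` -/
def Base.shift (Den K0 : ℕ) (t : Base) : ℕ := (Den + t.u + t.w) / 2 + Den / (8 * K0) + 2

/-- condition for the tail bound -/
def Base.okTail (Den K0 : ℕ) (t : Base) : Bool :=
  decide (Den + t.u + t.w ≤ 2 * t.shift Den K0) &&
  decide ((K0 * Den + t.u) * (K0 * Den + t.w) ≤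
    ((K0 - 1) * Den + t.shift Den K0) * (K0 * Den + t.shift Den K0))

/-- scaled lower bound for the tail of a cell -/
def Base.tailNat (Q Den K0 : ℕ) (t : Base) : ℕ :=
  Q * (t.w - t.u) / ((K0 - 1) * Den + t.shift Den K0)

theorem tail_cell {Den K0 N : ℕ} (hDen : 0 < Den) (hK0 : 1 ≤ K0) {t : Base} (hu : 0 < t.u)
    (huw : t.u ≤ t.w) (hok : t.okTail Den K0 = true) :
    ((t.w:ℝ) - t.u) / (((K0:ℝ) - 1) * Den + t.shift Den K0) -
      ((t.w:ℝ) - t.u) / (((K0:ℝ) + N - 1) * Den + t.shift Den K0) ≤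
    ∑ m ∈ Finset.range N, ((Den:ℝ) / ((K0 + m : ℕ) * Den + t.u) -
      Den / ((K0 + m : ℕ) * Den + t.w)) := by
  unfold Base.okTail at hok
  simp only [Bool.and_eq_true, decide_eq_true_eq] at hok
  obtain ⟨h1, h2⟩ := hok
  generalize t.shift Den K0 = s at *
  have hD : (0:ℝ) < Den := by exact_mod_cast hDen
  have hK : (1:ℝ) ≤ K0 := by exact_mod_cast hK0
  have hu' : (0:ℝ) < t.u := by exact_mod_cast hu
  have huw' : (t.u:ℝ) ≤ t.w := by exact_mod_cast huw
  have h1' : (Den:ℝ) + t.u + t.w ≤ 2 * s := by exact_mod_cast h1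
  have h2' : ((K0:ℝ) * Den + t.u) * (K0 * Den + t.w) ≤
      (((K0:ℝ) - 1) * Den + s) * (K0 * Den + s) := by
    have h3 : (((K0 * Den + t.u) * (K0 * Den + t.w) : ℕ) : ℝ) ≤
      ((((K0 - 1) * Den + s) * (K0 * Den + s) : ℕ) : ℝ) := by exact_mod_cast h2
    push_cast [Nat.cast_sub hK0] at h3
    exact h3
  have hs : (0:ℝ) < s := by nlinarith
  induction N with
  | zero => simp
  | succ N ih =>
    rw [Finset.sum_range_succ]
    have hN : (0:ℝ) ≤ N := by positivity
    have p1 : (0:ℝ) < ((K0:ℝ) + N - 1) * Den + s := by nlinarith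
    have p2 : (0:ℝ) < ((K0:ℝ) + (N+1:ℕ) - 1) * Den + s := by push_cast; nlinarith
    have p3 : (0:ℝ) < ((K0:ℝ) + N) * Den + t.u := by nlinarith
    have p4 : (0:ℝ) < ((K0:ℝ) + N) * Den + t.w := by nlinarith
    have e2 : ((K0:ℝ) + (N+1:ℕ) - 1) * Den + s = ((K0:ℝ) + N) * Den + s := by push_cast; ring
    have key : (((K0:ℝ) + N) * Den + t.u) * (((K0:ℝ) + N) * Den + t.w) ≤
        (((K0:ℝ) + N - 1) * Den + s) * (((K0:ℝ) + N) * Den + s) := by
      have : 0 ≤ (N:ℝ) * Den * (2 * s - (Den + t.u + t.w)) := by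
        apply mul_nonneg (by positivity); linarith
      nlinarith
    have step : ((t.w:ℝ) - t.u) / (((K0:ℝ) + N - 1) * Den + s) -
        ((t.w:ℝ) - t.u) / (((K0:ℝ) + (N+1:ℕ) - 1) * Den + s) ≤
        (Den:ℝ) / ((K0 + N : ℕ) * Den + t.u) - Den / ((K0 + N : ℕ) * Den + t.w) := by
      rw [e2]
      rw [e2] at p2
      push_cast
      have l1 : ((t.w:ℝ) - t.u) / (((K0:ℝ) + N - 1) * Den + s) -
        ((t.w:ℝ) - t.u) / (((K0:ℝ) + N) * Den + s) = (((t.w:ℝ) - t.u) * Den) /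
        ((((K0:ℝ) + N - 1) * Den + s) * (((K0:ℝ) + N) * Den + s)) := by
        field_simp
        ring
      have l2 : (Den:ℝ) / (((K0:ℝ) + N) * Den + t.u) - Den / (((K0:ℝ) + N) * Den + t.w) =
        (((t.w:ℝ) - t.u) * Den) /
        ((((K0:ℝ) + N) * Den + t.u) * (((K0:ℝ) + N) * Den + t.w)) := by
        field_simp
        ring
      rw [l1, l2]
      apply div_le_div_of_nonneg_left _ (by positivity) key
      apply mul_nonneg _ hD.le
      linarith
    linarith

/-- the tail bounds for all cells, scaled -/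
def tailSum (Q Den K0 : ℕ) (l : List Base) : ℕ :=
  (l.map (Base.tailNat Q Den K0)).foldr (fun x y => x + y) 0

/-- all tail conditions -/
def okTailList (Den K0 : ℕ) (l : List Base) : Bool :=
  decide (∀ i < l.length, Base.okTail Den K0 (l.getD i Base.dflt) = true) &&
  decide (∀ i < l.length, (l.getD i Base.dflt).w ≤ 2 * Den)

/-- total length over `2 ^ d + N` periods from below -/
theorem sum_cells_ge_tail {M1 M2 a c Den : ℕ} {l : List Base}
    (hl : okList M1 M2 a c Den l = true) (hDen : 0 < Den) {Q : ℕ} (hQ : 0 < Q) (d : ℕ)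
    (hl' : okTailList Den (2 ^ d) l = true) (N : ℕ) (hN : 0 < N) :
    (blockNat Q Den l d 0 : ℝ) / Q + (tailSum Q Den (2 ^ d) l : ℝ) / Q -
      2 * l.length / N ≤
      ∑ x ∈ Finset.range (2 ^ d + N) ×ˢ Finset.range l.length, (cHi Den l x - cLo Den l x) := by
  have h0 := sum_cells_ge hl hQ d
  rw [Finset.sum_product, Finset.sum_range_add]
  rw [Finset.sum_product] at h0
  have h1 : (tailSum Q Den (2 ^ d) l : ℝ) / Q - 2 * l.length / N ≤
      ∑ x ∈ Finset.range N, ∑ y ∈ Finset.range l.length,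
        (cHi Den l (2 ^ d + x, y) - cLo Den l (2 ^ d + x, y)) := by
    rw [Finset.sum_comm]
    unfold tailSum
    rw [foldr_eq_sum]
    push_cast
    rw [Finset.sum_div]
    have e1 : (2:ℝ) * l.length / N = ∑ i ∈ Finset.range l.length, (2:ℝ) / N := by
      rw [Finset.sum_const, Finset.card_range, nsmul_eq_mul]; ring
    rw [e1, ← Finset.sum_sub_distrib]
    apply Finset.sum_le_sum
    intro i hi
    rw [Finset.mem_range] at hi
    unfold okList at hl
    unfold okTailList at hl'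
    simp only [Bool.and_eq_true, decide_eq_true_eq] at hl hl'
    have g1 := hl.1.1 i hi
    unfold Base.ok at g1
    simp only [Bool.and_eq_true, decide_eq_true_eq] at g1
    obtain ⟨⟨⟨⟨⟨⟨⟨g1, g2⟩, g3⟩, g4⟩, g5⟩, g6⟩, g7⟩, g8⟩ := g1
    have g9 := hl'.1 i hi
    have g10 := hl'.2 i hi
    unfold cHi cLo
    simp only
    generalize l.getD i Base.dflt = t at *
    have hD : (0:ℝ) < Den := by exact_mod_cast hDen
    have hNr : (0:ℝ) < N := by exact_mod_cast hN
    have hQr : (0:ℝ) < Q := by exact_mod_cast hQ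
    have hK1 : 1 ≤ 2 ^ d := Nat.one_le_two_pow
    have hK1' : (1:ℝ) ≤ ((2 ^ d : ℕ) : ℝ) := by exact_mod_cast hK1
    have hu' : (0:ℝ) < t.u := by exact_mod_cast g2
    have huw' : (t.u:ℝ) ≤ t.w := by exact_mod_cast g3
    have hw2 : (t.w:ℝ) ≤ 2 * Den := by exact_mod_cast g10
    have key := tail_cell (N := N) hDen hK1 g2 g3 g9
    have hs : (0:ℝ) < t.shift Den (2 ^ d) := by
      have : 0 < t.shift Den (2 ^ d) := by unfold Base.shift; exact Nat.succ_pos _
      exact_mod_cast this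
    have k1 : ((t.tailNat Q Den (2 ^ d) : ℕ) : ℝ) / Q ≤
        ((t.w:ℝ) - t.u) / ((((2 ^ d : ℕ):ℝ) - 1) * Den + t.shift Den (2 ^ d)) := by
      unfold Base.tailNat
      rw [div_le_iff₀ hQr]
      refine (Nat.cast_div_le).trans (le_of_eq ?_)
      push_cast [Nat.cast_sub g3, Nat.cast_sub hK1]
      ring
    have k2 : ((t.w:ℝ) - t.u) / ((((2 ^ d : ℕ):ℝ) + N - 1) * Den + t.shift Den (2 ^ d)) ≤
        2 / N := by
      rw [div_le_div_iff₀ _ hNr]
      · have : (0:ℝ) ≤ (((2 ^ d : ℕ):ℝ) - 1) * Den := mul_nonneg (by linarith) hD.le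
        nlinarith
      · have : (0:ℝ) ≤ (((2 ^ d : ℕ):ℝ) - 1) * Den := mul_nonneg (by linarith) hD.le
        nlinarith
    push_cast at key k1 k2 ⊢
    linarith
  linarith

end Vale.Agent.P021
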