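import Vale.Agent.Lib.P021.Defs

/-!
# Bounds on a circle
-/

namespace Vale.Agent.P021

open Complex

/-- The bound on the circle of radius `r`. -/
theorem circleSup (M1 M2 a : ℕ) (r : ℝ) (hr : 0 < r) (hr2 : r ^ 2 < 2) :
    ∀ z : ℂ, ‖z‖ = r → ‖TT z - 2‖ ^ M1 * ‖TT z - 3‖ ^ M2 * ((2 - r ^ 2) / r) ^ (2 * a) ≤
      ((r ^ 2 + 2 * r + 2) / r) ^ M1 * (((1 + r) * (2 + r)) / r) ^ M2 * ‖YY z‖ ^ (2 * a) := by
  intro z hz
  have hz0 : z ≠ 0 := by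
    rintro rfl
    rw [norm_zero] at hz
    exact hr.ne hz
  have e1 : TT z - 2 = (z ^ 2 - 2 * z + 2) / z := by unfold TT; field_simp; ring
  have e2 : TT z - 3 = (z ^ 2 - 3 * z + 2) / z := by unfold TT; field_simp; ring
  have e3 : YY z = (z ^ 2 - 2) / z := by unfold YY; field_simp
  have b1 : ‖TT z - 2‖ ≤ (r ^ 2 + 2 * r + 2) / r := by
    rw [e1, norm_div, hz]
    apply div_le_div_of_nonneg_right _ hr.le
    calc ‖z ^ 2 - 2 * z + 2‖ ≤ ‖z ^ 2 - 2 * z‖ + ‖(2 : ℂ)‖ := norm_add_le _ _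
      _ ≤ ‖z ^ 2‖ + ‖2 * z‖ + ‖(2 : ℂ)‖ := by gcongr; exact norm_sub_le _ _
      _ = r ^ 2 + 2 * r + 2 := by rw [norm_pow, norm_mul, hz]; simp
  have b2 : ‖TT z - 3‖ ≤ ((1 + r) * (2 + r)) / r := by
    rw [e2, norm_div, hz]
    apply div_le_div_of_nonneg_right _ hr.le
    calc ‖z ^ 2 - 3 * z + 2‖ ≤ ‖z ^ 2 - 3 * z‖ + ‖(2 : ℂ)‖ := norm_add_le _ _
      _ ≤ ‖z ^ 2‖ + ‖3 * z‖ + ‖(2 : ℂ)‖ := by gcongr; exact norm_sub_le _ _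
      _ = (1 + r) * (2 + r) := by rw [norm_pow, norm_mul, hz]; simp; ring
  have b3 : (2 - r ^ 2) / r ≤ ‖YY z‖ := by
    rw [e3, norm_div, hz]
    apply div_le_div_of_nonneg_right _ hr.le
    have h1 : ‖(2 : ℂ)‖ - ‖z ^ 2‖ ≤ ‖2 - z ^ 2‖ := norm_sub_norm_le _ _
    rw [norm_pow, hz, norm_sub_rev] at h1
    simpa using h1
  have p3 : 0 ≤ (2 - r ^ 2) / r := div_nonneg (by linarith) hr.le
  gcongr

/-- The bound for the exponents `3, 5, 2` on the circle of radius `39/100`. -/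
theorem circleSup352 : ∀ z : ℂ, ‖z‖ = 39 / 100 →
    ‖TT z - 2‖ ^ 3 * ‖TT z - 3‖ ^ 5 ≤ 37812 * ‖YY z‖ ^ 4 := by
  intro z hz
  have h := circleSup 3 5 2 (39 / 100) (by norm_num) (by norm_num) z hz
  have h1 : (0 : ℝ) < ((2 - (39 / 100) ^ 2) / (39 / 100)) ^ (2 * 2) := by norm_num
  rw [← le_div_iff₀ h1] at h
  refine h.trans ?_
  have h2 : ((((39 / 100 : ℝ) ^ 2 + 2 * (39 / 100) + 2) / (39 / 100)) ^ 3 *
      (((1 + 39 / 100) * (2 + 39 / 100)) / (39 / 100)) ^ 5) /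
      ((2 - (39 / 100) ^ 2) / (39 / 100)) ^ (2 * 2) ≤ 37812 := by norm_num
  calc _ = (((((39 / 100 : ℝ) ^ 2 + 2 * (39 / 100) + 2) / (39 / 100)) ^ 3 *
      (((1 + 39 / 100) * (2 + 39 / 100)) / (39 / 100)) ^ 5) /
      ((2 - (39 / 100) ^ 2) / (39 / 100)) ^ (2 * 2)) * ‖YY z‖ ^ (2 * 2) := by ring
    _ ≤ 37812 * ‖YY z‖ ^ (2 * 2) := by gcongr

end Vale.Agent.P021
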