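import Mathlib

/-!
# Polynomial decomposition
-/

namespace Vale.Agent.P021
open Polynomial

/-- the operator `W ↦ (X^2-8) W' - (2k-1) X W` -/
noncomputable def DD (k : ℕ) (W : ℚ[X]) : ℚ[X] :=
  (X ^ 2 - C 8) * derivative W - C (2 * (k:ℚ) - 1) * X * W

theorem DD_add (k : ℕ) (W V : ℚ[X]) : DD k (W + V) = DD k W + DD k V := by
  unfold DD; rw [derivative_add]; ring

theorem DD_smul (k : ℕ) (c : ℚ) (W : ℚ[X]) : DD k (C c * W) = C c * DD k W := by
  unfold DD; rw [derivative_mul, derivative_C]; ring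

/-- decomposability with degree bound -/
def Dec (k B : ℕ) (P : ℚ[X]) : Prop :=
  ∃ W : ℚ[X], ∃ A : ℚ, DD k W = P - C A * (X ^ 2 - C 8) ^ k ∧ W.natDegree ≤ B

theorem Dec.add {k B : ℕ} {P Q : ℚ[X]} (hP : Dec k B P) (hQ : Dec k B Q) : Dec k B (P + Q) := by
  obtain ⟨W, A, h1, h2⟩ := hP
  obtain ⟨V, A', h3, h4⟩ := hQ
  refine ⟨W + V, A + A', ?_, ?_⟩
  · rw [DD_add, h1, h3, C_add]; ring
  · exact (natDegree_add_le _ _).trans (max_le h2 h4)

theorem Dec.smul {k B : ℕ} {P : ℚ[X]} (c : ℚ) (hP : Dec k B P) : Dec k B (C c * P) := by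
  obtain ⟨W, A, h1, h2⟩ := hP
  refine ⟨C c * W, c * A, ?_, ?_⟩
  · rw [DD_smul, h1, C_mul]; ring
  · exact (natDegree_C_mul_le _ _).trans h2

theorem Dec.zero (k B : ℕ) : Dec k B 0 := ⟨0, 0, by simp [DD], by simp⟩

theorem Dec.sum {k B : ℕ} {ι : Type*} (s : Finset ι) (f : ι → ℚ[X])
    (h : ∀ i ∈ s, Dec k B (f i)) : Dec k B (∑ i ∈ s, f i) := by
  classical
  induction s using Finset.induction_on with
  | empty => simpa using Dec.zero k B
  | insert a s ha ih =>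
    rw [Finset.sum_insert ha]
    exact (h a (Finset.mem_insert_self _ _)).add
      (ih fun i hi => h i (Finset.mem_insert_of_mem hi))

theorem Dec.of_DD {k B : ℕ} (W : ℚ[X]) (h : W.natDegree ≤ B) : Dec k B (DD k W) :=
  ⟨W, 0, by simp, h⟩

theorem DD_X_pow_succ (k m : ℕ) :
    DD k (X ^ (m + 1)) = C ((m:ℚ) + 2 - 2 * k) * X ^ (m + 2) - C (8 * ((m:ℚ) + 1)) * X ^ m := by
  unfold DD
  rw [derivative_X_pow]
  simp only [Nat.add_sub_cancel]
  have : ((m + 1 : ℕ) : ℚ[X]) = C ((m:ℚ) + 1) := by simp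
  rw [show ((((m + 1 : ℕ) : ℚ)) = (m:ℚ) + 1) by push_cast; ring]
  have e : C ((m:ℚ) + 2 - 2 * k) = C ((m:ℚ) + 1) - C (2 * (k:ℚ) - 1) := by
    rw [← C_sub]; congr 1; ring
  rw [e, C_mul]
  ring

theorem DD_one (k : ℕ) : DD k 1 = C (1 - 2 * (k:ℚ)) * X := by
  unfold DD
  rw [derivative_one]
  have e : C (1 - 2 * (k:ℚ)) = - C (2 * (k:ℚ) - 1) := by rw [← C_neg]; congr 1; ring
  rw [e]; ring

theorem Dec.odd (k B : ℕ) : ∀ j : ℕ, 2 * j ≤ B → Dec k B (X ^ (2 * j + 1)) := by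
  intro j
  induction j with
  | zero =>
    intro _
    have h : (1 - 2 * (k:ℚ)) ≠ 0 := by
      intro h
      have h2 : (2 * k : ℤ) = 1 := by
        have : (2 * (k:ℚ)) = 1 := by linarith
        exact_mod_cast this
      omega
    have h1 : (X : ℚ[X]) ^ (2 * 0 + 1) = C (1 - 2 * (k:ℚ))⁻¹ * DD k 1 := by
      rw [DD_one, ← mul_assoc, ← C_mul, inv_mul_cancel₀ h]; simp
    rw [h1]
    exact (Dec.of_DD 1 (by simp)).smul _
  | succ j ih =>
    intro hj
    have h : ((2 * j + 1 : ℕ) : ℚ) + 2 - 2 * k ≠ 0 := by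
      intro h
      have h2 : (2 * j + 1 : ℤ) + 2 - 2 * k = 0 := by exact_mod_cast h
      omega
    have h0 := DD_X_pow_succ k (2 * j + 1)
    have h1 : (X : ℚ[X]) ^ (2 * (j + 1) + 1) = C (((2 * j + 1 : ℕ) : ℚ) + 2 - 2 * k)⁻¹ *
        (DD k (X ^ (2 * j + 1 + 1)) + C (8 * (((2 * j + 1 : ℕ) : ℚ) + 1)) * X ^ (2 * j + 1)) := by
      rw [h0, sub_add_cancel, ← mul_assoc, ← C_mul, inv_mul_cancel₀ h]
      simp only [map_one, one_mul]
      ring_nf
    rw [h1]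
    apply Dec.smul
    apply Dec.add
    · apply Dec.of_DD
      rw [natDegree_X_pow]; omega
    · exact (ih (by omega)).smul _

theorem Dec.evenLow (k B : ℕ) (hB : 2 * k ≤ B) : ∀ i : ℕ, i + 1 ≤ k →
    Dec k B (X ^ (2 * (k - 1 - i))) := by
  intro i
  induction i with
  | zero =>
    intro hk
    obtain ⟨m, rfl⟩ : ∃ m, k = m + 1 := ⟨k - 1, by omega⟩
    have h0 := DD_X_pow_succ (m + 1) (2 * m)
    have e : (((2 * m : ℕ) : ℚ) + 2 - 2 * ((m + 1 : ℕ) : ℚ)) = 0 := by push_cast; ring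
    rw [e] at h0
    have h : (8 * (((2 * m : ℕ) : ℚ) + 1)) ≠ 0 := by positivity
    have h1 : (X : ℚ[X]) ^ (2 * (m + 1 - 1 - 0)) = C (-(8 * (((2 * m : ℕ) : ℚ) + 1))⁻¹) *
        DD (m + 1) (X ^ (2 * m + 1)) := by
      rw [h0]
      simp only [map_zero, zero_mul, zero_sub]
      rw [C_neg, neg_mul_neg, ← mul_assoc, ← C_mul, inv_mul_cancel₀ h]
      simp
    rw [h1]
    apply Dec.smul
    apply Dec.of_DD
    rw [natDegree_X_pow]; omega
  | succ i ih =>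
    intro hk
    have ih := ih (by omega)
    obtain ⟨m, hm⟩ : ∃ m, k - 1 - (i + 1) = m := ⟨_, rfl⟩
    have hm' : k - 1 - i = m + 1 := by omega
    rw [hm]
    rw [hm'] at ih
    have h0 := DD_X_pow_succ k (2 * m)
    have h : (8 * (((2 * m : ℕ) : ℚ) + 1)) ≠ 0 := by positivity
    have h1 : (X : ℚ[X]) ^ (2 * m) = C ((8 * (((2 * m : ℕ) : ℚ) + 1))⁻¹) *
        (C (((2 * m : ℕ) : ℚ) + 2 - 2 * k) * X ^ (2 * (m + 1)) +
          C (-1) * DD k (X ^ (2 * m + 1))) := by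
      rw [h0, show 2 * (m + 1) = 2 * m + 2 by ring]
      have : C (((2 * m : ℕ) : ℚ) + 2 - 2 * k) * X ^ (2 * m + 2) +
          C (-1) * (C (((2 * m : ℕ) : ℚ) + 2 - 2 * k) * X ^ (2 * m + 2)
            - C (8 * (((2 * m : ℕ) : ℚ) + 1)) * X ^ (2 * m))
          = C (8 * (((2 * m : ℕ) : ℚ) + 1)) * X ^ (2 * m) := by
        rw [C_neg, C_1]; ring
      rw [this, ← mul_assoc, ← C_mul, inv_mul_cancel₀ h]
      simp
    rw [h1]
    apply Dec.smul
    apply Dec.add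
    · exact ih.smul _
    · apply Dec.smul
      apply Dec.of_DD
      rw [natDegree_X_pow]; omega

theorem Dec.evenLow' (k B : ℕ) (hB : 2 * k ≤ B) (j : ℕ) (hj : j < k) : Dec k B (X ^ (2 * j)) := by
  have := Dec.evenLow k B hB (k - 1 - j) (by omega)
  rwa [show k - 1 - (k - 1 - j) = j by omega] at this

theorem Dec.top (k B : ℕ) : Dec k B ((X ^ 2 - C 8) ^ k) := ⟨0, 1, by simp [DD], by simp⟩

theorem Dec.evenMid (k B : ℕ) (hB : 2 * k ≤ B) : Dec k B (X ^ (2 * k)) := by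
  have h : (X ^ 2 - C 8 : ℚ[X]) ^ k = X ^ (2 * k) +
      ∑ m ∈ Finset.range k, C ((-8) ^ (k - m) * (k.choose m : ℚ)) * X ^ (2 * m) := by
    rw [sub_eq_add_neg, add_pow, Finset.sum_range_succ, add_comm]
    congr 1
    · simp [pow_mul]
    · apply Finset.sum_congr rfl
      intro m _
      rw [C_mul, C_pow, ← C_neg, pow_mul]
      simp only [map_natCast]
      ring
  have h1 : (X : ℚ[X]) ^ (2 * k) = (X ^ 2 - C 8) ^ k +
      C (-1) * ∑ m ∈ Finset.range k, C ((-8) ^ (k - m) * (k.choose m : ℚ)) * X ^ (2 * m) := by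
    rw [h, C_neg, C_1]; ring
  rw [h1]
  apply (Dec.top k B).add
  apply Dec.smul
  apply Dec.sum
  intro m hm
  exact (Dec.evenLow' k B hB m (Finset.mem_range.1 hm)).smul _

theorem Dec.evenHigh (k B : ℕ) (hB : 2 * k ≤ B) : ∀ i : ℕ, 2 * (k + i) ≤ B + 1 →
    Dec k B (X ^ (2 * (k + i))) := by
  intro i
  induction i with
  | zero => intro _; simpa using Dec.evenMid k B hB
  | succ i ih =>
    intro hi
    have ih := ih (by omega)
    have h0 := DD_X_pow_succ k (2 * (k + i))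
    have h : (((2 * (k + i) : ℕ) : ℚ) + 2 - 2 * k) ≠ 0 := by
      push_cast
      have : (0:ℚ) ≤ i := by positivity
      intro h
      linarith
    have h1 : (X : ℚ[X]) ^ (2 * (k + (i + 1))) = C (((2 * (k + i) : ℕ) : ℚ) + 2 - 2 * k)⁻¹ *
        (DD k (X ^ (2 * (k + i) + 1)) + C (8 * (((2 * (k + i) : ℕ) : ℚ) + 1)) * X ^ (2 * (k + i))) := by
      rw [h0, sub_add_cancel, ← mul_assoc, ← C_mul, inv_mul_cancel₀ h]
      simp only [map_one, one_mul]
      ring_nf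
    rw [h1]
    apply Dec.smul
    apply Dec.add
    · apply Dec.of_DD
      rw [natDegree_X_pow]; omega
    · exact ih.smul _

theorem Dec.X_pow (k B : ℕ) (hB : 2 * k ≤ B) (m : ℕ) (hm : m ≤ B + 1) : Dec k B (X ^ m) := by
  rcases Nat.even_or_odd' m with ⟨j, rfl | rfl⟩
  · rcases lt_or_ge j k with h | h
    · exact Dec.evenLow' k B hB j h
    · obtain ⟨i, rfl⟩ := Nat.exists_eq_add_of_le h
      exact Dec.evenHigh k B hB i (by omega)
  · exact Dec.odd k B j (by omega)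

/-- every polynomial is decomposable -/
theorem decomp (P : ℚ[X]) (k B : ℕ) (hB : 2 * k ≤ B) (hP : P.natDegree ≤ B + 1) :
    ∃ W : ℚ[X], ∃ A : ℚ, DD k W = P - C A * (X ^ 2 - C 8) ^ k ∧ W.natDegree ≤ B := by
  have : Dec k B P := by
    rw [P.as_sum_range_C_mul_X_pow]
    apply Dec.sum
    intro i hi
    have := Finset.mem_range.1 hi
    exact (Dec.X_pow k B hB i (by omega)).smul _
  exact this

end Vale.Agent.P021
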