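import Mathlib

/-!
# Basic objects for the irrationality exponent of pi

`TT z = z + 2/z`, `YY z = z - 2/z`, so `TT ^ 2 - YY ^ 2 = 8`, `z TT' = YY`, `z YY' = TT`.
For a rational polynomial `P` and `k : ℕ` we integrate `P (TT z) / (YY z) ^ (2 k) / z` along
the broken line from `1` through `v` to `1 + I` and take the imaginary part.
-/

namespace Vale.Agent.P021
open Polynomial Complex

/-- `z + 2/z` -/
noncomputable def TT (z : ℂ) : ℂ := z + 2 / z

/-- `z - 2/z` -/
noncomputable def YY (z : ℂ) : ℂ := z - 2 / z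

/-- `P (TT z) / (YY z)^(2k)` -/
noncomputable def gg (P : ℚ[X]) (k : ℕ) (z : ℂ) : ℂ := aeval (TT z) P / (YY z) ^ (2 * k)

/-- integral along the oriented line segment from `a` to `b` -/
noncomputable def seg (F : ℂ → ℂ) (a b : ℂ) : ℂ :=
  ∫ t in (0:ℝ)..1, F (a + t * (b - a)) * (b - a)

/-- integral along the broken line `1`, `v`, `1 + I` -/
noncomputable def path (v : ℂ) (F : ℂ → ℂ) : ℂ := seg F 1 v + seg F v (1 + I)

/-- the set of points of the broken line -/
def pts (v : ℂ) : Set ℂ := {z | ∃ t : ℝ, t ∈ Set.Icc (0:ℝ) 1 ∧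
  (z = 1 + t * (v - 1) ∨ z = v + t * (1 + I - v))}

/-- the basic linear functional -/
noncomputable def LL (v : ℂ) (P : ℚ[X]) (k : ℕ) : ℝ :=
  (path v (fun z => gg P k z / z)).im

theorem hasDerivAt_TT {z : ℂ} (hz : z ≠ 0) : HasDerivAt TT (YY z / z) z := by
  have h1 : HasDerivAt (fun z : ℂ => z + 2 * z⁻¹) (1 + 2 * (-(z ^ 2)⁻¹)) z :=
    (hasDerivAt_id z).add ((hasDerivAt_inv hz).const_mul 2)
  have h2 : TT = fun z : ℂ => z + 2 * z⁻¹ := by
    funext w; simp [TT, div_eq_mul_inv]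
  rw [h2]
  convert h1 using 1
  unfold YY
  field_simp
  ring

theorem hasDerivAt_YY {z : ℂ} (hz : z ≠ 0) : HasDerivAt YY (TT z / z) z := by
  have h1 : HasDerivAt (fun z : ℂ => z - 2 * z⁻¹) (1 - 2 * (-(z ^ 2)⁻¹)) z :=
    (hasDerivAt_id z).sub ((hasDerivAt_inv hz).const_mul 2)
  have h2 : YY = fun z : ℂ => z - 2 * z⁻¹ := by
    funext w; simp [YY, div_eq_mul_inv]
  rw [h2]
  convert h1 using 1
  unfold TT
  field_simp
  ring

theorem TT_sq {z : ℂ} (hz : z ≠ 0) : TT z ^ 2 = YY z ^ 2 + 8 := by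
  unfold TT YY
  field_simp
  ring

theorem TT_one : TT 1 = 3 := by norm_num [TT]
theorem YY_one : YY 1 = -1 := by norm_num [YY]

theorem one_add_I_ne : (1 + I : ℂ) ≠ 0 := by
  intro h
  have := congrArg Complex.re h
  simp at this

theorem two_div_one_add_I : (2 : ℂ) / (1 + I) = 1 - I := by
  rw [div_eq_iff one_add_I_ne]
  ring_nf
  simp
  norm_num

theorem TT_e : TT (1 + I) = 2 := by
  unfold TT; rw [two_div_one_add_I]; ring
theorem YY_e : YY (1 + I) = 2 * I := by
  unfold YY; rw [two_div_one_add_I]; ring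

theorem convex_pos {x y t : ℝ} (hx : 0 < x) (hy : 0 < y) (h0 : 0 ≤ t) (h1 : t ≤ 1) :
    0 < x + t * (y - x) := by
  rcases h1.lt_or_eq with h | h
  · nlinarith [mul_pos (sub_pos.2 h) hx, mul_nonneg h0 hy.le]
  · rw [h]; linarith

theorem pts_prop {v : ℂ} (hv : 0 < v.re) (hv' : 0 < v.im) {z : ℂ} (hz : z ∈ pts v) :
    0 < z.re ∧ YY z ≠ 0 := by
  obtain ⟨t, ⟨ht0, ht1⟩, h⟩ := hz
  have key : 0 < z.re ∧ (0 < z.im ∨ z = 1) := by
    rcases h with h | h
    · have hre : z.re = 1 + t * (v.re - 1) := by rw [h]; simp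
      have him : z.im = t * v.im := by rw [h]; simp
      constructor
      · rw [hre]; exact convex_pos one_pos hv ht0 ht1
      · rcases ht0.lt_or_eq with h0 | h0
        · left; rw [him]; positivity
        · right; rw [h, ← h0]; simp
    · have hre : z.re = v.re + t * (1 - v.re) := by rw [h]; simp
      have him : z.im = v.im + t * (1 - v.im) := by rw [h]; simp
      constructor
      · rw [hre]; exact convex_pos hv one_pos ht0 ht1
      · left; rw [him]; exact convex_pos hv' one_pos ht0 ht1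
  refine ⟨key.1, ?_⟩
  intro hy
  have hz0 : z ≠ 0 := by rintro rfl; simp at key
  have h2 : z ^ 2 = 2 := by
    unfold YY at hy
    field_simp at hy
    linear_combination hy
  have him : (z ^ 2).im = 0 := by rw [h2]; simp
  have hre : (z ^ 2).re = 2 := by rw [h2]; simp
  rw [pow_two, Complex.mul_im] at him
  rw [pow_two, Complex.mul_re] at hre
  rcases key.2 with h3 | h3
  · nlinarith [key.1, mul_pos key.1 h3]
  · rw [h3] at hre; norm_num at hre

theorem ne_zero_of_re_pos {z : ℂ} (h : 0 < z.re) : z ≠ 0 := by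
  rintro rfl; simp at h

theorem seg_eq {F Ψ : ℂ → ℂ} {a b : ℂ}
    (hd : ∀ t : ℝ, t ∈ Set.Icc (0:ℝ) 1 → HasDerivAt Ψ (F (a + t * (b - a))) (a + t * (b - a)))
    (hc : ContinuousOn (fun t : ℝ => F (a + t * (b - a))) (Set.Icc (0:ℝ) 1)) :
    seg F a b = Ψ b - Ψ a := by
  unfold seg
  have h1 : ∀ t ∈ Set.uIcc (0:ℝ) 1,
      HasDerivAt (fun t : ℝ => Ψ (a + t * (b - a))) (F (a + t * (b - a)) * (b - a)) t := by
    intro t ht
    rw [Set.uIcc_of_le zero_le_one] at ht
    have h2 : HasDerivAt (fun t : ℝ => a + (t:ℂ) * (b - a)) (1 * (b - a)) t := by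
      have h3 : HasDerivAt (fun t : ℝ => (t : ℂ)) 1 t := Complex.ofRealCLM.hasDerivAt
      exact (h3.mul_const (b - a)).const_add a
    have h4 := HasDerivAt.scomp_of_eq (𝕜 := ℝ) t (hd t ht) h2 rfl
    rw [one_mul, smul_eq_mul, mul_comm] at h4
    exact h4
  rw [intervalIntegral.integral_eq_sub_of_hasDerivAt h1]
  · simp
  · apply ContinuousOn.intervalIntegrable
    rw [Set.uIcc_of_le zero_le_one]
    exact hc.mul continuousOn_const

theorem cont_line (a b : ℂ) : Continuous (fun t : ℝ => a + (t:ℂ) * (b - a)) := by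
  fun_prop

theorem path_eq {v : ℂ} {F Ψ : ℂ → ℂ} (hd : ∀ z ∈ pts v, HasDerivAt Ψ (F z) z)
    (hc : ∀ z ∈ pts v, ContinuousAt F z) : path v F = Ψ (1 + I) - Ψ 1 := by
  unfold path
  rw [seg_eq (Ψ := Ψ), seg_eq (Ψ := Ψ)]
  · ring
  · intro t ht
    exact hd _ ⟨t, ht, Or.inr rfl⟩
  · intro t ht
    exact ((hc _ ⟨t, ht, Or.inr rfl⟩).comp (f := fun t : ℝ => v + (t:ℂ) * (1 + I - v))
      (cont_line _ _).continuousAt).continuousWithinAt
  · intro t ht
    exact hd _ ⟨t, ht, Or.inl rfl⟩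
  · intro t ht
    exact ((hc _ ⟨t, ht, Or.inl rfl⟩).comp (f := fun t : ℝ => 1 + (t:ℂ) * (v - 1))
      (cont_line _ _).continuousAt).continuousWithinAt

theorem continuousAt_gg {P : ℚ[X]} {k : ℕ} {z : ℂ} (hz : z ≠ 0) (hy : YY z ≠ 0) :
    ContinuousAt (gg P k) z := by
  unfold gg
  apply ContinuousAt.div
  · exact ((Polynomial.continuous_aeval P).continuousAt).comp (hasDerivAt_TT hz).continuousAt
  · exact (hasDerivAt_YY hz).continuousAt.pow _
  · exact pow_ne_zero _ hy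

theorem continuousAt_gg' {P : ℚ[X]} {k : ℕ} {z : ℂ} (hz : z ≠ 0) (hy : YY z ≠ 0) :
    ContinuousAt (fun z => gg P k z / z) z :=
  (continuousAt_gg hz hy).div continuousAt_id hz

end Vale.Agent.P021
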