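import Mathlib

/-!
# The irrationality exponent
-/

namespace Vale.Agent.P021

/-- The pairs `(p, q)` of coprime integers with `q ≥ 2` and `0 < |x - p/q| < q^(-ν)`. -/
def approxSet (x ν : ℝ) : Set (ℤ × ℤ) :=
  {pq | IsCoprime pq.1 pq.2 ∧ 2 ≤ pq.2 ∧ 0 < |x - pq.1 / pq.2| ∧
    |x - pq.1 / pq.2| < (pq.2 : ℝ) ^ (-ν)}

/-- The irrationality exponent of `x`: the supremum, in the extended real numbers, of all real
`ν > 0` such that `0 < |x - p/q| < q^(-ν)` for infinitely many pairs of coprime integers `p, q`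
with `q ≥ 2`. -/
noncomputable def irrationalityExponent (x : ℝ) : EReal :=
  sSup {e : EReal | ∃ ν : ℝ, 0 < ν ∧ (approxSet x ν).Infinite ∧ e = (ν : EReal)}

end Vale.Agent.P021
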