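import Vale.Agent.Lib.P021.Defs

/-!
# The functional `LL`: linearity, exact forms
-/

namespace Vale.Agent.P021
open Polynomial Complex

section
variable {v : ℂ}

theorem ii1 {F : ℂ → ℂ} (hc : ∀ z ∈ pts v, ContinuousAt F z) :
    IntervalIntegrable (fun t : ℝ => F (1 + t * (v - 1)) * (v - 1)) MeasureTheory.volume 0 1 := by
  apply ContinuousOn.intervalIntegrable
  rw [Set.uIcc_of_le zero_le_one]
  apply ContinuousOn.mul _ continuousOn_const
  intro t ht
  exact ((hc _ ⟨t, ht, Or.inl rfl⟩).comp (f := fun t : ℝ => 1 + (t:ℂ) * (v - 1))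
      (cont_line _ _).continuousAt).continuousWithinAt

theorem ii2 {F : ℂ → ℂ} (hc : ∀ z ∈ pts v, ContinuousAt F z) :
    IntervalIntegrable (fun t : ℝ => F (v + t * (1 + I - v)) * (1 + I - v))
      MeasureTheory.volume 0 1 := by
  apply ContinuousOn.intervalIntegrable
  rw [Set.uIcc_of_le zero_le_one]
  apply ContinuousOn.mul _ continuousOn_const
  intro t ht
  exact ((hc _ ⟨t, ht, Or.inr rfl⟩).comp (f := fun t : ℝ => v + (t:ℂ) * (1 + I - v))
      (cont_line _ _).continuousAt).continuousWithinAt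

theorem path_add {F G : ℂ → ℂ} (hF : ∀ z ∈ pts v, ContinuousAt F z)
    (hG : ∀ z ∈ pts v, ContinuousAt G z) :
    path v (fun z => F z + G z) = path v F + path v G := by
  unfold path seg
  simp only [add_mul]
  rw [intervalIntegral.integral_add (ii1 hF) (ii1 hG),
    intervalIntegral.integral_add (ii2 hF) (ii2 hG)]
  ring

theorem path_smul (c : ℂ) (F : ℂ → ℂ) : path v (fun z => c * F z) = c * path v F := by
  unfold path seg
  simp only [mul_assoc, intervalIntegral.integral_const_mul]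
  ring

theorem path_congr {F G : ℂ → ℂ} (h : ∀ z ∈ pts v, F z = G z) : path v F = path v G := by
  unfold path seg
  congr 1
  · apply intervalIntegral.integral_congr
    intro t ht
    rw [Set.uIcc_of_le zero_le_one] at ht
    simp only
    rw [h _ ⟨t, ht, Or.inl rfl⟩]
  · apply intervalIntegral.integral_congr
    intro t ht
    rw [Set.uIcc_of_le zero_le_one] at ht
    simp only
    rw [h _ ⟨t, ht, Or.inr rfl⟩]

variable (hv : 0 < v.re) (hv' : 0 < v.im)
include hv hv'

theorem LL_add (P Q : ℚ[X]) (k : ℕ) : LL v (P + Q) k = LL v P k + LL v Q k := by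
  unfold LL
  rw [← Complex.add_im, ← path_add]
  · congr 2
    funext z
    simp only [gg, map_add]
    ring
  · intro z hz
    obtain ⟨h1, h2⟩ := pts_prop hv hv' hz
    exact continuousAt_gg' (ne_zero_of_re_pos h1) h2
  · intro z hz
    obtain ⟨h1, h2⟩ := pts_prop hv hv' hz
    exact continuousAt_gg' (ne_zero_of_re_pos h1) h2

omit hv hv' in
theorem LL_smul (c : ℚ) (P : ℚ[X]) (k : ℕ) : LL v (C c * P) k = c * LL v P k := by
  unfold LL
  have : (fun z => gg (C c * P) k z / z) = fun z => ((c:ℝ):ℂ) * (gg P k z / z) := by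
    funext z
    simp only [gg, map_mul, aeval_C]
    simp
    ring
  rw [this, path_smul, Complex.im_ofReal_mul]

omit hv hv' in
theorem aeval_sq_sub {z : ℂ} (hz : z ≠ 0) :
    aeval (TT z) (X ^ 2 - C 8 : ℚ[X]) = YY z ^ 2 := by
  simp [TT_sq hz]

theorem LL_shift (P : ℚ[X]) (k : ℕ) : LL v ((X ^ 2 - C 8) * P) (k + 1) = LL v P k := by
  unfold LL
  congr 1
  apply path_congr
  intro z hz
  obtain ⟨h1, h2⟩ := pts_prop hv hv' hz
  have h0 := ne_zero_of_re_pos h1
  congr 1
  unfold gg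
  rw [map_mul, aeval_sq_sub h0, mul_add, pow_add, mul_one, mul_comm, ← div_div]
  field_simp

theorem LL_shift' (P : ℚ[X]) (k j : ℕ) : LL v ((X ^ 2 - C 8) ^ j * P) (k + j) = LL v P k := by
  induction j with
  | zero => simp
  | succ j ih => rw [pow_succ', mul_assoc, ← add_assoc, LL_shift hv hv', ih]

/-- primitive function attached to a polynomial `W` -/
noncomputable def prim (W : ℚ[X]) (k : ℕ) (z : ℂ) : ℂ := aeval (TT z) W * YY z / (YY z) ^ (2 * k)

omit hv hv' in
theorem hasDerivAt_prim (W : ℚ[X]) (k : ℕ) {z : ℂ} (hz : z ≠ 0) (hy : YY z ≠ 0) :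
    HasDerivAt (prim W k)
      (gg ((X ^ 2 - C 8) * derivative W - C (2 * (k:ℚ) - 1) * X * W) k z / z) z := by
  have h1 : HasDerivAt (fun z => aeval (TT z) W) (aeval (TT z) (derivative W) * (YY z / z)) z :=
    HasDerivAt.comp z (Polynomial.hasDerivAt_aeval W (TT z)) (hasDerivAt_TT hz)
  have h2 := hasDerivAt_YY hz
  have h3 := (h1.mul h2).div (h2.pow (2 * k)) (pow_ne_zero _ hy)
  refine h3.congr_deriv ?_
  simp only [Pi.pow_apply, Pi.mul_apply]
  unfold gg
  rw [map_sub, map_mul, map_mul, map_mul, aeval_sq_sub hz]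
  simp only [aeval_C, aeval_X]
  rcases Nat.eq_zero_or_pos k with hk | hk
  · subst hk
    simp
    field_simp
  · obtain ⟨m, rfl⟩ : ∃ m, k = m + 1 := ⟨k - 1, by omega⟩
    have e1 : 2 * (m + 1) - 1 = 2 * m + 1 := by omega
    rw [e1]
    simp only [map_sub, map_mul, map_one, map_add]
    push_cast
    have e2 : 2 * (m + 1) = 2 * m + 1 + 1 := by ring
    rw [e2, pow_succ (YY z) (2 * m + 1)]
    generalize hY : (YY z) ^ (2 * m + 1) = Yp
    have hYp : Yp ≠ 0 := by rw [← hY]; exact pow_ne_zero _ hy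
    simp only [map_ofNat, map_natCast]
    field_simp
    ring

theorem LL_exact (W : ℚ[X]) (k : ℕ) :
    LL v ((X ^ 2 - C 8) * derivative W - C (2 * (k:ℚ) - 1) * X * W) k
      = 2 * ((W.eval 2 / (-4) ^ k : ℚ) : ℝ) := by
  unfold LL
  rw [path_eq (Ψ := prim W k)]
  · unfold prim
    rw [TT_e, YY_e, TT_one, YY_one]
    have h2 : aeval (2:ℂ) W = ((W.eval 2 : ℚ) : ℂ) := by
      have : (2:ℂ) = algebraMap ℚ ℂ 2 := by simp
      rw [this, Polynomial.aeval_algebraMap_apply]
      simp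
    have h3 : aeval (3:ℂ) W = ((W.eval 3 : ℚ) : ℂ) := by
      have : (3:ℂ) = algebraMap ℚ ℂ 3 := by simp
      rw [this, Polynomial.aeval_algebraMap_apply]
      simp
    rw [h2, h3]
    have h4 : (2 * I) ^ (2 * k) = ((((-4) ^ k : ℚ)) : ℂ) := by
      rw [pow_mul, mul_pow, I_sq]; push_cast; norm_num
    rw [h4]
    have h5 : ((-1 : ℂ)) ^ (2 * k) = 1 := by rw [pow_mul]; simp
    rw [h5]
    have h6 : ((W.eval 2 : ℚ) : ℂ) * (2 * I) / ((((-4) ^ k : ℚ)) : ℂ) - ((W.eval 3 : ℚ) : ℂ) * (-1) / 1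
        = (((W.eval 3 : ℚ) : ℝ) : ℂ) + ((2 * ((W.eval 2 / (-4) ^ k : ℚ) : ℝ) : ℝ) : ℂ) * I := by
      push_cast
      ring
    rw [h6, Complex.add_im, Complex.ofReal_im, Complex.mul_I_im, Complex.ofReal_re, zero_add]
  · intro z hz
    obtain ⟨h1, h2⟩ := pts_prop hv hv' hz
    exact hasDerivAt_prim W k (ne_zero_of_re_pos h1) h2
  · intro z hz
    obtain ⟨h1, h2⟩ := pts_prop hv hv' hz
    exact continuousAt_gg' (ne_zero_of_re_pos h1) h2

theorem LL_log : LL v 1 0 = Real.pi / 4 := by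
  unfold LL
  rw [path_eq (Ψ := Complex.log)]
  · rw [Complex.log_one, sub_zero, Complex.log_im]
    have : (1 + I : ℂ) = ((Real.sqrt 2 : ℝ) : ℂ) * (Complex.cos (Real.pi / 4 : ℝ) + Complex.sin (Real.pi / 4 : ℝ) * I) := by
      rw [← Complex.ofReal_cos, ← Complex.ofReal_sin, Real.cos_pi_div_four, Real.sin_pi_div_four]
      have h : Real.sqrt 2 * Real.sqrt 2 = 2 := Real.mul_self_sqrt (by norm_num)
      apply Complex.ext
      · simp; linarith
      · simp; linarith
    rw [this, Complex.arg_mul_cos_add_sin_mul_I]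
    · positivity
    · constructor
      · have := Real.pi_pos; linarith
      · have := Real.pi_pos; linarith
  · intro z hz
    obtain ⟨h1, h2⟩ := pts_prop hv hv' hz
    have := Complex.hasDerivAt_log (z := z) (Or.inl h1)
    simpa [gg] using this
  · intro z hz
    obtain ⟨h1, h2⟩ := pts_prop hv hv' hz
    exact continuousAt_gg' (ne_zero_of_re_pos h1) h2

end

end Vale.Agent.P021
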