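import Vale.Agent.Lib.P021.Functional
import Vale.Agent.Lib.P021.Decomp

/-!
# Values of `LL` are `A π/4 + 2 b` with controlled denominators away from 2
-/

namespace Vale.Agent.P021
open Polynomial Complex

/-- `r = A π/4 + 2 b`, `A` an integer, and `2^M lcm(1..L) b` an integer for some `M` -/
def Good (L : ℕ) (r : ℝ) : Prop :=
  ∃ A : ℤ, ∃ b : ℚ, r = A * (Real.pi / 4) + 2 * (b : ℝ) ∧
    ∃ M : ℕ, ∃ m : ℤ, (2:ℚ) ^ M * (Nat.lcmUpto L : ℚ) * b = m

theorem Good.add {L : ℕ} {r s : ℝ} (hr : Good L r) (hs : Good L s) : Good L (r + s) := by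
  obtain ⟨A, b, h1, M, m, h2⟩ := hr
  obtain ⟨A', b', h3, M', m', h4⟩ := hs
  refine ⟨A + A', b + b', by rw [h1, h3]; push_cast; ring, M + M',
    2 ^ M' * m + 2 ^ M * m', ?_⟩
  push_cast
  rw [← h2, ← h4]
  ring

theorem Good.zmul {L : ℕ} {r : ℝ} (c : ℤ) (hr : Good L r) : Good L (c * r) := by
  obtain ⟨A, b, h1, M, m, h2⟩ := hr
  refine ⟨c * A, c * b, by rw [h1]; push_cast; ring, M, c * m, ?_⟩
  push_cast
  rw [← h2]
  ring

theorem Good.zero (L : ℕ) : Good L 0 := ⟨0, 0, by simp, 0, 0, by simp⟩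

theorem Good.sum {L : ℕ} {ι : Type*} (s : Finset ι) (f : ι → ℝ)
    (h : ∀ i ∈ s, Good L (f i)) : Good L (∑ i ∈ s, f i) := by
  classical
  induction s using Finset.induction_on with
  | empty => simpa using Good.zero L
  | insert a s ha ih =>
    rw [Finset.sum_insert ha]
    exact (h a (Finset.mem_insert_self _ _)).add
      (ih fun i hi => h i (Finset.mem_insert_of_mem hi))

/-- rational numbers whose denominator divides `2^M lcm(1..L)` -/
def GoodQ (L : ℕ) (b : ℚ) : Prop :=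
  ∃ M : ℕ, ∃ m : ℤ, (2:ℚ) ^ M * (Nat.lcmUpto L : ℚ) * b = m

theorem GoodQ.good {L : ℕ} {b : ℚ} (h : GoodQ L b) : Good L (2 * (b:ℝ)) :=
  ⟨0, b, by simp, h⟩

theorem GoodQ.add {L : ℕ} {r s : ℚ} (hr : GoodQ L r) (hs : GoodQ L s) : GoodQ L (r + s) := by
  obtain ⟨M, m, h2⟩ := hr
  obtain ⟨M', m', h4⟩ := hs
  refine ⟨M + M', 2 ^ M' * m + 2 ^ M * m', ?_⟩
  push_cast
  rw [← h2, ← h4]
  ring

theorem GoodQ.zmul {L : ℕ} {r : ℚ} (c : ℤ) (hr : GoodQ L r) : GoodQ L (c * r) := by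
  obtain ⟨M, m, h2⟩ := hr
  refine ⟨M, c * m, ?_⟩
  push_cast
  rw [← h2]
  ring

theorem GoodQ.div_two_pow {L : ℕ} {r : ℚ} (s : ℕ) (hr : GoodQ L r) : GoodQ L (r / 2 ^ s) := by
  obtain ⟨M, m, h2⟩ := hr
  refine ⟨M + s, m, ?_⟩
  rw [← h2]
  have : (2:ℚ) ^ s ≠ 0 := by positivity
  rw [pow_add]
  field_simp

theorem GoodQ.zero (L : ℕ) : GoodQ L 0 := ⟨0, 0, by simp⟩

theorem GoodQ.sum {L : ℕ} {ι : Type*} (s : Finset ι) (f : ι → ℚ)
    (h : ∀ i ∈ s, GoodQ L (f i)) : GoodQ L (∑ i ∈ s, f i) := by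
  classical
  induction s using Finset.induction_on with
  | empty => simpa using GoodQ.zero L
  | insert a s ha ih =>
    rw [Finset.sum_insert ha]
    exact (h a (Finset.mem_insert_self _ _)).add
      (ih fun i hi => h i (Finset.mem_insert_of_mem hi))

theorem GoodQ.inv {L l : ℕ} (h1 : 1 ≤ l) (h2 : l ≤ L) : GoodQ L (1 / (l:ℚ)) := by
  have h : l ∣ Nat.lcmUpto L := by
    unfold Nat.lcmUpto
    exact Finset.dvd_lcm (f := id) (Finset.mem_Icc.2 ⟨h1, h2⟩)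
  obtain ⟨c, hc⟩ := h
  refine ⟨0, c, ?_⟩
  rw [hc]
  have : (l:ℚ) ≠ 0 := by positivity
  push_cast
  field_simp

section
variable {v : ℂ} (hv : 0 < v.re) (hv' : 0 < v.im)
include hv hv'

theorem path_zpow {l : ℤ} (hl : l ≠ 0) :
    path v (fun z => z ^ (l - 1)) = ((1 + I) ^ l - 1) / l := by
  rw [path_eq (Ψ := fun z => z ^ l / l)]
  · rw [one_zpow]; ring
  · intro z hz
    obtain ⟨h1, h2⟩ := pts_prop hv hv' hz
    have h3 := (hasDerivAt_zpow l z (Or.inl (ne_zero_of_re_pos h1))).div_const (l:ℂ)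
    have : (l:ℂ) ≠ 0 := by exact_mod_cast hl
    refine h3.congr_deriv ?_
    field_simp
  · intro z hz
    obtain ⟨h1, h2⟩ := pts_prop hv hv' hz
    exact continuousAt_zpow₀ _ _ (Or.inl (ne_zero_of_re_pos h1))

omit hv hv' in
theorem gauss_nat (n : ℕ) : ∃ a b : ℤ, (1 + I : ℂ) ^ n = a + b * I := by
  induction n with
  | zero => exact ⟨1, 0, by simp⟩
  | succ n ih =>
    obtain ⟨a, b, h⟩ := ih
    refine ⟨a - b, a + b, ?_⟩
    rw [pow_succ, h]
    push_cast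
    ring_nf
    simp
    ring

omit hv hv' in
theorem gauss_int (l : ℤ) : ∃ s : ℕ, ∃ b : ℤ, ((1 + I : ℂ) ^ l).im = (b : ℝ) / 2 ^ s := by
  obtain ⟨n, rfl | rfl⟩ := l.eq_nat_or_neg
  · obtain ⟨a, b, h⟩ := gauss_nat n
    refine ⟨0, b, ?_⟩
    rw [zpow_natCast, h]
    simp
  · obtain ⟨a, b, h⟩ := gauss_nat n
    refine ⟨n, -b, ?_⟩
    rw [zpow_neg, zpow_natCast]
    have h2 : Complex.normSq ((1 + I : ℂ) ^ n) = 2 ^ n := by
      rw [map_pow]
      congr 1
      simp [Complex.normSq_apply]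
      norm_num
    rw [Complex.inv_im, h2, h]
    simp

omit hv hv' in
theorem lpow_expand {z : ℂ} (hz : z ≠ 0) (m : ℕ) :
    TT z ^ m / z = ∑ j ∈ Finset.range (m + 1),
      ((2:ℤ) ^ j * (m.choose j : ℤ) : ℤ) * z ^ ((m:ℤ) - 2 * j - 1) := by
  unfold TT
  rw [add_comm z, add_pow, Finset.sum_div]
  apply Finset.sum_congr rfl
  intro j hj
  have hj' : j ≤ m := Nat.lt_succ_iff.1 (Finset.mem_range.1 hj)
  rw [show ((m:ℤ) - 2 * j - 1) = ((m - j : ℕ) : ℤ) - (j:ℤ) - 1 by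
    push_cast [Nat.cast_sub hj']; ring]
  rw [zpow_sub₀ hz, zpow_sub₀ hz, zpow_natCast, zpow_natCast, zpow_one, div_pow]
  push_cast
  field_simp

theorem good_zpow {L : ℕ} (l : ℤ) (hl : l.natAbs ≤ L) :
    Good L ((path v (fun z => z ^ (l - 1))).im) := by
  rcases eq_or_ne l 0 with h | h
  · subst h
    refine ⟨1, 0, ?_, 0, 0, by simp⟩
    have h1 := LL_log hv hv'
    unfold LL at h1
    have h2 : path v (fun z => z ^ ((0:ℤ) - 1)) = path v (fun z => gg 1 0 z / z) := by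
      apply path_congr
      intro z hz
      simp [gg]
    rw [h2, h1]
    simp
  · rw [path_zpow hv hv' h]
    obtain ⟨s, b, hb⟩ := gauss_int l
    have h1 : (((1 + I : ℂ) ^ l - 1) / l).im = 2 * (((b / 2 ^ s / (2 * l) : ℚ)) : ℝ) := by
      have h2 : (((1 + I : ℂ) ^ l - 1) / l) = (((l:ℝ)⁻¹ : ℝ) : ℂ) * ((1 + I : ℂ) ^ l - 1) := by
        push_cast; field_simp
      rw [h2, Complex.im_ofReal_mul, Complex.sub_im, hb]
      have : (l:ℝ) ≠ 0 := by exact_mod_cast h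
      push_cast
      simp only [Complex.one_im, sub_zero]
      field_simp
    rw [h1]
    apply GoodQ.good
    have h3 : (b / 2 ^ s / (2 * l) : ℚ) = ((b * l.sign : ℤ) : ℚ) * (1 / (l.natAbs : ℚ)) / 2 ^ (s + 1) := by
      have h4 : l = l.sign * (l.natAbs : ℤ) := (Int.sign_mul_natAbs l).symm
      have h5 : (l : ℚ) = (l.sign : ℚ) * (l.natAbs : ℚ) := by
        have := congrArg (Int.cast : ℤ → ℚ) h4
        simpa using this
      have h6 : (l.natAbs:ℚ) ≠ 0 := by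
        have := Int.natAbs_ne_zero.2 h
        exact_mod_cast this
      have h7 : (l.sign : ℚ) * l.sign = 1 := by
        rcases lt_or_gt_of_ne h with h8 | h8
        · rw [Int.sign_eq_neg_one_of_neg h8]; norm_num
        · rw [Int.sign_eq_one_of_pos h8]; norm_num
      have h8 : (l.sign : ℚ) ≠ 0 := fun h9 => by rw [h9] at h7; norm_num at h7
      rw [h5]
      push_cast
      have h9 : (b:ℚ) * l.sign * (1 / (l.natAbs : ℚ)) / 2 ^ (s + 1)
        = (b:ℚ) * l.sign * (1 / (l.natAbs : ℚ)) / 2 ^ (s + 1) * (l.sign * l.sign) / (l.sign * l.sign) := by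
        field_simp
      field_simp
      rw [pow_succ]
      linear_combination (-(b:ℚ) * 2 ^ s * 2) * h7
    rw [h3]
    apply GoodQ.div_two_pow
    apply GoodQ.zmul
    apply GoodQ.inv _ hl
    exact Int.natAbs_pos.2 h

omit hv hv' in
theorem path_sum {ι : Type*} (s : Finset ι) (f : ι → ℂ → ℂ)
    (h : ∀ i ∈ s, ∀ z ∈ pts v, ContinuousAt (f i) z) :
    path v (fun z => ∑ i ∈ s, f i z) = ∑ i ∈ s, path v (f i) := by
  classical
  induction s using Finset.induction_on with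
  | empty => simp [path, seg]
  | insert a s ha ih =>
    rw [Finset.sum_insert ha, ← ih fun i hi => h i (Finset.mem_insert_of_mem hi), ← path_add]
    · congr 1
      funext z
      rw [Finset.sum_insert ha]
    · exact h a (Finset.mem_insert_self _ _)
    · intro z hz
      apply tendsto_finsetSum
      intro i hi
      exact h i (Finset.mem_insert_of_mem hi) z hz

theorem good_X_pow_zero {L : ℕ} (m : ℕ) (hm : m ≤ L) : Good L (LL v (X ^ m) 0) := by
  unfold LL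
  have h1 : path v (fun z => gg (X ^ m) 0 z / z) = path v (fun z => ∑ j ∈ Finset.range (m + 1),
      ((2:ℤ) ^ j * (m.choose j : ℤ) : ℤ) * z ^ ((m:ℤ) - 2 * j - 1)) := by
    apply path_congr
    intro z hz
    obtain ⟨h1, h2⟩ := pts_prop hv hv' hz
    rw [← lpow_expand (ne_zero_of_re_pos h1)]
    simp [gg]
  rw [h1, path_sum]
  · rw [Complex.im_sum]
    apply Good.sum
    intro j hj
    have hj' : j ≤ m := Nat.lt_succ_iff.1 (Finset.mem_range.1 hj)
    rw [path_smul]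
    have : ((((2:ℤ) ^ j * (m.choose j : ℤ) : ℤ) : ℂ)) = ((((2:ℤ) ^ j * (m.choose j : ℤ) : ℤ) : ℝ) : ℂ) := by
      push_cast; rfl
    rw [this, Complex.im_ofReal_mul]
    apply Good.zmul
    apply good_zpow hv hv'
    omega
  · intro j _ z hz
    obtain ⟨h1, h2⟩ := pts_prop hv hv' hz
    exact continuousAt_const.mul (continuousAt_zpow₀ _ _ (Or.inl (ne_zero_of_re_pos h1)))

omit hv hv' in
theorem LL_zero (k : ℕ) : LL v 0 k = 0 := by
  have := LL_smul (v := v) 0 0 k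
  simpa using this

theorem LL_sum {ι : Type*} (s : Finset ι) (f : ι → ℚ[X]) (k : ℕ) :
    LL v (∑ i ∈ s, f i) k = ∑ i ∈ s, LL v (f i) k := by
  classical
  induction s using Finset.induction_on with
  | empty => simpa using LL_zero k
  | insert a s ha ih => rw [Finset.sum_insert ha, Finset.sum_insert ha, LL_add hv hv', ih]

/-- `y^(-2(i+1)) T^(2i)` -/
theorem LL_X_pow_even (i : ℕ) :
    LL v (X ^ (2 * i)) (i + 1) = 2 * (((-1) ^ i / (2 * i + 1) / 2 ^ 4 : ℚ) : ℝ) := by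
  have h0 := DD_X_pow_succ (i + 1) (2 * i)
  have e : (((2 * i : ℕ) : ℚ) + 2 - 2 * ((i + 1 : ℕ) : ℚ)) = 0 := by push_cast; ring
  rw [e] at h0
  simp only [map_zero, zero_mul, zero_sub] at h0
  have h1 := LL_exact hv hv' (X ^ (2 * i + 1)) (i + 1)
  have h2 : (X ^ 2 - C 8) * derivative (X ^ (2 * i + 1)) -
      C (2 * ((i + 1 : ℕ):ℚ) - 1) * X * X ^ (2 * i + 1) =
      C (-(8 * (((2 * i : ℕ) : ℚ) + 1))) * X ^ (2 * i) := by
    rw [C_neg, neg_mul, ← h0]; rfl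
  rw [h2, LL_smul] at h1
  have h3 : ((-(8 * (((2 * i : ℕ) : ℚ) + 1)) : ℚ) : ℝ) ≠ 0 := by
    have : (0:ℝ) < 8 * ((2 * i : ℕ) + 1) := by positivity
    push_cast
    push_cast at this
    linarith
  have h4 : LL v (X ^ (2 * i)) (i + 1) = (2 * (((X ^ (2 * i + 1) : ℚ[X]).eval 2 / (-4) ^ (i + 1) : ℚ) : ℝ))
      / ((-(8 * (((2 * i : ℕ) : ℚ) + 1)) : ℚ) : ℝ) := by
    rw [← h1]; field_simp
  rw [h4, eval_pow, eval_X]
  have h5 : ((2:ℚ) ^ (2 * i + 1) / (-4) ^ (i + 1)) = - ((-1) ^ i / 2) := by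
    have : ((-4:ℚ)) ^ (i + 1) = - ((-1) ^ i * 2 ^ (2 * i + 2)) := by
      rw [show (-4:ℚ) = (-1) * 2 ^ 2 by norm_num, mul_pow, ← pow_mul]
      ring
    rw [this]
    have h6 : ((-1:ℚ) ^ i) * (-1) ^ i = 1 := by rw [← mul_pow]; simp
    have h7 : ((-1:ℚ) ^ i) ≠ 0 := by positivity
    field_simp
    rw [pow_two, h6]
    ring
  rw [h5]
  push_cast
  have h8 : (2 * (i:ℝ) + 1) ≠ 0 := by positivity
  field_simp
  ring

theorem good_one {L : ℕ} (k : ℕ) (hk : 2 * k + 1 ≤ L) : Good L (LL v 1 (k + 1)) := by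
  have h1 : (C ((8:ℚ) ^ k) : ℚ[X]) * 1 = ∑ i ∈ Finset.range (k + 1),
      (X ^ 2 - C 8) ^ (k - i) * (C ((-1) ^ (k - i) * (k.choose i : ℚ)) * X ^ (2 * i)) := by
    have : (C (8:ℚ) : ℚ[X]) = X ^ 2 + (-(X ^ 2 - C 8)) := by ring
    rw [mul_one, C_pow, this, add_pow]
    apply Finset.sum_congr rfl
    intro i _
    rw [neg_pow, C_mul, C_pow, C_neg, C_1, ← pow_mul]
    simp only [map_natCast]
    ring
  have h2 : ((8:ℚ) ^ k : ℚ) * LL v 1 (k + 1) = ∑ i ∈ Finset.range (k + 1),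
      (((-1) ^ (k - i) * (k.choose i : ℤ) : ℤ) : ℝ) * (2 * (((-1) ^ i / (2 * i + 1) / 2 ^ 4 : ℚ) : ℝ)) := by
    rw [← LL_smul, h1, LL_sum hv hv']
    apply Finset.sum_congr rfl
    intro i hi
    have hi' : i ≤ k := Nat.lt_succ_iff.1 (Finset.mem_range.1 hi)
    have h3 := LL_shift' hv hv' (C ((-1) ^ (k - i) * (k.choose i : ℚ)) * X ^ (2 * i)) (i + 1) (k - i)
    rw [show i + 1 + (k - i) = k + 1 by omega] at h3
    rw [h3, LL_smul, LL_X_pow_even hv hv']
    push_cast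
    ring
  have h3 : LL v 1 (k + 1) = 2 * (((∑ i ∈ Finset.range (k + 1),
      ((((-1) ^ (k - i) * (k.choose i : ℤ)) * (-1) ^ i : ℤ) : ℚ) * (1 / ((2 * i + 1 : ℕ) : ℚ)))
        / 2 ^ (3 * k + 4) : ℚ) : ℝ) := by
    have h4 : ((8:ℝ) ^ k) ≠ 0 := by positivity
    have h5 : LL v 1 (k + 1) = (8:ℝ) ^ k * LL v 1 (k + 1) / 8 ^ k := by field_simp
    have h6 : (8:ℝ) ^ k * LL v 1 (k + 1) = ((8:ℚ) ^ k : ℚ) * LL v 1 (k + 1) := by push_cast; ring
    rw [h5, h6, h2, pow_add, pow_mul]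
    push_cast
    rw [Finset.sum_div, Finset.sum_div, Finset.mul_sum]
    apply Finset.sum_congr rfl
    intro i _
    have h7 : (2 * (i:ℝ) + 1) ≠ 0 := by positivity
    norm_num
    field_simp
  rw [h3]
  apply GoodQ.good
  apply GoodQ.div_two_pow
  apply GoodQ.sum
  intro i hi
  have hi' : i ≤ k := Nat.lt_succ_iff.1 (Finset.mem_range.1 hi)
  apply GoodQ.zmul
  apply GoodQ.inv
  · omega
  · omega

theorem good_X {L : ℕ} (k : ℕ) (hk : 2 * k + 1 ≤ L) : Good L (LL v X (k + 1)) := by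
  have h1 := LL_exact hv hv' 1 (k + 1)
  have h0 := DD_one (k + 1)
  have h2 : (X ^ 2 - C 8) * derivative (1 : ℚ[X]) - C (2 * ((k + 1 : ℕ):ℚ) - 1) * X * 1 =
      C (1 - 2 * ((k + 1 : ℕ):ℚ)) * X := h0
  rw [h2, LL_smul] at h1
  have h3 : LL v X (k + 1) = 2 * ((((-1) ^ k : ℤ) : ℚ) * (1 / ((2 * k + 1 : ℕ) : ℚ)) / 2 ^ (2 * k + 2) : ℚ) := by
    have h4 : ((1 - 2 * ((k + 1 : ℕ):ℚ) : ℚ) : ℝ) ≠ 0 := by
      have : (0:ℝ) < 2 * k + 1 := by positivity
      push_cast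
      linarith
    have h5 : LL v X (k + 1) = (2 * (((1 : ℚ[X]).eval 2 / (-4) ^ (k + 1) : ℚ) : ℝ)) /
        ((1 - 2 * ((k + 1 : ℕ):ℚ) : ℚ) : ℝ) := by
      rw [← h1]; field_simp
    rw [h5, eval_one]
    have h6 : (1 / (-4:ℚ) ^ (k + 1)) = - ((-1) ^ k / 2 ^ (2 * k + 2)) := by
      rw [show (-4:ℚ) = (-1) * 2 ^ 2 by norm_num, mul_pow, ← pow_mul]
      have h7 : ((-1:ℚ) ^ k) * (-1) ^ k = 1 := by rw [← mul_pow]; simp
      have h8 : ((-1:ℚ) ^ k) ≠ 0 := by positivity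
      rw [pow_succ (-1:ℚ)]
      field_simp
      rw [pow_two, h7]
      ring
    rw [h6]
    have h9 : (2 * (k:ℝ) + 1) ≠ 0 := by positivity
    have h10 : (1 - 2 * ((k:ℝ) + 1)) ≠ 0 := by
      have : (0:ℝ) < 2 * k + 1 := by positivity
      linarith
    push_cast
    field_simp
    ring
  rw [h3]
  apply GoodQ.good
  apply GoodQ.div_two_pow
  apply GoodQ.zmul
  exact GoodQ.inv (by omega) hk

/-- main denominator estimate -/
theorem good_LL {L : ℕ} : ∀ (k : ℕ) (P : ℤ[X]), P.natDegree ≤ L + 2 * k → 2 * k ≤ L + 1 →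
    Good L (LL v (P.map (Int.castRingHom ℚ)) k) := by
  intro k
  induction k with
  | zero =>
    intro P hP _
    rw [P.as_sum_range_C_mul_X_pow, Polynomial.map_sum, LL_sum hv hv']
    apply Good.sum
    intro i hi
    rw [Polynomial.map_mul, Polynomial.map_C, Polynomial.map_pow, Polynomial.map_X, LL_smul]
    have := Finset.mem_range.1 hi
    simp only [eq_intCast, Rat.cast_intCast]
    apply Good.zmul
    exact good_X_pow_zero hv hv' i (by omega)
  | succ k ih =>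
    intro P hP hk
    have hQ : (X ^ 2 - C 8 : ℤ[X]).Monic := monic_X_pow_sub_C 8 (by norm_num)
    have hQd : (X ^ 2 - C 8 : ℤ[X]).natDegree = 2 := natDegree_X_pow_sub_C
    have h1 := modByMonic_add_div P (X ^ 2 - C 8 : ℤ[X])
    have h2 : (P %ₘ (X ^ 2 - C 8)).natDegree < 2 := by
      have := natDegree_modByMonic_lt P hQ (by intro h; rw [h] at hQd; simp at hQd)
      omega
    have h3 : (P /ₘ (X ^ 2 - C 8)).natDegree ≤ L + 2 * k := by
      rw [natDegree_divByMonic P hQ, hQd]; omega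
    obtain ⟨a, b, hab⟩ : ∃ a b : ℤ, P %ₘ (X ^ 2 - C 8) = C a + C b * X := by
      refine ⟨(P %ₘ (X ^ 2 - C 8)).coeff 0, (P %ₘ (X ^ 2 - C 8)).coeff 1, ?_⟩
      rw [add_comm]
      exact eq_X_add_C_of_natDegree_le_one (by omega)
    rw [← h1, hab, Polynomial.map_add, LL_add hv hv', Polynomial.map_add, LL_add hv hv',
      Polynomial.map_mul, Polynomial.map_C, Polynomial.map_mul, Polynomial.map_C, Polynomial.map_X,
      LL_smul]
    have h4 : (C ((Int.castRingHom ℚ) a) : ℚ[X]) = C ((Int.castRingHom ℚ) a) * 1 := by rw [mul_one]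
    have h5 : Polynomial.map (Int.castRingHom ℚ) (X ^ 2 - C 8 : ℤ[X]) = X ^ 2 - C 8 := by
      rw [Polynomial.map_sub, Polynomial.map_pow, Polynomial.map_X, Polynomial.map_C]
      simp only [eq_intCast, Int.cast_ofNat]
    rw [h4, LL_smul, h5, LL_shift hv hv']
    have h6 := ih _ h3 (by omega)
    apply Good.add _ h6
    simp only [eq_intCast, Rat.cast_intCast]
    apply Good.add
    · apply Good.zmul
      exact good_one hv hv' k (by omega)
    · apply Good.zmul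
      exact good_X hv hv' k (by omega)

end

end Vale.Agent.P021
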