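import Vale.Agent.Lib.P021.Assembly

/-!
# Linear forms with good arithmetic and asymptotic properties
-/

namespace Vale.Agent.P021
open Polynomial Complex Filter Topology

/-- the conditions on one cell `(lo n, hi n]` of primes -/
structure CellOK (M1 M2 a c i1 i2 j : ℕ) (lo hi : ℝ) : Prop where
  odd : Odd j
  pos : 0 < lo
  le : lo ≤ hi
  hic : hi ≤ c
  h1 : i1 * hi ≤ M1
  h2 : i2 * hi ≤ M2
  h3 : 2 * a ≤ j * lo
  h4 : c + j * lo < (i1 + i2 + 1) * lo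

theorem CellOK.eventually {M1 M2 a c i1 i2 j : ℕ} {lo hi : ℝ} (h : CellOK M1 M2 a c i1 i2 j lo hi)
    (hc : M1 + M2 = c + 2 * a) :
    ∀ᶠ n : ℕ in atTop, ∀ p : ℕ, p.Prime → lo * n < p → (p:ℝ) ≤ hi * n →
      p ≠ 2 ∧ i1 * p ≤ M1 * n ∧ i2 * p ≤ M2 * n ∧ 2 * (a * n) + 1 ≤ j * p ∧
      (∀ e < 3, M1 * n + M2 * n + e + j * p < 2 * (a * n) + (i1 + i2 + 1) * p) ∧
      i1 + i2 + j + 1 < p ∧ p ≤ c * n + 2 := by
  have hpos := h.pos
  have ht1 : Tendsto (fun n : ℕ => lo * (n:ℝ)) atTop atTop :=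
    Tendsto.const_mul_atTop h.pos tendsto_natCast_atTop_atTop
  have hδ : 0 < (i1 + i2 + 1) * lo - (c + j * lo) := by linarith [h.h4]
  have ht2 : Tendsto (fun n : ℕ => ((i1 + i2 + 1) * lo - (c + j * lo)) * (n:ℝ)) atTop atTop :=
    Tendsto.const_mul_atTop hδ tendsto_natCast_atTop_atTop
  filter_upwards [ht1.eventually_gt_atTop ((i1 + i2 + j + 2 : ℕ) : ℝ), ht2.eventually_gt_atTop 3,
    eventually_gt_atTop 0] with n hn1 hn2 hn0 p hp hlo hhi
  have hn : (0:ℝ) < n := by exact_mod_cast hn0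
  have hj1 : 1 ≤ j := h.odd.pos
  have hbig : i1 + i2 + j + 2 < p := by exact_mod_cast hn1.trans hlo
  refine ⟨by omega, ?_, ?_, ?_, ?_, by omega, ?_⟩
  · have : (i1:ℝ) * p ≤ M1 * n := by
      calc (i1:ℝ) * p ≤ i1 * (hi * n) := by gcongr
        _ = (i1 * hi) * n := by ring
        _ ≤ M1 * n := by gcongr; exact h.h1
    exact_mod_cast this
  · have : (i2:ℝ) * p ≤ M2 * n := by
      calc (i2:ℝ) * p ≤ i2 * (hi * n) := by gcongr
        _ = (i2 * hi) * n := by ring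
        _ ≤ M2 * n := by gcongr; exact h.h2
    exact_mod_cast this
  · have h3 : (2 * (a * n) : ℝ) < j * p := by
      calc (2 * (a * n) : ℝ) = (2 * a) * n := by ring
        _ ≤ (j * lo) * n := mul_le_mul_of_nonneg_right h.h3 hn.le
        _ = j * (lo * n) := by ring
        _ < j * p := by
          have : (0:ℝ) < j := by exact_mod_cast hj1
          gcongr
    have h4 : 2 * (a * n) < j * p := by exact_mod_cast h3
    omega
  · intro e he
    have hg : (0:ℝ) < (i1 + i2 + 1) - j := by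
      by_contra hcon
      push Not at hcon
      have h5 := h.h4
      have h6 : ((i1 + i2 + 1 : ℝ) - j) * lo ≤ 0 := by nlinarith
      have h7 : (0:ℝ) ≤ c := by positivity
      nlinarith
    have h5 : (c:ℝ) * n + 3 < ((i1 + i2 + 1) - j) * p := by
      calc (c:ℝ) * n + 3 < c * n + ((i1 + i2 + 1) * lo - (c + j * lo)) * (n:ℝ) := by linarith
        _ = ((i1 + i2 + 1) - j) * (lo * n) := by ring
        _ < ((i1 + i2 + 1) - j) * p := by gcongr
    have h6 : (M1:ℝ) + M2 = c + 2 * a := by exact_mod_cast hc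
    have he' : (e:ℝ) < 3 := by exact_mod_cast he
    have h7 : (M1:ℝ) * n + M2 * n + e + j * p < 2 * (a * n) + (i1 + i2 + 1) * p := by
      have h8 : (M1:ℝ) * n + M2 * n = c * n + 2 * (a * n) := by
        rw [← add_mul, h6]; ring
      nlinarith
    exact_mod_cast h7
  · have : (p:ℝ) ≤ c * n := hhi.trans (by gcongr; exact h.hic)
    have : p ≤ c * n := by exact_mod_cast this
    omega

theorem linear_forms {v : ℂ} (hv : 0 < v.re) (hv' : 0 < v.im) {M1 M2 a c : ℕ}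
    (hc : M1 + M2 = c + 2 * a) (h2 : 2 * a ≤ c) (ha : 4 * a ≤ 3 * M1)
    {r R ρ lR lr : ℝ} (hr : 0 < r) (hr2 : r ^ 2 < 2) (hR0 : 0 ≤ R)
    (hR : ∀ z : ℂ, ‖z‖ = r → ‖TT z - 2‖ ^ M1 * ‖TT z - 3‖ ^ M2 ≤ R * ‖YY z‖ ^ (2 * a))
    (hρ : 0 < ρ)
    (hsup : ∀ z ∈ pts v, ‖TT z - 2‖ ^ M1 * ‖TT z - 3‖ ^ M2 ≤ ρ * ‖YY z‖ ^ (2 * a))
    (hlR : R ≤ Real.exp lR) (hlr : ρ ≤ Real.exp (-lr))
    {ι : Type} (s : Finset ι) (i1 i2 j : ι → ℕ) (lo hi : ι → ℝ)
    (hcell : ∀ i ∈ s, CellOK M1 M2 a c (i1 i) (i2 i) (j i) (lo i) (hi i))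
    (hdisj : ∀ i ∈ s, ∀ i' ∈ s, i ≠ i' → hi i ≤ lo i' ∨ hi i' ≤ lo i)
    {Y : ℝ} (hY : (c:ℝ) - ∑ i ∈ s, (hi i - lo i) < Y) :
    ∃ K : ℝ, 0 < K ∧ ∀ᶠ n : ℕ in atTop, ∀ p q : ℤ, q ≠ 0 → ∃ U V : ℤ, U * p + V * q ≠ 0 ∧
      |(U:ℝ)| ≤ K * Real.exp ((lR + Y) * n) ∧
      |(U:ℝ) * Real.pi + V| ≤ K * Real.exp (-((lr - Y) * n)) := by
  obtain ⟨K1, hK1, hLL⟩ := LL_bound hv hv' hρ hsup
  set w : ℝ := r + 2 / r with hw
  have hw0 : 0 < w := by positivity
  set K2 : ℝ := 1 + w + w ^ 2 with hK2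
  have hK2' : ∀ e < 3, w ^ e ≤ K2 := by
    intro e he
    interval_cases e
    · rw [hK2]; nlinarith [sq_nonneg w]
    · rw [hK2]; nlinarith [sq_nonneg w]
    · rw [hK2]; nlinarith [sq_nonneg w]
  have hK2pos : 0 < K2 := by positivity
  refine ⟨K2 + 4 * K1, by positivity, ?_⟩
  have hev1 : ∀ᶠ n : ℕ in atTop, ∀ i ∈ s, ∀ p : ℕ, p.Prime → lo i * n < p → (p:ℝ) ≤ hi i * n →
      p ≠ 2 ∧ i1 i * p ≤ M1 * n ∧ i2 i * p ≤ M2 * n ∧ 2 * (a * n) + 1 ≤ j i * p ∧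
      (∀ e < 3, M1 * n + M2 * n + e + j i * p < 2 * (a * n) + (i1 i + i2 i + 1) * p) ∧
      i1 i + i2 i + j i + 1 < p ∧ p ≤ c * n + 2 := by
    rw [Filter.eventually_all_finset]
    intro i hi'
    exact (hcell i hi').eventually hc
  have hev2 := denom_bound c s lo hi (fun i hi' => (hcell i hi').pos.le)
    (fun i hi' => (hcell i hi').le) (fun i hi' => (hcell i hi').hic) hdisj c 2
    (4 * (2 * (M1 + M2) + 4 * a + 6)) Y hY
  filter_upwards [hev1, hev2] with n hn1 hn2 p q hq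
  obtain ⟨e, he, hnv⟩ := nonvanish hv hv' (M1 * n) (M2 * n) (a * n) (by
    rw [← add_mul, hc, add_mul]
    have : 2 * (a * n) = 2 * a * n := by ring
    omega) p q hq
  obtain ⟨A, b, hb1, hb2, hb3, hb4⟩ := rep hv hv' (n := n) hc h2 ha he hr hr2 hR0 hR
  obtain ⟨D, hD0, hD1, V, hV⟩ := den_bound (N := (2 * (M1 + M2) + 4 * a) * n + 6) (by omega) hb2 hb3
    (SP c s lo hi n) (by
      intro p' hp'
      simp only [SP, Finset.mem_filter, Finset.mem_Icc] at hp'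
      obtain ⟨hp1, hp2, i, hi', hlo, hhi⟩ := hp'
      obtain ⟨g1, g2, g3, g4, g5, g6, g7⟩ := hn1 i hi' p' hp2 hlo hhi
      refine ⟨hp2, g7, ?_⟩
      exact savings hv hv' hp2 g1 (hcell i hi').odd g2 g3 g4 (g5 e he) g6
        (A := (A:ℚ)) (b := b) (by rw [hb1]; push_cast; ring))
  have hprod : (0 : ℝ) < ∏ p ∈ SP c s lo hi n, (p : ℝ) := by
    refine Finset.prod_pos fun p hp => ?_
    simp only [SP, Finset.mem_filter] at hp
    exact_mod_cast hp.2.1.pos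
  have hD2 : (D:ℝ) ≤ Real.exp (Y * n) := by
    refine le_trans ?_ hn2
    rw [le_div_iff₀ hprod]
    refine hD1.trans ?_
    apply mul_le_mul_of_nonneg_right _ (by positivity)
    push_cast
    have hn0 : (0:ℝ) ≤ n := Nat.cast_nonneg n
    have h3 : (0:ℝ) ≤ (2 * ((M1:ℝ) + M2) + 4 * a) := by positivity
    nlinarith
  have hnv' := hnv A b (by rw [← PP_map, hb1]; push_cast; ring)
  refine ⟨D * A, 8 * V, ?_, ?_, ?_⟩
  · intro h0
    apply hnv'
    have h3 : ((D:ℚ) * A) * p + 8 * V * q = 0 := by exact_mod_cast h0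
    rw [← hV] at h3
    have hD0' : (D:ℚ) ≠ 0 := by exact_mod_cast hD0.ne'
    have h4 : (D:ℚ) * (A * p + 8 * b * q) = 0 := by linear_combination h3
    exact (mul_eq_zero.1 h4).resolve_left hD0'
  · push_cast
    rw [abs_mul, abs_of_nonneg (by positivity : (0:ℝ) ≤ (D:ℝ))]
    have h5 : R ^ n ≤ Real.exp (lR * n) := by
      calc R ^ n ≤ (Real.exp lR) ^ n := pow_le_pow_left₀ hR0 hlR n
        _ = Real.exp (lR * n) := by rw [← Real.exp_nat_mul]; ring_nf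
    calc (D:ℝ) * |(A:ℝ)| ≤ Real.exp (Y * n) * (R ^ n * w ^ e) :=
          mul_le_mul hD2 hb4 (abs_nonneg _) (Real.exp_pos _).le
      _ ≤ Real.exp (Y * n) * (Real.exp (lR * n) * K2) := by
          apply mul_le_mul_of_nonneg_left _ (Real.exp_pos _).le
          exact mul_le_mul h5 (hK2' e he) (by positivity) (Real.exp_pos _).le
      _ = K2 * Real.exp ((lR + Y) * n) := by
          rw [show (lR + Y) * (n:ℝ) = Y * n + lR * n by ring, Real.exp_add]; ring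
      _ ≤ (K2 + 4 * K1) * Real.exp ((lR + Y) * n) := by
          apply mul_le_mul_of_nonneg_right _ (Real.exp_pos _).le
          linarith
  · have h6 : ((D * A : ℤ) : ℝ) * Real.pi + ((8 * V : ℤ) : ℝ) =
        4 * D * LL v ((PP M1 M2 n e).map (Int.castRingHom ℚ)) (a * n) := by
      have hV' : (D:ℝ) * (b:ℝ) = V := by exact_mod_cast hV
      rw [hb1]
      push_cast
      rw [← hV']
      ring
    rw [h6, abs_mul, abs_of_nonneg (by positivity : (0:ℝ) ≤ 4 * (D:ℝ))]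
    have h5 : ρ ^ n ≤ Real.exp (-(lr * n)) := by
      calc ρ ^ n ≤ (Real.exp (-lr)) ^ n := pow_le_pow_left₀ hρ.le hlr n
        _ = Real.exp (-(lr * n)) := by rw [← Real.exp_nat_mul]; ring_nf
    calc 4 * (D:ℝ) * |LL v ((PP M1 M2 n e).map (Int.castRingHom ℚ)) (a * n)|
        ≤ 4 * Real.exp (Y * n) * (K1 * ρ ^ n) := by
          apply mul_le_mul _ (hLL n e he) (abs_nonneg _) (by positivity)
          linarith
      _ ≤ 4 * Real.exp (Y * n) * (K1 * Real.exp (-(lr * n))) := by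
          gcongr
      _ = 4 * K1 * Real.exp (-((lr - Y) * n)) := by
          rw [show -((lr - Y) * (n:ℝ)) = Y * n + -(lr * n) by ring, Real.exp_add]; ring
      _ ≤ (K2 + 4 * K1) * Real.exp (-((lr - Y) * n)) := by
          apply mul_le_mul_of_nonneg_right _ (Real.exp_pos _).le
          linarith

end Vale.Agent.P021
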