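import Vale.Agent.Lib.P021.Good

/-!
# Uniqueness of the representation and non-vanishing
-/

namespace Vale.Agent.P021
open Polynomial Complex

theorem pi_ne_rat (r : ℚ) : Real.pi ≠ r := by
  intro h
  exact irrational_pi ⟨r, h.symm⟩

theorem rep_unique {A A' b b' : ℚ}
    (h : (A:ℝ) * (Real.pi / 4) + 2 * (b:ℝ) = A' * (Real.pi / 4) + 2 * (b':ℝ)) :
    A = A' ∧ b = b' := by
  have hA : A = A' := by
    by_contra hne
    have h1 : ((A - A' : ℚ) : ℝ) ≠ 0 := by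
      exact_mod_cast sub_ne_zero.2 hne
    apply pi_ne_rat (8 * (b' - b) / (A - A'))
    push_cast
    push_cast at h1
    field_simp
    linarith
  refine ⟨hA, ?_⟩
  rw [hA] at h
  have : (b:ℝ) = b' := by linarith
  exact_mod_cast this

/-- the rational span of `π/4 - p/(4q)` -/
def SS (p q : ℤ) (r : ℝ) : Prop := ∃ A : ℚ, r = A * (Real.pi / 4 - p / (4 * q))

theorem SS.add {p q : ℤ} {r s : ℝ} (hr : SS p q r) (hs : SS p q s) : SS p q (r + s) := by
  obtain ⟨A, rfl⟩ := hr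
  obtain ⟨B, rfl⟩ := hs
  exact ⟨A + B, by push_cast; ring⟩

theorem SS.smul {p q : ℤ} {r : ℝ} (c : ℚ) (hr : SS p q r) : SS p q (c * r) := by
  obtain ⟨A, rfl⟩ := hr
  exact ⟨c * A, by push_cast; ring⟩

theorem SS.zero (p q : ℤ) : SS p q 0 := ⟨0, by simp⟩

theorem SS.sum {p q : ℤ} {ι : Type*} (s : Finset ι) (f : ι → ℝ)
    (h : ∀ i ∈ s, SS p q (f i)) : SS p q (∑ i ∈ s, f i) := by
  classical
  induction s using Finset.induction_on with
  | empty => simpa using SS.zero p q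
  | insert a s ha ih =>
    rw [Finset.sum_insert ha]
    exact (h a (Finset.mem_insert_self _ _)).add
      (ih fun i hi => h i (Finset.mem_insert_of_mem hi))

theorem aeval_2I (P : ℚ[X]) : ∃ a b : ℚ, aeval (2 * I : ℂ) P = a + b * I := by
  induction P using Polynomial.induction_on' with
  | add p q hp hq =>
    obtain ⟨a, b, h1⟩ := hp
    obtain ⟨a', b', h2⟩ := hq
    exact ⟨a + a', b + b', by rw [map_add, h1, h2]; push_cast; ring⟩
  | monomial n c =>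
    have : ∀ n : ℕ, ∃ a b : ℚ, (2 * I : ℂ) ^ n = a + b * I := by
      intro n
      induction n with
      | zero => exact ⟨1, 0, by simp⟩
      | succ n ih =>
        obtain ⟨a, b, h⟩ := ih
        refine ⟨-2 * b, 2 * a, ?_⟩
        rw [pow_succ, h]
        push_cast
        linear_combination (2 * (b:ℂ)) * I_mul_I
    obtain ⟨a, b, h⟩ := this n
    refine ⟨c * a, c * b, ?_⟩
    rw [aeval_monomial, h]
    simp
    ring

/-- three term data of the exact form -/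
theorem DD_prod (N1 N2 κ m : ℕ) :
    DD κ ((X - C 2) ^ (N1 + 1) * (X - C 3) ^ (N2 + 1) * X ^ m) =
      (X - C 2) ^ N1 * (X - C 3) ^ N2 *
        ((C ((N1:ℚ) + N2 + 2 + (1 - 2 * κ)) * X ^ (m + 3)
          - C (3 * (N1:ℚ) + 2 * N2 + 5 + 5 * (1 - 2 * κ)) * X ^ (m + 2)
          + C (-8 * ((N1:ℚ) + N2 + 2) + 6 * (1 - 2 * κ)) * X ^ (m + 1)
          + C (8 * (3 * (N1:ℚ) + 2 * N2 + 5)) * X ^ m)
         + C (m:ℚ) * X ^ (m - 1) * ((X ^ 2 - C 8) * (X ^ 2 - C 5 * X + C 6))) := by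
  unfold DD
  rw [derivative_mul, derivative_mul, derivative_pow, derivative_pow, derivative_X_pow]
  simp only [Nat.add_sub_cancel, derivative_sub, derivative_X, derivative_C, sub_zero, mul_one]
  simp only [map_add, map_sub, map_mul, map_one, map_natCast, Nat.cast_add, Nat.cast_one, map_neg]
  have e1 : (C 8 : ℚ[X]) = 8 := rfl
  have e2 : (C 3 : ℚ[X]) = 3 := rfl
  have e3 : (C 2 : ℚ[X]) = 2 := rfl
  have e4 : (C 5 : ℚ[X]) = 5 := rfl
  have e5 : (C 6 : ℚ[X]) = 6 := rfl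
  rw [e1, e2, e3, e4, e5]
  ring

section
variable {v : ℂ} (hv : 0 < v.re) (hv' : 0 < v.im)
include hv hv'

theorem span_step (N1 N2 κ : ℕ) (hκ : 2 * κ ≤ N1 + N2) (p q : ℤ)
    (h0 : ∀ j < 3, SS p q (LL v ((X - C 2) ^ N1 * (X - C 3) ^ N2 * X ^ j) κ)) :
    ∀ m : ℕ, SS p q (LL v ((X - C 2) ^ N1 * (X - C 3) ^ N2 * X ^ m) κ) := by
  intro m
  induction m using Nat.strong_induction_on with
  | _ m ih =>
    rcases lt_or_ge m 3 with hm | hm
    · exact h0 m hm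
    · obtain ⟨k, rfl⟩ : ∃ k, m = k + 3 := ⟨m - 3, by omega⟩
      set P0 : ℚ[X] := (X - C 2) ^ N1 * (X - C 3) ^ N2 with hP0
      have hE := LL_exact hv hv' ((X - C 2) ^ (N1 + 1) * (X - C 3) ^ (N2 + 1) * X ^ k) κ
      have hE0 : ((X - C 2) ^ (N1 + 1) * (X - C 3) ^ (N2 + 1) * X ^ k : ℚ[X]).eval 2 = 0 := by
        simp
      rw [hE0] at hE
      simp only [zero_div, Rat.cast_zero, mul_zero] at hE
      have hD := DD_prod N1 N2 κ k
      unfold DD at hD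
      rw [hD] at hE
      -- leading coefficient
      have hlead : ((N1:ℚ) + N2 + 2 + (1 - 2 * κ) + k) ≠ 0 := by
        have h1 : (2 * κ : ℚ) ≤ N1 + N2 := by exact_mod_cast hκ
        have h2 : (0:ℚ) ≤ k := by positivity
        intro h; linarith
      -- the remaining part lies in the span
      obtain ⟨R, hR, hRs⟩ : ∃ R : ℚ[X], P0 * X ^ (k + 3) =
          C ((N1:ℚ) + N2 + 2 + (1 - 2 * κ) + k)⁻¹ * (P0 *
        ((C ((N1:ℚ) + N2 + 2 + (1 - 2 * κ)) * X ^ (k + 3)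
          - C (3 * (N1:ℚ) + 2 * N2 + 5 + 5 * (1 - 2 * κ)) * X ^ (k + 2)
          + C (-8 * ((N1:ℚ) + N2 + 2) + 6 * (1 - 2 * κ)) * X ^ (k + 1)
          + C (8 * (3 * (N1:ℚ) + 2 * N2 + 5)) * X ^ k)
         + C (k:ℚ) * X ^ (k - 1) * ((X ^ 2 - C 8) * (X ^ 2 - C 5 * X + C 6)))) + R ∧
          SS p q (LL v R κ) := by
        rcases Nat.eq_zero_or_pos k with hk | hk
        · subst hk
          refine ⟨C ((N1:ℚ) + N2 + 2 + (1 - 2 * κ))⁻¹ *
            (C (3 * (N1:ℚ) + 2 * N2 + 5 + 5 * (1 - 2 * κ)) * (P0 * X ^ 2)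
            + (C (-(-8 * ((N1:ℚ) + N2 + 2) + 6 * (1 - 2 * κ))) * (P0 * X ^ 1)
            + C (-(8 * (3 * (N1:ℚ) + 2 * N2 + 5))) * (P0 * X ^ 0))), ?_, ?_⟩
          · simp only [Nat.cast_zero, add_zero] at hlead ⊢
            have hi : (C ((N1:ℚ) + N2 + 2 + (1 - 2 * κ))⁻¹ : ℚ[X]) * C ((N1:ℚ) + N2 + 2 + (1 - 2 * κ)) = 1 := by
              rw [← C_mul, inv_mul_cancel₀ hlead, C_1]
            generalize (C ((N1:ℚ) + N2 + 2 + (1 - 2 * κ))⁻¹ : ℚ[X]) = U at *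
            generalize (C ((N1:ℚ) + N2 + 2 + (1 - 2 * κ)) : ℚ[X]) = V at *
            rw [C_neg, C_neg, C_0]
            linear_combination (-(P0 * X ^ 3)) * hi
          · rw [LL_smul, LL_add hv hv', LL_add hv hv', LL_smul, LL_smul, LL_smul]
            exact ((((ih 2 (by omega)).smul _).add (((ih 1 (by omega)).smul _).add
              ((ih 0 (by omega)).smul _))).smul _)
        · obtain ⟨l, rfl⟩ : ∃ l, k = l + 1 := ⟨k - 1, by omega⟩
          refine ⟨C ((N1:ℚ) + N2 + 2 + (1 - 2 * κ) + (l + 1 : ℕ))⁻¹ *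
            (C (3 * (N1:ℚ) + 2 * N2 + 5 + 5 * (1 - 2 * κ) + 5 * (l + 1)) * (P0 * X ^ (l + 3))
            + (C (-(-8 * ((N1:ℚ) + N2 + 2) + 6 * (1 - 2 * κ) + (l + 1) * (6 - 8))) * (P0 * X ^ (l + 2))
            + (C (-(8 * (3 * (N1:ℚ) + 2 * N2 + 5) + 40 * (l + 1))) * (P0 * X ^ (l + 1))
            + C (48 * ((l:ℚ) + 1)) * (P0 * X ^ l)))), ?_, ?_⟩
          · simp only [Nat.add_sub_cancel]
            have hi : (C ((N1:ℚ) + N2 + 2 + (1 - 2 * κ) + (l + 1 : ℕ))⁻¹ : ℚ[X]) *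
                C ((N1:ℚ) + N2 + 2 + (1 - 2 * κ) + (l + 1 : ℕ)) = 1 := by
              rw [← C_mul, inv_mul_cancel₀ hlead, C_1]
            generalize (C ((N1:ℚ) + N2 + 2 + (1 - 2 * κ) + (l + 1 : ℕ))⁻¹ : ℚ[X]) = U at *
            simp only [map_add, map_sub, map_mul, map_one, map_natCast, Nat.cast_add, Nat.cast_one,
              map_neg] at hi ⊢
            have e1 : (C 8 : ℚ[X]) = 8 := rfl
            have e2 : (C 3 : ℚ[X]) = 3 := rfl
            have e3 : (C 2 : ℚ[X]) = 2 := rfl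
            have e4 : (C 5 : ℚ[X]) = 5 := rfl
            have e5 : (C 6 : ℚ[X]) = 6 := rfl
            have e6 : (C 40 : ℚ[X]) = 40 := rfl
            have e7 : (C 48 : ℚ[X]) = 48 := rfl
            rw [e3] at hi
            rw [e1, e2, e3, e4, e5, e6, e7]
            linear_combination (-(P0 * X ^ (l + 1 + 3))) * hi
          · rw [LL_smul, LL_add hv hv', LL_add hv hv', LL_add hv hv', LL_smul, LL_smul, LL_smul,
              LL_smul]
            exact ((((ih (l + 3) (by omega)).smul _).add (((ih (l + 2) (by omega)).smul _).add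
              (((ih (l + 1) (by omega)).smul _).add ((ih l (by omega)).smul _)))).smul _)
      rw [hR, LL_add hv hv', LL_smul, hE, mul_zero, zero_add]
      exact hRs

theorem span_all (N1 N2 κ : ℕ) (hκ : 2 * κ ≤ N1 + N2) (p q : ℤ)
    (h0 : ∀ j < 3, SS p q (LL v ((X - C 2) ^ N1 * (X - C 3) ^ N2 * X ^ j) κ)) (G : ℚ[X]) :
    SS p q (LL v ((X - C 2) ^ N1 * (X - C 3) ^ N2 * G) κ) := by
  rw [G.as_sum_range_C_mul_X_pow, Finset.mul_sum, LL_sum hv hv']
  apply SS.sum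
  intro i _
  rw [show (X - C 2) ^ N1 * (X - C 3) ^ N2 * (C (G.coeff i) * X ^ i) =
    C (G.coeff i) * ((X - C 2) ^ N1 * (X - C 3) ^ N2 * X ^ i) by ring, LL_smul]
  exact (span_step hv hv' N1 N2 κ hκ p q h0 i).smul _

omit hv hv' in
/-- a polynomial antiderivative -/
theorem exists_anti (P : ℚ[X]) : ∃ Q : ℚ[X], derivative Q = P := by
  induction P using Polynomial.induction_on' with
  | add p q hp hq =>
    obtain ⟨a, ha⟩ := hp
    obtain ⟨b, hb⟩ := hq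
    exact ⟨a + b, by rw [derivative_add, ha, hb]⟩
  | monomial n c =>
    refine ⟨monomial (n + 1) (c / (n + 1)), ?_⟩
    rw [derivative_monomial]
    congr 1
    have : ((n:ℚ) + 1) ≠ 0 := by positivity
    push_cast
    field_simp

theorem special (N1 N2 : ℕ) : ∃ r : ℚ, r ≠ 0 ∧
    LL v ((X - C 2) ^ N1 * (X - C 3) ^ N2 * (X * (X + C 2) ^ N1 * (X + C 3) ^ N2)) 0 = r := by
  obtain ⟨Φ, hΦ⟩ := exists_anti ((X ^ 2 + C 4) ^ N1 * (X ^ 2 - C 1) ^ N2)
  have hdΦ : ∀ w : ℂ, HasDerivAt (fun w => aeval w Φ) ((w ^ 2 + 4) ^ N1 * (w ^ 2 - 1) ^ N2) w := by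
    intro w
    have := Polynomial.hasDerivAt_aeval Φ w
    rw [hΦ] at this
    simpa using this
  have h1 : LL v ((X - C 2) ^ N1 * (X - C 3) ^ N2 * (X * (X + C 2) ^ N1 * (X + C 3) ^ N2)) 0 =
      (aeval (2 * I : ℂ) Φ - aeval (-1 : ℂ) Φ).im := by
    unfold LL
    rw [path_eq (Ψ := fun z => aeval (YY z) Φ)]
    · rw [YY_e, YY_one]
    · intro z hz
      obtain ⟨h1, h2⟩ := pts_prop hv hv' hz
      have h0 := ne_zero_of_re_pos h1
      have h3 := HasDerivAt.comp z (hdΦ (YY z)) (hasDerivAt_YY h0)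
      refine h3.congr_deriv ?_
      have h4 : YY z ^ 2 + 4 = (TT z - 2) * (TT z + 2) := by
        have := TT_sq h0
        linear_combination (-1 : ℂ) * this
      have h5 : YY z ^ 2 - 1 = (TT z - 3) * (TT z + 3) := by
        have := TT_sq h0
        linear_combination (-1 : ℂ) * this
      rw [h4, h5]
      simp [gg, mul_pow]
      ring
    · intro z hz
      obtain ⟨h1, h2⟩ := pts_prop hv hv' hz
      exact continuousAt_gg' (ne_zero_of_re_pos h1) h2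
  have hreal : ∀ x : ℝ, (aeval (x : ℂ) Φ).im = 0 := by
    intro x
    have : aeval (x : ℂ) Φ = ((aeval x Φ : ℝ) : ℂ) := by
      have := Polynomial.aeval_algebraMap_apply ℂ x Φ
      simpa using this
    rw [this, Complex.ofReal_im]
  obtain ⟨a, b, hab⟩ := aeval_2I Φ
  refine ⟨b, ?_, ?_⟩
  · -- nonvanishing through the integral from 0 to 2I
    intro hb
    have h2 : ∫ t in (0:ℝ)..1, ((2 * I * (t:ℂ)) ^ 2 + 4) ^ N1 * ((2 * I * (t:ℂ)) ^ 2 - 1) ^ N2 * (2 * I)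
        = aeval (2 * I : ℂ) Φ - aeval (0:ℂ) Φ := by
      have h3 : ∀ t ∈ Set.uIcc (0:ℝ) 1, HasDerivAt (fun t : ℝ => aeval (2 * I * (t:ℂ)) Φ)
          (((2 * I * (t:ℂ)) ^ 2 + 4) ^ N1 * ((2 * I * (t:ℂ)) ^ 2 - 1) ^ N2 * (2 * I)) t := by
        intro t _
        have h4 : HasDerivAt (fun t : ℝ => 2 * I * (t : ℂ)) (2 * I * 1) t :=
          (Complex.ofRealCLM.hasDerivAt (x := t)).const_mul (2 * I)
        have h5 := HasDerivAt.scomp_of_eq (𝕜 := ℝ) t (hdΦ (2 * I * (t:ℂ))) h4 rfl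
        refine h5.congr_deriv ?_
        simp only [smul_eq_mul]
        ring
      rw [intervalIntegral.integral_eq_sub_of_hasDerivAt h3]
      · simp
      · apply Continuous.intervalIntegrable
        fun_prop
    have h6 : (∫ t in (0:ℝ)..1, ((2 * I * (t:ℂ)) ^ 2 + 4) ^ N1 * ((2 * I * (t:ℂ)) ^ 2 - 1) ^ N2 * (2 * I))
        = ((∫ t in (0:ℝ)..1, (4 - 4 * t ^ 2) ^ N1 * (4 * t ^ 2 + 1) ^ N2 : ℝ) : ℂ) * ((-1) ^ N2 * (2 * I)) := by
      rw [← intervalIntegral.integral_ofReal, ← intervalIntegral.integral_mul_const]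
      apply intervalIntegral.integral_congr
      intro t _
      simp only
      have e1 : (2 * I * (t:ℂ)) ^ 2 = - (4 * (t:ℂ) ^ 2) := by
        rw [mul_pow, mul_pow, I_sq]; ring
      rw [e1]
      have e2 : (-(4 * (t:ℂ) ^ 2) - 1) ^ N2 = (-1) ^ N2 * (4 * (t:ℂ) ^ 2 + 1) ^ N2 := by
        rw [← mul_pow]; congr 1; ring
      rw [e2]
      push_cast
      ring
    have hpos : 0 < ∫ t in (0:ℝ)..1, (4 - 4 * t ^ 2) ^ N1 * (4 * t ^ 2 + 1) ^ N2 := by
      apply intervalIntegral.intervalIntegral_pos_of_pos_on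
      · apply Continuous.intervalIntegrable
        fun_prop
      · intro t ht
        have h7 : 0 < 4 - 4 * t ^ 2 := by nlinarith [ht.1, ht.2]
        positivity
      · norm_num
    rw [h6, hab] at h2
    have h8 := congrArg Complex.im h2
    have h9 : (aeval (0:ℂ) Φ).im = 0 := by simpa using hreal 0
    rw [Complex.im_ofReal_mul, Complex.sub_im, h9, hb] at h8
    have h10 : (((-1:ℂ)) ^ N2 * (2 * I)).im = (-1) ^ N2 * 2 := by
      have : ((-1:ℂ)) ^ N2 = (((-1) ^ N2 : ℝ) : ℂ) := by push_cast; rfl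
      rw [this, Complex.im_ofReal_mul]
      simp
    rw [h10] at h8
    have h11 : ((a:ℂ) + ((0:ℚ):ℂ) * I).im = 0 := by simp
    rw [h11, sub_zero] at h8
    have h12 : ((-1:ℝ)) ^ N2 * 2 ≠ 0 := by
      apply mul_ne_zero
      · exact pow_ne_zero _ (by norm_num)
      · norm_num
    exact (mul_ne_zero hpos.ne' h12) h8
  · rw [h1, Complex.sub_im, hab]
    have := hreal (-1)
    rw [show (((-1:ℝ)) : ℂ) = -1 by push_cast; rfl] at this
    rw [this]
    simp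

theorem nonvanish (N1 N2 κ : ℕ) (hκ : 2 * κ ≤ N1 + N2) (p q : ℤ) (hq : q ≠ 0) :
    ∃ j < 3, ∀ A b : ℚ,
      LL v ((X - C 2) ^ N1 * (X - C 3) ^ N2 * X ^ j) κ = A * (Real.pi / 4) + 2 * (b:ℝ) →
      A * p + 8 * b * q ≠ 0 := by
  by_contra hcon
  push Not at hcon
  have h0 : ∀ j < 3, SS p q (LL v ((X - C 2) ^ N1 * (X - C 3) ^ N2 * X ^ j) κ) := by
    intro j hj
    obtain ⟨A, b, h1, h2⟩ := hcon j hj
    refine ⟨A, ?_⟩
    rw [h1]
    have hq' : (q:ℝ) ≠ 0 := by exact_mod_cast hq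
    have h3 : (A:ℝ) * p + 8 * b * q = 0 := by exact_mod_cast h2
    field_simp
    linarith
  have h1 := span_all hv hv' N1 N2 κ hκ p q h0
    ((X ^ 2 - C 8) ^ κ * (X * (X + C 2) ^ N1 * (X + C 3) ^ N2))
  have h2 := LL_shift' hv hv'
    ((X - C 2) ^ N1 * (X - C 3) ^ N2 * (X * (X + C 2) ^ N1 * (X + C 3) ^ N2)) 0 κ
  rw [zero_add] at h2
  have e : ((X - C 2) ^ N1 * (X - C 3) ^ N2 * ((X ^ 2 - C 8) ^ κ * (X * (X + C 2) ^ N1 * (X + C 3) ^ N2)) : ℚ[X])
    = (X ^ 2 - C 8) ^ κ * ((X - C 2) ^ N1 * (X - C 3) ^ N2 * (X * (X + C 2) ^ N1 * (X + C 3) ^ N2)) := by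
    ring
  rw [e, h2] at h1
  obtain ⟨r, hr, hr2⟩ := special hv hv' N1 N2
  rw [hr2] at h1
  obtain ⟨A, hA⟩ := h1
  have hA0 : A ≠ 0 := by
    rintro rfl
    simp at hA
    exact hr (by exact_mod_cast hA)
  apply pi_ne_rat (4 * (r / A + p / (4 * q)))
  have hA' : (A:ℝ) ≠ 0 := by exact_mod_cast hA0
  have hq' : (q:ℝ) ≠ 0 := by exact_mod_cast hq
  push_cast
  rw [hA]
  field_simp
  ring

end

end Vale.Agent.P021
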