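import Vale.Agent.Lib.P021.CircleSup

/-!
# Numerical constants: logarithms of the bounds
-/

namespace Vale.Agent.P021

/-- Lower bounds for the exponential function at numbers larger than one. -/
theorem le_exp_of (k : ℕ) {x y c : ℝ} (n : ℕ) (hy : y = k + x) (hx : 0 ≤ x)
    (h : c ≤ 2.7182818283 ^ k * ∑ i ∈ Finset.range n, x ^ i / (i.factorial : ℝ)) :
    c ≤ Real.exp y := by
  refine h.trans ?_
  have h1 : Real.exp y = Real.exp 1 ^ k * Real.exp x := by
    rw [hy, Real.exp_add, ← Real.exp_nat_mul, mul_one]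
  rw [h1]
  have h2 := Real.sum_le_exp_of_nonneg hx n
  have h3 : (2.7182818283 : ℝ) ^ k ≤ Real.exp 1 ^ k :=
    pow_le_pow_left₀ (by norm_num) Real.exp_one_gt_d9.le k
  apply mul_le_mul h3 h2 (Finset.sum_nonneg fun i _ => by positivity) (by positivity)

/-- Upper bounds for the exponential function at numbers larger than one. -/
theorem exp_le_of (k : ℕ) {x y c : ℝ} (n : ℕ) (hn : 0 < n) (hy : y = k + x) (hx : 0 ≤ x)
    (hx1 : x ≤ 1)
    (h : 2.7182818286 ^ k * ((∑ i ∈ Finset.range n, x ^ i / (i.factorial : ℝ)) +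
      x ^ n * (n + 1) / ((n.factorial : ℝ) * n)) ≤ c) :
    Real.exp y ≤ c := by
  refine le_trans ?_ h
  have h1 : Real.exp y = Real.exp 1 ^ k * Real.exp x := by
    rw [hy, Real.exp_add, ← Real.exp_nat_mul, mul_one]
  rw [h1]
  have h2 := Real.exp_bound' hx hx1 hn
  have h3 : Real.exp 1 ^ k ≤ (2.7182818286 : ℝ) ^ k :=
    pow_le_pow_left₀ (Real.exp_pos 1).le Real.exp_one_lt_d9.le k
  apply mul_le_mul h3 h2 (Real.exp_pos x).le (by positivity)

theorem num352R : (37812 : ℝ) ≤ Real.exp 10.5404 := by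
  apply le_exp_of 10 12 (x := 0.5404) (by norm_num) (by norm_num)
  simp only [Finset.sum_range_succ, Finset.sum_range_zero, Nat.factorial]
  norm_num

theorem num352rho : (1459 / 1000000 : ℝ) ≤ Real.exp (-6.5300) := by
  rw [Real.exp_neg, show (1459 / 1000000 : ℝ) = (1000000 / 1459)⁻¹ by norm_num]
  apply inv_anti₀ (Real.exp_pos _)
  apply exp_le_of 6 12 (x := 0.53) (by norm_num) (by norm_num) (by norm_num) (by norm_num)
  simp only [Finset.sum_range_succ, Finset.sum_range_zero, Nat.factorial]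
  norm_num

/-- Bound for the exponents `56, 92, 37`: logarithm of the bound on the path. -/
theorem num569237rho : (4399341755386971 / 10 ^ 68 : ℝ) ≤ Real.exp (-120.55555) := by
  rw [Real.exp_neg, show (4399341755386971 / 10 ^ 68 : ℝ) = (10 ^ 68 / 4399341755386971)⁻¹ by
    norm_num]
  apply inv_anti₀ (Real.exp_pos _)
  apply exp_le_of 120 12 (x := 0.55555) (by norm_num) (by norm_num) (by norm_num) (by norm_num)
  simp only [Finset.sum_range_succ, Finset.sum_range_zero, Nat.factorial]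
  norm_num

/-- The bound for the exponents `56, 92, 37` on the circle of radius `783/2000`. -/
theorem circleSup569237 : ∀ z : ℂ, ‖z‖ = 783 / 2000 →
    ‖TT z - 2‖ ^ 56 * ‖TT z - 3‖ ^ 92 ≤ (455790 * 10 ^ 79 : ℝ) * ‖YY z‖ ^ 74 := by
  intro z hz
  have h := circleSup 56 92 37 (783 / 2000) (by norm_num) (by norm_num) z hz
  have h1 : (0 : ℝ) < ((2 - (783 / 2000) ^ 2) / (783 / 2000)) ^ (2 * 37) := by norm_num
  rw [← le_div_iff₀ h1] at h
  refine h.trans ?_
  have h2 : ((((783 / 2000 : ℝ) ^ 2 + 2 * (783 / 2000) + 2) / (783 / 2000)) ^ 56 *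
      (((1 + 783 / 2000) * (2 + 783 / 2000)) / (783 / 2000)) ^ 92) /
      ((2 - (783 / 2000) ^ 2) / (783 / 2000)) ^ (2 * 37) ≤ 455790 * 10 ^ 79 := by norm_num
  have h3 : (0 : ℝ) ≤ ‖YY z‖ ^ (2 * 37) := pow_nonneg (norm_nonneg _) _
  have h4 := mul_le_mul_of_nonneg_right h2 h3
  refine le_trans (le_of_eq ?_) h4
  rw [mul_div_right_comm]

theorem num569237R : (455790 * 10 ^ 79 : ℝ) ≤ Real.exp 194.9341 := by
  apply le_exp_of 194 20 (x := 0.9341) (by norm_num) (by norm_num)
  simp only [Finset.sum_range_succ, Finset.sum_range_zero, Nat.factorial]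
  norm_num

end Vale.Agent.P021
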