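import Vale.Agent.Lib.P021.Numerics

/-!
# Numerical constants for the exponents `56, 92, 37`, sharper version
-/

namespace Vale.Agent.P021

theorem num569237rhob : (439929292296439434601057 / 10 ^ 76 : ℝ) ≤ Real.exp (-120.555566) := by
  rw [Real.exp_neg, show (439929292296439434601057 / 10 ^ 76 : ℝ) =
    (10 ^ 76 / 439929292296439434601057)⁻¹ by norm_num]
  apply inv_anti₀ (Real.exp_pos _)
  apply exp_le_of 120 14 (x := 0.555566) (by norm_num) (by norm_num) (by norm_num) (by norm_num)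
  simp only [Finset.sum_range_succ, Finset.sum_range_zero, Nat.factorial]
  norm_num

/-- The bound for the exponents `56, 92, 37` on the circle of radius `783/2000`. -/
theorem circleSup569237b : ∀ z : ℂ, ‖z‖ = 783 / 2000 →
    ‖TT z - 2‖ ^ 56 * ‖TT z - 3‖ ^ 92 ≤ (45578633826 * 10 ^ 74 : ℝ) * ‖YY z‖ ^ 74 := by
  intro z hz
  have h := circleSup 56 92 37 (783 / 2000) (by norm_num) (by norm_num) z hz
  have h1 : (0 : ℝ) < ((2 - (783 / 2000) ^ 2) / (783 / 2000)) ^ (2 * 37) := by norm_num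
  rw [← le_div_iff₀ h1] at h
  refine h.trans ?_
  have h2 : ((((783 / 2000 : ℝ) ^ 2 + 2 * (783 / 2000) + 2) / (783 / 2000)) ^ 56 *
      (((1 + 783 / 2000) * (2 + 783 / 2000)) / (783 / 2000)) ^ 92) /
      ((2 - (783 / 2000) ^ 2) / (783 / 2000)) ^ (2 * 37) ≤ 45578633826 * 10 ^ 74 := by norm_num
  have h3 : (0 : ℝ) ≤ ‖YY z‖ ^ (2 * 37) := pow_nonneg (norm_nonneg _) _
  have h4 := mul_le_mul_of_nonneg_right h2 h3
  refine le_trans (le_of_eq ?_) h4
  rw [mul_div_right_comm]

theorem num569237Rb : (45578633826 * 10 ^ 74 : ℝ) ≤ Real.exp 194.934002 := by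
  apply le_exp_of 194 20 (x := 0.934002) (by norm_num) (by norm_num)
  simp only [Finset.sum_range_succ, Finset.sum_range_zero, Nat.factorial]
  norm_num

end Vale.Agent.P021
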