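import Vale.Agent.Lib.P021.Nonvanish
import Vale.Agent.Lib.P021.Bounds

/-!
# Primes that do not divide the denominators
-/

namespace Vale.Agent.P021
open Polynomial Complex

theorem exists_anti_int (G : ℤ[X]) (N : ℕ) (h : G.natDegree < N) :
    ∃ Q : ℤ[X], derivative Q = C (N.factorial : ℤ) * G ∧ Q.natDegree ≤ N := by
  refine ⟨∑ m ∈ Finset.range N, C (G.coeff m * ((N.factorial / (m + 1) : ℕ) : ℤ)) * X ^ (m + 1),
    ?_, ?_⟩
  · rw [derivative_sum]
    conv_rhs => rw [G.as_sum_range' N h, Finset.mul_sum]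
    apply Finset.sum_congr rfl
    intro m hm
    have hm' := Finset.mem_range.1 hm
    rw [derivative_C_mul_X_pow, ← C_mul_X_pow_eq_monomial, ← mul_assoc, ← C_mul]
    simp only [Nat.add_sub_cancel]
    congr 2
    have h1 : (m + 1) ∣ N.factorial := Nat.dvd_factorial (by omega) (by omega)
    have h2 : ((N.factorial / (m + 1) : ℕ) : ℤ) * ((m + 1 : ℕ) : ℤ) = (N.factorial : ℤ) := by
      exact_mod_cast Nat.div_mul_cancel h1
    rw [mul_assoc, h2, mul_comm]
  · apply natDegree_sum_le_of_forall_le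
    intro m hm
    have hm' := Finset.mem_range.1 hm
    exact (natDegree_C_mul_X_pow_le _ _).trans (by omega)

/-- the maximal power of `p` in `lcm(1..L)` is at most one when `L < p^2` -/
theorem lcmUpto_not_sq (p L : ℕ) (hp : p.Prime) (hL : L < p ^ 2) :
    ∃ c : ℕ, ¬ p ∣ c ∧ Nat.lcmUpto L ∣ p * c := by
  refine ⟨Nat.lcmUpto L / p ^ (Nat.lcmUpto L).factorization p, ?_, ?_⟩
  · apply Nat.not_dvd_ordCompl hp
    exact Nat.lcmUpto_ne_zero _
  · have h1 : (Nat.lcmUpto L).factorization p ≤ 1 := by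
      rw [Nat.factorization_lcmUpto _ hp]
      exact Nat.lt_succ_iff.1 (Nat.log_lt_of_lt_pow' (by norm_num) hL)
    have h3 := Nat.ordProj_mul_ordCompl_eq_self (Nat.lcmUpto L) p
    conv_lhs => rw [← h3]
    apply Nat.mul_dvd_mul_right
    conv_rhs => rw [← pow_one p]
    exact pow_dvd_pow p h1

section
variable {v : ℂ} (hv : 0 < v.re) (hv' : 0 < v.im)
include hv hv'

theorem savings {p : ℕ} (hp : p.Prime) (hp2 : p ≠ 2) {M1 M2 a n e i1 i2 j : ℕ} (hj : Odd j)
    (h1 : i1 * p ≤ M1 * n) (h2 : i2 * p ≤ M2 * n) (h3 : 2 * (a * n) + 1 ≤ j * p)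
    (h4 : M1 * n + M2 * n + e + j * p < 2 * (a * n) + (i1 + i2 + 1) * p)
    (h5 : i1 + i2 + j + 1 < p) {A b : ℚ}
    (hb : LL v ((PP M1 M2 n e).map (Int.castRingHom ℚ)) (a * n) = A * (Real.pi / 4) + 2 * (b:ℝ)) :
    ¬ p ∣ b.den := by
  have hpodd : Odd p := hp.odd_of_ne_two hp2
  have hjp : Odd (j * p) := hj.mul hpodd
  obtain ⟨κ, hκ⟩ : ∃ κ, j * p + 1 = 2 * κ := by
    obtain ⟨m, hm⟩ := hjp
    exact ⟨m + 1, by omega⟩
  obtain ⟨δ, hδ⟩ : ∃ δ, κ = a * n + (δ + 1) := ⟨κ - a * n - 1, by omega⟩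
  obtain ⟨α, hα⟩ : ∃ α, M1 * n = i1 * p + α := ⟨M1 * n - i1 * p, by omega⟩
  obtain ⟨β, hβ⟩ : ∃ β, M2 * n = i2 * p + β := ⟨M2 * n - i2 * p, by omega⟩
  set G : ℤ[X] := (X - C 2) ^ α * (X - C 3) ^ β * (X ^ 2 - C 8) ^ δ * X ^ e with hG
  have hGd : G.natDegree < p - 1 := by
    have e1 : (X - C 2 : ℤ[X]).natDegree = 1 := natDegree_X_sub_C _
    have e2 : (X - C 3 : ℤ[X]).natDegree = 1 := natDegree_X_sub_C _
    have e3 : (X ^ 2 - C 8 : ℤ[X]).natDegree = 2 := natDegree_X_pow_sub_C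
    have : G.natDegree ≤ α * 1 + β * 1 + δ * 2 + e := by
      rw [hG]
      refine natDegree_mul_le.trans (add_le_add (natDegree_mul_le.trans (add_le_add
        (natDegree_mul_le.trans (add_le_add ?_ ?_)) ?_)) ?_)
      · exact natDegree_pow_le.trans (by rw [e1])
      · exact natDegree_pow_le.trans (by rw [e2])
      · exact natDegree_pow_le.trans (by rw [e3])
      · exact natDegree_X_pow_le _
    have h6 : (i1 + i2 + 1) * p = i1 * p + i2 * p + p := by ring
    rw [h6] at h4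
    omega
  obtain ⟨Q, hQ, hQd⟩ := exists_anti_int G (p - 1) hGd
  set d : ℤ := ((p - 1).factorial : ℤ) with hd
  have hpd : ¬ (p:ℤ) ∣ d := by
    rw [hd, Int.natCast_dvd_natCast, hp.dvd_factorial]
    have := hp.pos
    omega
  set W : ℤ[X] := (X - C 2) ^ (i1 * p) * (X - C 3) ^ (i2 * p) * Q with hW
  set V : ℤ[X] := (X ^ 2 - C 8) * (C (i1:ℤ) * (X - C 2) ^ (i1 * p - 1) * (X - C 3) ^ (i2 * p)
      + C (i2:ℤ) * (X - C 2) ^ (i1 * p) * (X - C 3) ^ (i2 * p - 1)) * Q - C (j:ℤ) * X * W with hV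
  have hid : (X ^ 2 - C 8) * derivative W - C ((j * p : ℕ):ℤ) * X * W =
      C d * ((X ^ 2 - C 8) ^ (δ + 1) * PP M1 M2 n e) + C (p:ℤ) * V := by
    rw [hV, hW, derivative_mul, derivative_mul, hQ, hG, derivative_X_sub_C_pow,
      derivative_X_sub_C_pow]
    unfold PP
    rw [hα, hβ]
    simp only [Nat.cast_mul, map_mul, map_natCast]
    ring
  -- degrees
  have hWd : W.natDegree ≤ i1 * p + i2 * p + (p - 1) := by
    have e1 : (X - C 2 : ℤ[X]).natDegree = 1 := natDegree_X_sub_C _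
    have e2 : (X - C 3 : ℤ[X]).natDegree = 1 := natDegree_X_sub_C _
    rw [hW]
    refine natDegree_mul_le.trans (add_le_add (natDegree_mul_le.trans (add_le_add ?_ ?_)) hQd)
    · exact natDegree_pow_le.trans (by rw [e1, mul_one])
    · exact natDegree_pow_le.trans (by rw [e2, mul_one])
  have hVd : V.natDegree ≤ i1 * p + i2 * p + p + 1 := by
    have e1 : (X - C 2 : ℤ[X]).natDegree = 1 := natDegree_X_sub_C _
    have e2 : (X - C 3 : ℤ[X]).natDegree = 1 := natDegree_X_sub_C _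
    have e3 : (X ^ 2 - C 8 : ℤ[X]).natDegree = 2 := natDegree_X_pow_sub_C
    have hp1 := hp.pos
    rw [hV]
    refine (natDegree_sub_le _ _).trans (max_le ?_ ?_)
    · have h6 : ((X ^ 2 - C 8) * (C (i1:ℤ) * (X - C 2) ^ (i1 * p - 1) * (X - C 3) ^ (i2 * p)
          + C (i2:ℤ) * (X - C 2) ^ (i1 * p) * (X - C 3) ^ (i2 * p - 1)) * Q).natDegree ≤
          (2 + (i1 * p + i2 * p)) + (p - 1) := by
        refine natDegree_mul_le.trans (add_le_add (natDegree_mul_le.trans (add_le_add e3.le ?_)) hQd)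
        refine (natDegree_add_le _ _).trans (max_le ?_ ?_)
        · refine natDegree_mul_le.trans (add_le_add ((natDegree_C_mul_le _ _).trans ?_) ?_)
          · exact (natDegree_pow_le.trans (by rw [e1, mul_one])).trans (Nat.sub_le _ _)
          · exact natDegree_pow_le.trans (by rw [e2, mul_one])
        · refine natDegree_mul_le.trans (add_le_add ((natDegree_C_mul_le _ _).trans ?_) ?_)
          · exact natDegree_pow_le.trans (by rw [e1, mul_one])
          · exact (natDegree_pow_le.trans (by rw [e2, mul_one])).trans (Nat.sub_le _ _)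
      omega
    · have h6 : (C (j:ℤ) * X * W).natDegree ≤ (0 + 1) + W.natDegree :=
        natDegree_mul_le.trans (add_le_add (natDegree_mul_le.trans
          (add_le_add (natDegree_C _).le natDegree_X_le)) le_rfl)
      omega
  -- the functional
  have hf : (d:ℝ) * LL v ((PP M1 M2 n e).map (Int.castRingHom ℚ)) (a * n) +
      p * LL v (V.map (Int.castRingHom ℚ)) κ = 2 * (((W.eval 2 : ℤ) / (-4) ^ κ : ℚ) : ℝ) := by
    have h6 := LL_exact hv hv' (W.map (Int.castRingHom ℚ)) κ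
    have h7 : (W.map (Int.castRingHom ℚ)).eval 2 = ((W.eval 2 : ℤ) : ℚ) := by
      have := Polynomial.eval_intCast_map (Int.castRingHom ℚ) W 2
      simpa using this
    rw [h7] at h6
    rw [← h6]
    have h8 : (2 * (κ:ℚ) - 1) = ((j * p : ℕ) : ℚ) := by
      have : ((j * p + 1 : ℕ) : ℚ) = ((2 * κ : ℕ) : ℚ) := by rw [hκ]
      push_cast at this ⊢
      linarith
    have h9 : (X ^ 2 - C 8) * derivative (W.map (Int.castRingHom ℚ)) -
        C (2 * (κ:ℚ) - 1) * X * W.map (Int.castRingHom ℚ) =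
        C (d:ℚ) * ((X ^ 2 - C 8) ^ (δ + 1) * (PP M1 M2 n e).map (Int.castRingHom ℚ)) +
          C (p:ℚ) * V.map (Int.castRingHom ℚ) := by
      rw [h8]
      have h10 := congrArg (Polynomial.map (Int.castRingHom ℚ)) hid
      simp only [Polynomial.map_sub, Polynomial.map_mul, Polynomial.map_pow, Polynomial.map_X,
        Polynomial.map_C, Polynomial.map_add, derivative_map, Int.coe_castRingHom] at h10 ⊢
      simp only [Int.cast_natCast, Int.cast_ofNat] at h10
      exact h10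
    rw [h9, LL_add hv hv', LL_smul, LL_smul, hδ, LL_shift' hv hv']
    push_cast
    ring
  have hgood : Good ((i1 + i2 + 1 + j) * p) (LL v (V.map (Int.castRingHom ℚ)) κ) := by
    apply good_LL hv hv'
    · have : (i1 + i2 + 1 + j) * p = i1 * p + i2 * p + p + j * p := by ring
      omega
    · have : (i1 + i2 + 1 + j) * p = i1 * p + i2 * p + p + j * p := by ring
      omega
  obtain ⟨A', b', h6, M, m, h7⟩ := hgood
  have h8 := rep_unique (A := d * A + p * A') (A' := 0) (b := d * b + p * b')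
    (b' := (W.eval 2 : ℤ) / (-4) ^ κ) (by
      rw [hb, h6] at hf
      push_cast at hf ⊢
      linarith)
  obtain ⟨c, hc1, hc2⟩ := lcmUpto_not_sq p ((i1 + i2 + 1 + j) * p) hp (by
    rw [pow_two]
    exact Nat.mul_lt_mul_of_pos_right (by omega) hp.pos)
  obtain ⟨c', hc'⟩ := hc2
  -- `p b'` has denominator prime to `p`
  intro hpb
  have h9 : ∃ N k : ℤ, ¬ (p:ℤ) ∣ N ∧ (N:ℚ) * b = k := by
    refine ⟨4 ^ κ * (2 ^ M * c) * d, (2 ^ M * c) * ((-1) ^ κ * W.eval 2) - 4 ^ κ * c' * m, ?_, ?_⟩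
    · have hpZ : Prime (p:ℤ) := Nat.prime_iff_prime_int.1 hp
      have hp2' : ¬ (p:ℤ) ∣ 2 := by
        intro h
        have h10 : p ∣ 2 := by exact_mod_cast h
        exact hp2 ((Nat.prime_dvd_prime_iff_eq hp Nat.prime_two).1 h10)
      intro h
      rcases hpZ.dvd_or_dvd h with h | h
      · rcases hpZ.dvd_or_dvd h with h | h
        · have h10 := hpZ.dvd_of_dvd_pow h
          rw [show (4:ℤ) = 2 * 2 by norm_num] at h10
          rcases hpZ.dvd_or_dvd h10 with h | h <;> exact hp2' h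
        · rcases hpZ.dvd_or_dvd h with h | h
          · exact hp2' (hpZ.dvd_of_dvd_pow h)
          · exact hc1 (by exact_mod_cast h)
      · exact hpd h
    · have h10 : (p:ℚ) * c = (Nat.lcmUpto ((i1 + i2 + 1 + j) * p) : ℚ) * c' := by exact_mod_cast hc'
      have h11 := h8.2
      have h12 : ((-1:ℚ)) ^ κ * (-1) ^ κ = 1 := by rw [← mul_pow]; simp
      have h13 : ((-4:ℚ)) ^ κ = (-1) ^ κ * 4 ^ κ := by rw [← mul_pow]; norm_num
      rw [h13] at h11
      have h14 : ((-1:ℚ)) ^ κ ≠ 0 := by positivity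
      have h15 : (4:ℚ) ^ κ * (d * b) = (-1) ^ κ * (W.eval 2 : ℤ) - 4 ^ κ * (p * b') := by
        have h16 : (d * b) = (W.eval 2 : ℤ) / ((-1) ^ κ * 4 ^ κ) - p * b' := by
          linear_combination h11
        rw [h16]
        field_simp
        linear_combination (-((W.eval 2 : ℤ) : ℚ)) * h12
      push_cast
      linear_combination (2 ^ M * (c:ℚ)) * h15 - (4 ^ κ * 2 ^ M * b') * h10 - (4 ^ κ * (c':ℚ)) * h7
  obtain ⟨N, k, h10, h11⟩ := h9
  apply h10
  have h12 : (b.den : ℤ) ∣ N := by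
    have h13 : (N:ℚ) * b.num = k * b.den := by
      have h14 := Rat.num_div_den b
      have h15 : (b.den : ℚ) ≠ 0 := by exact_mod_cast b.den_ne_zero
      rw [← h14] at h11
      field_simp at h11
      linarith
    have h14 : N * b.num = k * b.den := by exact_mod_cast h13
    have h15 : (b.den : ℤ) ∣ N * b.num := ⟨k, by rw [h14]; ring⟩
    have h16 : IsCoprime (b.den : ℤ) b.num := by
      have := b.reduced
      rw [Int.isCoprime_iff_gcd_eq_one, Int.gcd_comm]
      exact this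
    exact h16.dvd_of_dvd_mul_right h15
  exact (Int.natCast_dvd_natCast.2 hpb).trans h12

end

end Vale.Agent.P021
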