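import Vale.Agent.Lib.P021.Defs

/-!
# A kernel-checked tool for bounds of products of powers of absolute values along a segment

On a short segment we bound `m log (x / c) ≤ m (x / c - 1)`; this reduces the bound to the
positivity of a polynomial with integer coefficients on `[-1, 1]`, which is checked coefficientwise.
-/

namespace Vale.Agent.P021

open Complex

/-! ## Polynomials as lists of integers -/

/-- value of a list polynomial -/
noncomputable def ev (l : List ℤ) (x : ℝ) : ℝ := l.foldr (fun a r => (a : ℝ) + x * r) 0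

theorem ev_nil (x : ℝ) : ev [] x = 0 := rfl

theorem ev_cons (a : ℤ) (l : List ℤ) (x : ℝ) : ev (a :: l) x = a + x * ev l x := rfl

/-- sum -/
def padd : List ℤ → List ℤ → List ℤ
  | [], m => m
  | a :: l, [] => a :: l
  | a :: l, b :: m => (a + b) :: padd l m

/-- multiple -/
def psmul (c : ℤ) (l : List ℤ) : List ℤ := l.map fun a => c * a

/-- product -/
def pmul : List ℤ → List ℤ → List ℤ
  | [], _ => []
  | a :: l, m => padd (psmul a m) (0 :: pmul l m)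

theorem ev_padd (l m : List ℤ) (x : ℝ) : ev (padd l m) x = ev l x + ev m x := by
  induction l generalizing m with
  | nil => simp [padd, ev_nil]
  | cons a l ih =>
    cases m with
    | nil => simp [padd, ev_nil]
    | cons b m =>
      simp only [padd, ev_cons, ih]
      push_cast
      ring

theorem ev_psmul (c : ℤ) (l : List ℤ) (x : ℝ) : ev (psmul c l) x = c * ev l x := by
  induction l with
  | nil => simp [psmul, ev_nil]
  | cons a l ih =>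
    have : psmul c (a :: l) = (c * a) :: psmul c l := rfl
    rw [this, ev_cons, ev_cons, ih]
    push_cast
    ring

theorem ev_pmul (l m : List ℤ) (x : ℝ) : ev (pmul l m) x = ev l x * ev m x := by
  induction l with
  | nil => simp [pmul, ev_nil]
  | cons a l ih =>
    simp only [pmul, ev_padd, ev_psmul, ev_cons, ih]
    push_cast
    ring

/-- sum of absolute values of the coefficients -/
def sabs : List ℤ → ℤ
  | [] => 0
  | a :: l => |a| + sabs l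

theorem abs_ev_le (l : List ℤ) {x : ℝ} (hx : |x| ≤ 1) : |ev l x| ≤ sabs l := by
  induction l with
  | nil => simp [ev_nil, sabs]
  | cons a l ih =>
    rw [ev_cons, sabs]
    push_cast
    calc |(a : ℝ) + x * ev l x| ≤ |(a : ℝ)| + |x * ev l x| := abs_add_le _ _
      _ ≤ |(a : ℝ)| + 1 * sabs l := by
          rw [abs_mul]
          gcongr
      _ = |(a : ℝ)| + sabs l := by rw [one_mul]

/-- sufficient condition for nonnegativity on `[-1, 1]` -/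
def pnn : List ℤ → Bool
  | [] => true
  | a :: l => decide (sabs l ≤ a)

theorem pnn_spec {l : List ℤ} (h : pnn l = true) {x : ℝ} (hx : |x| ≤ 1) : 0 ≤ ev l x := by
  cases l with
  | nil => simp [ev_nil]
  | cons a l =>
    have h1 : sabs l ≤ a := by simpa [pnn] using h
    have h2 : (sabs l : ℝ) ≤ a := by exact_mod_cast h1
    have h3 := abs_ev_le l hx
    rw [ev_cons]
    have h4 : |x * ev l x| ≤ sabs l := by
      rw [abs_mul]
      calc |x| * |ev l x| ≤ 1 * |ev l x| := by gcongr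
        _ ≤ sabs l := by rw [one_mul]; exact h3
    have h5 := neg_abs_le (x * ev l x)
    linarith

/-- sufficient condition for positivity on `[-1, 1]` -/
def ppos : List ℤ → Bool
  | [] => false
  | a :: l => decide (sabs l < a)

theorem ppos_spec {l : List ℤ} (h : ppos l = true) {x : ℝ} (hx : |x| ≤ 1) : 0 < ev l x := by
  cases l with
  | nil => simp [ppos] at h
  | cons a l =>
    have h1 : sabs l < a := by simpa [ppos] using h
    have h2 : (sabs l : ℝ) < a := by exact_mod_cast h1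
    have h3 := abs_ev_le l hx
    rw [ev_cons]
    have h4 : |x * ev l x| ≤ sabs l := by
      rw [abs_mul]
      calc |x| * |ev l x| ≤ 1 * |ev l x| := by gcongr
        _ ≤ sabs l := by rw [one_mul]; exact h3
    have h5 := neg_abs_le (x * ev l x)
    linarith

/-! ## The exponential bound -/

theorem pow_le_exp {a : ℝ} (ha : 0 ≤ a) (m : ℕ) : a ^ m ≤ Real.exp (m * (a - 1)) := by
  have h1 : a ≤ Real.exp (a - 1) := by
    have := Real.add_one_le_exp (a - 1)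
    linarith
  calc a ^ m ≤ Real.exp (a - 1) ^ m := pow_le_pow_left₀ ha h1 m
    _ = Real.exp (m * (a - 1)) := (Real.exp_nat_mul _ _).symm

/-- First-order bound for a product of powers. -/
theorem first_order {m1 m2 m3 m4 : ℕ} {x1 x2 y3 y4 c1 c2 d3 d4 R : ℝ} (hx1 : 0 ≤ x1)
    (hx2 : 0 ≤ x2) (hy3 : 0 < y3) (hy4 : 0 < y4) (hc1 : 0 < c1) (hc2 : 0 < c2) (hd3 : 0 < d3)
    (hd4 : 0 < d4)
    (hG : m1 * (x1 / c1) + m2 * (x2 / c2) + m3 * (d3 / y3) + m4 * (d4 / y4) ≤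
      m1 + m2 + m3 + m4)
    (hR : c1 ^ m1 * c2 ^ m2 ≤ R * (d3 ^ m3 * d4 ^ m4)) :
    x1 ^ m1 * x2 ^ m2 ≤ R * (y3 ^ m3 * y4 ^ m4) := by
  have e1 := pow_le_exp (div_nonneg hx1 hc1.le) m1
  have e2 := pow_le_exp (div_nonneg hx2 hc2.le) m2
  have e3 := pow_le_exp (div_nonneg hd3.le hy3.le) m3
  have e4 := pow_le_exp (div_nonneg hd4.le hy4.le) m4
  have key : (x1 / c1) ^ m1 * (x2 / c2) ^ m2 * ((d3 / y3) ^ m3 * (d4 / y4) ^ m4) ≤ 1 := by
    calc (x1 / c1) ^ m1 * (x2 / c2) ^ m2 * ((d3 / y3) ^ m3 * (d4 / y4) ^ m4)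
        ≤ Real.exp (m1 * (x1 / c1 - 1)) * Real.exp (m2 * (x2 / c2 - 1)) *
          (Real.exp (m3 * (d3 / y3 - 1)) * Real.exp (m4 * (d4 / y4 - 1))) := by
          gcongr
      _ = Real.exp (m1 * (x1 / c1 - 1) + m2 * (x2 / c2 - 1) +
          (m3 * (d3 / y3 - 1) + m4 * (d4 / y4 - 1))) := by
          rw [Real.exp_add, Real.exp_add, Real.exp_add]
      _ ≤ Real.exp 0 := by
          apply Real.exp_le_exp.2
          linarith
      _ = 1 := Real.exp_zero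
  rw [div_pow, div_pow, div_pow, div_pow] at key
  have p1 : 0 < c1 ^ m1 := by positivity
  have p2 : 0 < c2 ^ m2 := by positivity
  have p3 : 0 < y3 ^ m3 := by positivity
  have p4 : 0 < y4 ^ m4 := by positivity
  have p5 : 0 < d3 ^ m3 * d4 ^ m4 := by positivity
  have key2 : x1 ^ m1 * x2 ^ m2 * (d3 ^ m3 * d4 ^ m4) ≤ c1 ^ m1 * c2 ^ m2 * (y3 ^ m3 * y4 ^ m4) := by
    have e : x1 ^ m1 / c1 ^ m1 * (x2 ^ m2 / c2 ^ m2) * (d3 ^ m3 / y3 ^ m3 * (d4 ^ m4 / y4 ^ m4)) =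
        (x1 ^ m1 * x2 ^ m2 * (d3 ^ m3 * d4 ^ m4)) / (c1 ^ m1 * c2 ^ m2 * (y3 ^ m3 * y4 ^ m4)) := by
      field_simp
    rw [e, div_le_one (by positivity)] at key
    exact key
  have key3 : x1 ^ m1 * x2 ^ m2 * (d3 ^ m3 * d4 ^ m4) ≤
      (R * (y3 ^ m3 * y4 ^ m4)) * (d3 ^ m3 * d4 ^ m4) := by
    calc x1 ^ m1 * x2 ^ m2 * (d3 ^ m3 * d4 ^ m4) ≤ c1 ^ m1 * c2 ^ m2 * (y3 ^ m3 * y4 ^ m4) := key2
      _ ≤ R * (d3 ^ m3 * d4 ^ m4) * (y3 ^ m3 * y4 ^ m4) := by gcongr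
      _ = _ := by ring
  exact le_of_mul_le_mul_right key3 p5

/-! ## The four quantities as polynomials -/

/-- data of a segment: start and end point over the common denominator -/
structure Seg where
  N : ℕ
  ar : ℤ
  ai : ℤ
  br : ℤ
  bi : ℤ

/-- the starting point -/
noncomputable def Seg.A (s : Seg) : ℂ := ⟨s.ar / s.N, s.ai / s.N⟩

/-- the end point -/
noncomputable def Seg.B (s : Seg) : ℂ := ⟨s.br / s.N, s.bi / s.N⟩

/-- denominators on the piece: `D` is the number of small steps -/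
def Seg.den (s : Seg) (D : ℕ) : ℕ := 2 * D * s.N

def Seg.Zr (s : Seg) (D u w : ℕ) : List ℤ :=
  [2 * D * s.ar + (u + w) * (s.br - s.ar), ((w : ℤ) - u) * (s.br - s.ar)]

def Seg.Zi (s : Seg) (D u w : ℕ) : List ℤ :=
  [2 * D * s.ai + (u + w) * (s.bi - s.ai), ((w : ℤ) - u) * (s.bi - s.ai)]

/-- real and imaginary part of `z² - k z + 2` times the square of the denominator -/
def quadR (n : ℤ) (k c : ℤ) (r i : List ℤ) : List ℤ :=
  padd (padd (pmul r r) (psmul (-1) (pmul i i))) (padd (psmul (-(k * n)) r) [c * n ^ 2])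

def quadI (n : ℤ) (k : ℤ) (r i : List ℤ) : List ℤ :=
  padd (psmul 2 (pmul r i)) (psmul (-(k * n)) i)

/-- squared absolute value of `z² - k z + c` times the fourth power of the denominator -/
def quadN (n : ℤ) (k c : ℤ) (r i : List ℤ) : List ℤ :=
  padd (pmul (quadR n k c r i) (quadR n k c r i)) (pmul (quadI n k r i) (quadI n k r i))

/-- squared absolute value of `z` times the square of the denominator -/
def linN (r i : List ℤ) : List ℤ := padd (pmul r r) (pmul i i)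

theorem normSq_quad {z : ℂ} {n : ℤ} (hn : (n : ℝ) ≠ 0) {r i : List ℤ} {x : ℝ}
    (hr : z.re = ev r x / n) (hi : z.im = ev i x / n) (k c : ℤ) :
    ‖z ^ 2 - k * z + c‖ ^ 2 = ev (quadN n k c r i) x / (n : ℝ) ^ 4 := by
  rw [← Complex.normSq_eq_norm_sq, Complex.normSq_apply]
  have h1 : (z ^ 2 - k * z + c).re = z.re ^ 2 - z.im ^ 2 - k * z.re + c := by
    simp [pow_two]
  have h2 : (z ^ 2 - k * z + c).im = 2 * z.re * z.im - k * z.im := by
    simp [pow_two]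
    ring
  rw [h1, h2, hr, hi]
  simp only [quadN, quadR, quadI, ev_padd, ev_pmul, ev_psmul, ev_cons, ev_nil]
  push_cast
  field_simp
  ring

theorem normSq_lin {z : ℂ} {n : ℤ} (hn : (n : ℝ) ≠ 0) {r i : List ℤ} {x : ℝ}
    (hr : z.re = ev r x / n) (hi : z.im = ev i x / n) :
    ‖z‖ ^ 2 = ev (linN r i) x / (n : ℝ) ^ 2 := by
  rw [← Complex.normSq_eq_norm_sq, Complex.normSq_apply, hr, hi]
  simp only [linN, ev_padd, ev_pmul]
  field_simp

/-! ## The check of one piece -/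

/-- certificate of one piece `[u, w] / D` -/
structure Piece where
  u : ℕ
  w : ℕ
  c1 : ℕ
  c2 : ℕ
  d3 : ℕ
  d4 : ℕ

/-- problem data: the exponents and the bound `Rn / Rd` (for squares) -/
structure Prob where
  m1 : ℕ
  m2 : ℕ
  m3 : ℕ
  m4 : ℕ
  Rn : ℕ
  Rd : ℕ

/-- polynomial whose nonnegativity is needed -/
def mainPoly (p : Prob) (X1 X2 Y3 Y4 : List ℤ) (q : Piece) : List ℤ :=
  let Y34 := pmul Y3 Y4
  padd (psmul ((p.m1 + p.m2 + p.m3 + p.m4 : ℕ) * (q.c1 * q.c2 : ℕ)) Y34)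
    (psmul (-1) (padd (pmul (padd (psmul ((p.m1 * q.c2 : ℕ) : ℤ) X1)
      (psmul ((p.m2 * q.c1 : ℕ) : ℤ) X2)) Y34)
      (padd (psmul ((p.m3 * q.d3 * (q.c1 * q.c2) : ℕ) : ℤ) Y4)
        (psmul ((p.m4 * q.d4 * (q.c1 * q.c2) : ℕ) : ℤ) Y3))))

/-- the check of one piece -/
def checkPiece (p : Prob) (s : Seg) (D : ℕ) (q : Piece) : Bool :=
  let n : ℤ := (s.den D : ℕ)
  let r := s.Zr D q.u q.w
  let i := s.Zi D q.u q.w
  let X1 := quadN n 2 2 r i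
  let X2 := quadN n 3 2 r i
  let Y3 := quadN n 0 (-2) r i
  let Y4 := linN r i
  decide (0 < q.c1) && decide (0 < q.c2) && decide (0 < q.d3) && decide (0 < q.d4) &&
    ppos Y3 && ppos Y4 && pnn (mainPoly p X1 X2 Y3 Y4 q) &&
    decide (p.Rd * (q.c1 ^ p.m1 * q.c2 ^ p.m2) * (s.den D) ^ (4 * p.m3 + 2 * p.m4) ≤
      p.Rn * (q.d3 ^ p.m3 * q.d4 ^ p.m4) * (s.den D) ^ (4 * p.m1 + 4 * p.m2))

/-- the statement at a point -/
def GoodPt (p : Prob) (z : ℂ) : Prop :=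
  (‖z ^ 2 - 2 * z + 2‖ ^ 2) ^ p.m1 * (‖z ^ 2 - 3 * z + 2‖ ^ 2) ^ p.m2 ≤
    (p.Rn / p.Rd : ℝ) * ((‖z ^ 2 - 2‖ ^ 2) ^ p.m3 * (‖z‖ ^ 2) ^ p.m4)

theorem checkPiece_spec {p : Prob} (hRd : 0 < p.Rd) {s : Seg} (hN : 0 < s.N) {D : ℕ}
    (hD : 0 < D) {q : Piece} (h : checkPiece p s D q = true) {t : ℝ}
    (ht1 : (q.u : ℝ) / D ≤ t) (ht2 : t ≤ (q.w : ℝ) / D) (hlt : q.u < q.w) :
    GoodPt p (s.A + t * (s.B - s.A)) := by
  simp only [checkPiece, Bool.and_eq_true, decide_eq_true_eq] at h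
  obtain ⟨⟨⟨⟨⟨⟨⟨hc1, hc2⟩, hd3⟩, hd4⟩, hY3⟩, hY4⟩, hP⟩, hR⟩ := h
  have hDr : (0 : ℝ) < D := by exact_mod_cast hD
  have hNr : (0 : ℝ) < s.N := by exact_mod_cast hN
  have hlt' : (q.u : ℝ) < q.w := by exact_mod_cast hlt
  have hwu : (0 : ℝ) < (q.w : ℝ) - q.u := by linarith
  -- the local variable
  obtain ⟨x, hx⟩ : ∃ x : ℝ, x = (2 * D * t - (q.u + q.w)) / (q.w - q.u) := ⟨_, rfl⟩
  have hxt : 2 * D * t = (q.u + q.w) + (q.w - q.u) * x := by
    rw [hx]; field_simp; ring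
  have hxa : |x| ≤ 1 := by
    rw [div_le_iff₀ hDr] at ht1
    rw [le_div_iff₀ hDr] at ht2
    rw [abs_le, hx]
    constructor
    · rw [le_div_iff₀ hwu]; linarith
    · rw [div_le_iff₀ hwu]; linarith
  obtain ⟨n, hn⟩ : ∃ n : ℤ, n = (s.den D : ℕ) := ⟨_, rfl⟩
  have hnr : (n : ℝ) = 2 * D * s.N := by
    rw [hn]; unfold Seg.den; push_cast; ring
  have hn0 : (0 : ℝ) < n := by rw [hnr]; positivity
  obtain ⟨z, hz⟩ : ∃ z : ℂ, z = s.A + t * (s.B - s.A) := ⟨_, rfl⟩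
  rw [← hz]
  have hzr : z.re = ev (s.Zr D q.u q.w) x / n := by
    have : z.re = s.ar / s.N + t * (s.br / s.N - s.ar / s.N) := by
      rw [hz]; simp [Seg.A, Seg.B]
    rw [this, hnr]
    simp only [Seg.Zr, ev_cons, ev_nil]
    push_cast
    have ht : t = ((q.u + q.w) + (q.w - q.u) * x) / (2 * D) := by
      rw [← hxt]; field_simp
    rw [ht]
    field_simp
    ring
  have hzi : z.im = ev (s.Zi D q.u q.w) x / n := by
    have : z.im = s.ai / s.N + t * (s.bi / s.N - s.ai / s.N) := by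
      rw [hz]; simp [Seg.A, Seg.B]
    rw [this, hnr]
    simp only [Seg.Zi, ev_cons, ev_nil]
    push_cast
    have ht : t = ((q.u + q.w) + (q.w - q.u) * x) / (2 * D) := by
      rw [← hxt]; field_simp
    rw [ht]
    field_simp
    ring
  rw [← hn] at hY3 hP
  generalize s.Zr D q.u q.w = r at *
  generalize s.Zi D q.u q.w = i at *
  have e1 := normSq_quad hn0.ne' hzr hzi 2 2
  have e2 := normSq_quad hn0.ne' hzr hzi 3 2
  have e3 := normSq_quad hn0.ne' hzr hzi 0 (-2)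
  have e4 := normSq_lin hn0.ne' hzr hzi
  push_cast at e1 e2 e3
  have e3' : ‖z ^ 2 - 2‖ ^ 2 = ev (quadN n 0 (-2) r i) x / (n : ℝ) ^ 4 := by
    rw [← e3]
    congr 2
    ring
  have pY3 := ppos_spec hY3 hxa
  have pY4 := ppos_spec hY4 hxa
  have pP := pnn_spec hP hxa
  obtain ⟨X1, hX1⟩ : ∃ X1 : ℝ, X1 = ev (quadN n 2 2 r i) x := ⟨_, rfl⟩
  obtain ⟨X2, hX2⟩ : ∃ X2 : ℝ, X2 = ev (quadN n 3 2 r i) x := ⟨_, rfl⟩
  obtain ⟨Y3, hY3d⟩ : ∃ Y3 : ℝ, Y3 = ev (quadN n 0 (-2) r i) x := ⟨_, rfl⟩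
  obtain ⟨Y4, hY4d⟩ : ∃ Y4 : ℝ, Y4 = ev (linN r i) x := ⟨_, rfl⟩
  rw [← hX1] at e1
  rw [← hX2] at e2
  rw [← hY3d] at e3' pY3
  rw [← hY4d] at e4 pY4
  have hX1nn : 0 ≤ X1 := by
    have : X1 = ‖z ^ 2 - 2 * z + 2‖ ^ 2 * (n : ℝ) ^ 4 := by rw [e1]; field_simp
    rw [this]; positivity
  have hX2nn : 0 ≤ X2 := by
    have : X2 = ‖z ^ 2 - 3 * z + 2‖ ^ 2 * (n : ℝ) ^ 4 := by rw [e2]; field_simp
    rw [this]; positivity
  have c1p : (0 : ℝ) < q.c1 := by exact_mod_cast hc1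
  have c2p : (0 : ℝ) < q.c2 := by exact_mod_cast hc2
  have d3p : (0 : ℝ) < q.d3 := by exact_mod_cast hd3
  have d4p : (0 : ℝ) < q.d4 := by exact_mod_cast hd4
  -- the main inequality
  have hmain : p.m1 * (X1 / q.c1) + p.m2 * (X2 / q.c2) + p.m3 * (q.d3 / Y3) +
      p.m4 * (q.d4 / Y4) ≤ p.m1 + p.m2 + p.m3 + p.m4 := by
    simp only [mainPoly, ev_padd, ev_psmul, ev_pmul, ← hX1, ← hX2, ← hY3d, ← hY4d] at pP
    push_cast at pP
    have e : p.m1 * (X1 / q.c1) + p.m2 * (X2 / q.c2) + p.m3 * (q.d3 / Y3) +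
      p.m4 * (q.d4 / Y4) = (p.m1 * q.c2 * X1 * Y3 * Y4 + p.m2 * q.c1 * X2 * Y3 * Y4 +
        p.m3 * q.d3 * q.c1 * q.c2 * Y4 + p.m4 * q.d4 * q.c1 * q.c2 * Y3) /
        (q.c1 * q.c2 * Y3 * Y4) := by
      field_simp
    rw [e, div_le_iff₀ (by positivity)]
    linear_combination pP
  have hR' : ((q.c1 : ℝ) / n ^ 4) ^ p.m1 * ((q.c2 : ℝ) / n ^ 4) ^ p.m2 ≤
      (p.Rn / p.Rd : ℝ) * (((q.d3 : ℝ) / n ^ 4) ^ p.m3 * ((q.d4 : ℝ) / n ^ 2) ^ p.m4) := by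
    have h1 : ((p.Rd * (q.c1 ^ p.m1 * q.c2 ^ p.m2) * (s.den D) ^ (4 * p.m3 + 2 * p.m4) : ℕ) : ℝ) ≤
      ((p.Rn * (q.d3 ^ p.m3 * q.d4 ^ p.m4) * (s.den D) ^ (4 * p.m1 + 4 * p.m2) : ℕ) : ℝ) := by
      exact_mod_cast hR
    have hnd : ((s.den D : ℕ) : ℝ) = n := by rw [hn]; simp
    push_cast at h1
    rw [hnd] at h1
    have hRdr : (0 : ℝ) < p.Rd := by exact_mod_cast hRd
    rw [div_pow, div_pow, div_pow, div_pow, ← pow_mul, ← pow_mul, ← pow_mul, ← pow_mul]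
    have e5 : (q.c1 : ℝ) ^ p.m1 / (n : ℝ) ^ (4 * p.m1) * ((q.c2 : ℝ) ^ p.m2 / (n : ℝ) ^ (4 * p.m2)) =
        ((q.c1 : ℝ) ^ p.m1 * (q.c2 : ℝ) ^ p.m2) / (n : ℝ) ^ (4 * p.m1 + 4 * p.m2) := by
      rw [pow_add]; field_simp
    have e6 : (p.Rn / p.Rd : ℝ) * ((q.d3 : ℝ) ^ p.m3 / (n : ℝ) ^ (4 * p.m3) *
        ((q.d4 : ℝ) ^ p.m4 / (n : ℝ) ^ (2 * p.m4))) =
        (p.Rn * ((q.d3 : ℝ) ^ p.m3 * (q.d4 : ℝ) ^ p.m4)) /
          (p.Rd * (n : ℝ) ^ (4 * p.m3 + 2 * p.m4)) := by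
      rw [pow_add]; field_simp
    rw [e5, e6, div_le_div_iff₀ (by positivity) (by positivity)]
    calc (q.c1 : ℝ) ^ p.m1 * (q.c2 : ℝ) ^ p.m2 * (p.Rd * (n : ℝ) ^ (4 * p.m3 + 2 * p.m4))
        = p.Rd * ((q.c1 : ℝ) ^ p.m1 * (q.c2 : ℝ) ^ p.m2) * (n : ℝ) ^ (4 * p.m3 + 2 * p.m4) := by
          ring
      _ ≤ _ := h1
  have n4 : (0 : ℝ) < (n : ℝ) ^ 4 := by positivity
  have n2 : (0 : ℝ) < (n : ℝ) ^ 2 := by positivity
  unfold GoodPt
  rw [e1, e2, e3', e4]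
  apply first_order (c1 := q.c1 / (n : ℝ) ^ 4) (c2 := q.c2 / (n : ℝ) ^ 4)
    (d3 := q.d3 / (n : ℝ) ^ 4) (d4 := q.d4 / (n : ℝ) ^ 2) (by positivity) (by positivity)
    (by positivity) (by positivity) (by positivity) (by positivity) (by positivity)
    (by positivity)
  · have r1 : X1 / (n : ℝ) ^ 4 / (q.c1 / (n : ℝ) ^ 4) = X1 / q.c1 := by field_simp
    have r2 : X2 / (n : ℝ) ^ 4 / (q.c2 / (n : ℝ) ^ 4) = X2 / q.c2 := by field_simp
    have r3 : q.d3 / (n : ℝ) ^ 4 / (Y3 / (n : ℝ) ^ 4) = q.d3 / Y3 := by field_simp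
    have r4 : q.d4 / (n : ℝ) ^ 2 / (Y4 / (n : ℝ) ^ 2) = q.d4 / Y4 := by field_simp
    rw [r1, r2, r3, r4]
    exact hmain
  · exact hR'

/-! ## Lists of pieces -/

/-- all pieces are checked and consecutive from `u0` to `D` -/
def checkList (p : Prob) (s : Seg) (D : ℕ) : ℕ → List Piece → Bool
  | u0, [] => decide (D ≤ u0)
  | u0, q :: l => decide (q.u = u0) && decide (q.u < q.w) && checkPiece p s D q &&
      checkList p s D q.w l

theorem checkList_spec {p : Prob} (hRd : 0 < p.Rd) {s : Seg} (hN : 0 < s.N) {D : ℕ}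
    (hD : 0 < D) (l : List Piece) : ∀ {u0 : ℕ}, checkList p s D u0 l = true →
    ∀ {t : ℝ}, (u0 : ℝ) / D ≤ t → t < 1 → GoodPt p (s.A + t * (s.B - s.A)) := by
  induction l with
  | nil =>
    intro u0 h t h1 h2
    simp only [checkList, decide_eq_true_eq] at h
    exfalso
    have hDr : (0 : ℝ) < D := by exact_mod_cast hD
    have h3 : (D : ℝ) ≤ u0 := by exact_mod_cast h
    have h4 : (1 : ℝ) ≤ (u0 : ℝ) / D := by rwa [le_div_iff₀ hDr, one_mul]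
    linarith
  | cons q l ih =>
    intro u0 h t h1 h2
    simp only [checkList, Bool.and_eq_true, decide_eq_true_eq] at h
    obtain ⟨⟨⟨hu, hlt⟩, hq⟩, hl⟩ := h
    rcases le_or_gt t ((q.w : ℝ) / D) with h3 | h3
    · exact checkPiece_spec hRd hN hD hq (by rw [hu]; exact h1) h3 hlt
    · exact ih hl h3.le h2

theorem continuous_good_left (p : Prob) (s : Seg) : Continuous fun t : ℝ =>
    (‖(s.A + t * (s.B - s.A)) ^ 2 - 2 * (s.A + t * (s.B - s.A)) + 2‖ ^ 2) ^ p.m1 *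
      (‖(s.A + t * (s.B - s.A)) ^ 2 - 3 * (s.A + t * (s.B - s.A)) + 2‖ ^ 2) ^ p.m2 := by
  fun_prop

theorem continuous_good_right (p : Prob) (s : Seg) : Continuous fun t : ℝ =>
    (p.Rn / p.Rd : ℝ) * ((‖(s.A + t * (s.B - s.A)) ^ 2 - 2‖ ^ 2) ^ p.m3 *
      (‖s.A + t * (s.B - s.A)‖ ^ 2) ^ p.m4) := by
  fun_prop

/-- The bound on a whole segment. -/
theorem segment_bound {p : Prob} (hRd : 0 < p.Rd) {s : Seg} (hN : 0 < s.N) {D : ℕ}
    (hD : 0 < D) {l : List Piece} (h : checkList p s D 0 l = true) {t : ℝ} (h0 : 0 ≤ t)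
    (h1 : t ≤ 1) : GoodPt p (s.A + t * (s.B - s.A)) := by
  rcases h1.lt_or_eq with h2 | h2
  · exact checkList_spec hRd hN hD l h (by simpa using h0) h2
  · have hcl : IsClosed {t : ℝ | GoodPt p (s.A + t * (s.B - s.A))} :=
      isClosed_le (continuous_good_left p s) (continuous_good_right p s)
    have hsub : Set.Ico (0 : ℝ) 1 ⊆ {t : ℝ | GoodPt p (s.A + t * (s.B - s.A))} := fun t' ht' =>
      checkList_spec hRd hN hD l h (by simpa using ht'.1) ht'.2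
    have h3 : closure (Set.Ico (0 : ℝ) 1) ⊆ {t : ℝ | GoodPt p (s.A + t * (s.B - s.A))} :=
      hcl.closure_subset_iff.2 hsub
    rw [closure_Ico (by norm_num)] at h3
    rw [h2]
    exact h3 ⟨zero_le_one, le_rfl⟩

theorem pow_sq_comm (x : ℝ) (m : ℕ) : (x ^ m) ^ 2 = (x ^ 2) ^ m := by
  rw [← pow_mul, ← pow_mul, Nat.mul_comm]

/-- Translation to the functions `TT` and `YY`. -/
theorem good_norms {p : Prob} {z : ℂ} (h : GoodPt p z) (hz : z ≠ 0)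
    (hm : p.m1 + p.m2 = p.m3 + p.m4) :
    (‖TT z - 2‖ ^ p.m1 * ‖TT z - 3‖ ^ p.m2) ^ 2 ≤ (p.Rn / p.Rd : ℝ) * (‖YY z‖ ^ p.m3) ^ 2 := by
  have e1 : TT z - 2 = (z ^ 2 - 2 * z + 2) / z := by unfold TT; field_simp; ring
  have e2 : TT z - 3 = (z ^ 2 - 3 * z + 2) / z := by unfold TT; field_simp; ring
  have e3 : YY z = (z ^ 2 - 2) / z := by unfold YY; field_simp
  have hzn : 0 < ‖z‖ := norm_pos_iff.2 hz
  unfold GoodPt at h
  rw [e1, e2, e3, norm_div, norm_div, norm_div]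
  have l1 : ((‖z ^ 2 - 2 * z + 2‖ / ‖z‖) ^ p.m1 * (‖z ^ 2 - 3 * z + 2‖ / ‖z‖) ^ p.m2) ^ 2 =
      ((‖z ^ 2 - 2 * z + 2‖ ^ 2) ^ p.m1 * (‖z ^ 2 - 3 * z + 2‖ ^ 2) ^ p.m2) /
        (‖z‖ ^ 2) ^ (p.m1 + p.m2) := by
    rw [div_pow, div_pow, mul_pow, div_pow, div_pow, pow_add]
    have a1 : (‖z ^ 2 - 2 * z + 2‖ ^ p.m1) ^ 2 = (‖z ^ 2 - 2 * z + 2‖ ^ 2) ^ p.m1 := pow_sq_comm _ _
    have a2 : (‖z ^ 2 - 3 * z + 2‖ ^ p.m2) ^ 2 = (‖z ^ 2 - 3 * z + 2‖ ^ 2) ^ p.m2 := pow_sq_comm _ _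
    have a3 : (‖z‖ ^ p.m1) ^ 2 = (‖z‖ ^ 2) ^ p.m1 := pow_sq_comm _ _
    have a4 : (‖z‖ ^ p.m2) ^ 2 = (‖z‖ ^ 2) ^ p.m2 := pow_sq_comm _ _
    rw [a1, a2, a3, a4]
    field_simp
  have l2 : ((‖z ^ 2 - 2‖ / ‖z‖) ^ p.m3) ^ 2 =
      ((‖z ^ 2 - 2‖ ^ 2) ^ p.m3 * (‖z‖ ^ 2) ^ p.m4) / (‖z‖ ^ 2) ^ (p.m1 + p.m2) := by
    rw [hm, div_pow, div_pow, pow_add]
    have a1 : (‖z ^ 2 - 2‖ ^ p.m3) ^ 2 = (‖z ^ 2 - 2‖ ^ 2) ^ p.m3 := pow_sq_comm _ _
    have a3 : (‖z‖ ^ p.m3) ^ 2 = (‖z‖ ^ 2) ^ p.m3 := pow_sq_comm _ _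
    rw [a1, a3]
    field_simp
  rw [l1, l2, ← mul_div_assoc]
  exact div_le_div_of_nonneg_right h (by positivity)

/-- The first segment of the broken line. -/
def segOne (N vr vi : ℕ) : Seg := ⟨N, N, 0, vr, vi⟩

/-- The second segment of the broken line. -/
def segTwo (N vr vi : ℕ) : Seg := ⟨N, vr, vi, N, N⟩

/-- The bound along the broken line. -/
theorem path_bound {m1 m2 m3 m4 rn rd N vr vi D : ℕ} (hm : m1 + m2 = m3 + m4) (hrd : 0 < rd)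
    (hN : 0 < N) (hvr : 0 < vr) (hvi : 0 < vi) (hD : 0 < D) {LA LB : List Piece}
    (hA : checkList ⟨m1, m2, m3, m4, rn ^ 2, rd ^ 2⟩ (segOne N vr vi) D 0 LA = true)
    (hB : checkList ⟨m1, m2, m3, m4, rn ^ 2, rd ^ 2⟩ (segTwo N vr vi) D 0 LB = true) :
    0 < (⟨vr / N, vi / N⟩ : ℂ).re ∧ 0 < (⟨vr / N, vi / N⟩ : ℂ).im ∧
      ∀ z ∈ pts ⟨vr / N, vi / N⟩,
        ‖TT z - 2‖ ^ m1 * ‖TT z - 3‖ ^ m2 ≤ (rn / rd : ℝ) * ‖YY z‖ ^ m3 := by
  have hNr : (0 : ℝ) < N := by exact_mod_cast hN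
  have hvr' : (0 : ℝ) < vr := by exact_mod_cast hvr
  have hvi' : (0 : ℝ) < vi := by exact_mod_cast hvi
  have hre : 0 < (⟨vr / N, vi / N⟩ : ℂ).re := by positivity
  have him : 0 < (⟨vr / N, vi / N⟩ : ℂ).im := by positivity
  refine ⟨hre, him, ?_⟩
  intro z hz
  have hz0 : z ≠ 0 := ne_zero_of_re_pos (pts_prop hre him hz).1
  have hgood : GoodPt ⟨m1, m2, m3, m4, rn ^ 2, rd ^ 2⟩ z := by
    obtain ⟨t, ⟨ht0, ht1⟩, h⟩ := hz
    have hRd : 0 < rd ^ 2 := by positivity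
    rcases h with h | h
    · have := segment_bound (p := ⟨m1, m2, m3, m4, rn ^ 2, rd ^ 2⟩) hRd
        (s := segOne N vr vi) hN hD hA ht0 ht1
      have e1 : (segOne N vr vi).A = 1 := by
        apply Complex.ext
        · simp [segOne, Seg.A, hNr.ne']
        · simp [segOne, Seg.A]
      have e2 : (segOne N vr vi).B = ⟨vr / N, vi / N⟩ := by
        simp [segOne, Seg.B]
      rw [e1, e2, ← h] at this
      exact this
    · have := segment_bound (p := ⟨m1, m2, m3, m4, rn ^ 2, rd ^ 2⟩) hRd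
        (s := segTwo N vr vi) hN hD hB ht0 ht1
      have e1 : (segTwo N vr vi).B = 1 + I := by
        apply Complex.ext
        · simp [segTwo, Seg.B, hNr.ne']
        · simp [segTwo, Seg.B, hNr.ne']
      have e2 : (segTwo N vr vi).A = ⟨vr / N, vi / N⟩ := by
        simp [segTwo, Seg.A]
      rw [e1, e2, ← h] at this
      exact this
  have h2 := good_norms hgood hz0 hm
  have hrdr : (0 : ℝ) < rd := by exact_mod_cast hrd
  have h3 : (‖TT z - 2‖ ^ m1 * ‖TT z - 3‖ ^ m2) ^ 2 ≤ ((rn / rd : ℝ) * ‖YY z‖ ^ m3) ^ 2 := by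
    refine h2.trans (le_of_eq ?_)
    push_cast
    rw [mul_pow, div_pow]
  exact (pow_le_pow_iff_left₀ (by positivity) (by positivity) (by norm_num)).1 h3

end Vale.Agent.P021
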